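import Crest.Agent.R55.EntLib

/-! Row 55, piece Alpha: laws of random subsets of `H`. Definitions in Defs.lean, entropy facts in
EntLib.lean. -/

set_option autoImplicit false
open Finset
open scoped Pointwise

namespace Crest.Agent.R55

variable {𝔊 : Type} [Group 𝔊] [Fintype 𝔊] {X : Type} [Fintype X] [DecidableEq X] [MulAction 𝔊 X]

/-- `Ent (Av u) = ∑_T Av u T (-log (Av u T))`, and `Av u T * |orbit T| ≤ 1` since `Av u` is
constant on the orbit of `T`, so `-log (Av u T) ≥ log |orbit T| ≥ |T| (-log p) - log 2`, when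
`Av u T ≠ 0` (then `T = g • S` with `S ⊆ H`, and `|T| = |S|`, `orbit T = orbit S`). -/
theorem hyp_ent (H : Finset X) (p : ℝ) (hp : 0 < p)
    (hyp : ∀ S ⊆ H, (1 : ℝ) / 2 ≤ ((univ.image (fun g : 𝔊 => g • S)).card : ℝ) * p ^ S.card)
    (u : Finset X → ℝ) (hu : IsLaw H u) :
    sizeL u * (-Real.log p) - Real.log 2 ≤ Ent (Av 𝔊 u) := by
  classical
  have hsum : ∑ T, Av 𝔊 u T = 1 := by rw [sum_Av, hu.sum_one]
  have hnn : ∀ T, 0 ≤ Av 𝔊 u T := Av_nonneg hu.nonneg
  have hsize : ∑ T, Av 𝔊 u T * (T.card : ℝ) = sizeL u := by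
    unfold sizeL
    exact sum_Av_mul u (fun T => (T.card : ℝ)) (fun g T => by simp [card_smul_finset])
  have hL : sizeL u * (-Real.log p) - Real.log 2 =
      ∑ T, Av 𝔊 u T * ((T.card : ℝ) * (-Real.log p) - Real.log 2) := by
    simp_rw [mul_sub, ← mul_assoc]
    rw [sum_sub_distrib, ← sum_mul, ← sum_mul, hsize, hsum, one_mul]
  rw [hL, Ent_eq_sum]
  refine sum_le_sum fun T _ => ?_
  by_cases h0 : Av 𝔊 u T = 0
  · rw [h0]; simp
  · have hpos : 0 < Av 𝔊 u T := lt_of_le_of_ne (hnn T) (Ne.symm h0)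
    refine mul_le_mul_of_nonneg_left ?_ hpos.le
    obtain ⟨g, hg⟩ := Av_ne_zero_exists h0
    set S := g • T with hS
    have hSH : S ⊆ H := hu.supp S hg
    have hcard : S.card = T.card := by rw [hS, card_smul_finset]
    set O := univ.image (fun g : 𝔊 => g • S) with hO
    have hOv : ∀ T' ∈ O, Av 𝔊 u T' = Av 𝔊 u T := by
      intro T' hT'
      rw [hO, mem_image] at hT'
      obtain ⟨k, _, rfl⟩ := hT'
      rw [Av_smul, hS, Av_smul]
    have h1 : (O.card : ℝ) * Av 𝔊 u T ≤ 1 := by
      calc (O.card : ℝ) * Av 𝔊 u T = ∑ T' ∈ O, Av 𝔊 u T' := by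
            rw [sum_congr rfl hOv, sum_const, nsmul_eq_mul]
        _ ≤ ∑ T', Av 𝔊 u T' := sum_le_sum_of_subset_of_nonneg (subset_univ _) (fun T' _ _ => hnn T')
        _ = 1 := hsum
    have h2 := hyp S hSH
    rw [← hO, hcard] at h2
    have hpp : 0 < p ^ T.card := pow_pos hp _
    have h3 : Av 𝔊 u T ≤ 2 * p ^ T.card := by
      by_contra hcon
      push Not at hcon
      have hOpos : 0 < (O.card : ℝ) := by
        by_contra hneg
        push Not at hneg
        nlinarith
      nlinarith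
    have h4 : Real.log (Av 𝔊 u T) ≤ Real.log (2 * p ^ T.card) := Real.log_le_log hpos h3
    rw [Real.log_mul two_ne_zero hpp.ne', Real.log_pow] at h4
    linarith

/-- `α = inf (II u + log 2) / sizeL u` over all laws with `sizeL u > 0`. -/
theorem exists_alpha (𝔊 : Type) [Group 𝔊] [Fintype 𝔊] [MulAction 𝔊 X] (H : Finset X)
    (hH : H.Nonempty) :
    ∃ α : ℝ, 0 ≤ α ∧ (∀ u, IsLaw H u → α * sizeL u - Real.log 2 ≤ II 𝔊 u) ∧
      ∀ ε > 0, ∃ u, IsLaw H u ∧ 0 < sizeL u ∧ II 𝔊 u - α * sizeL u + Real.log 2 ≤ ε * sizeL u := by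
  classical
  have hlog2 : 0 < Real.log 2 := Real.log_pos (by norm_num)
  let A : Set ℝ := {r | ∃ u, IsLaw H u ∧ 0 < sizeL u ∧ r = (II 𝔊 u + Real.log 2) / sizeL u}
  have hAne : A.Nonempty := by
    let u : Finset X → ℝ := fun S => if S = H then 1 else 0
    have hu : IsLaw H u := by
      refine ⟨fun S => ?_, ?_, fun S hS => ?_⟩
      · simp only [u]; split_ifs <;> norm_num
      · simp [u]
      · simp only [u, ne_eq, ite_eq_right_iff, one_ne_zero, imp_false, not_not] at hS
        exact hS ▸ Subset.refl _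
    have hs : 0 < sizeL u := by
      have : sizeL u = (H.card : ℝ) := by simp [sizeL, u]
      rw [this]
      exact_mod_cast card_pos.2 hH
    exact ⟨_, u, hu, hs, rfl⟩
  have hAbd : ∀ r ∈ A, 0 ≤ r := by
    rintro r ⟨u, hu, hs, rfl⟩
    have := II_nonneg (𝔊 := 𝔊) hu.nonneg
    positivity
  have hbdd : BddBelow A := ⟨0, hAbd⟩
  refine ⟨sInf A, le_csInf hAne hAbd, ?_, ?_⟩
  · intro u hu
    have h0 := II_nonneg (𝔊 := 𝔊) hu.nonneg
    have hs0 : 0 ≤ sizeL u := sum_nonneg fun S _ => mul_nonneg (hu.nonneg S) (Nat.cast_nonneg _)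
    rcases hs0.eq_or_lt with h | h
    · rw [← h]; linarith
    · have h1 : sInf A ≤ (II 𝔊 u + Real.log 2) / sizeL u := csInf_le hbdd ⟨u, hu, h, rfl⟩
      rw [le_div_iff₀ h] at h1
      linarith
  · intro ε hε
    obtain ⟨r, ⟨u, hu, hs, rfl⟩, hr⟩ := exists_lt_of_csInf_lt hAne (lt_add_of_pos_right (sInf A) hε)
    refine ⟨u, hu, hs, ?_⟩
    rw [div_lt_iff₀ hs] at hr
    nlinarith

/-- entropy of a uniform law. -/
theorem Ent_unif {β : Type} [Fintype β] [DecidableEq β] (F : Finset β) (hF : F.Nonempty) :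
    Ent (fun a => if a ∈ F then (F.card : ℝ)⁻¹ else 0) = Real.log F.card := by
  have hc : (0 : ℝ) < F.card := by exact_mod_cast card_pos.2 hF
  unfold Ent
  have : ∀ a : β, Real.negMulLog (if a ∈ F then (F.card : ℝ)⁻¹ else 0) =
      if a ∈ F then Real.negMulLog (F.card : ℝ)⁻¹ else 0 := by
    intro a; split_ifs <;> simp
  simp_rw [this]
  rw [← sum_filter, filter_mem_eq_inter, univ_inter, sum_const, nsmul_eq_mul]
  unfold Real.negMulLog
  rw [Real.log_inv]
  field_simp

/-- apply `hα` to the uniform law `u` on `{T ⊆ H : T = g • S}` (if it is nonempty):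
`Ent u = log N(S,H)`, `Av u` is uniform on the orbit, `Ent (Av u) = log N_S`, so
`N(S,H) ≤ 2 N_S e^{-α|S|}`, and `#{g | S ⊆ g • H} / |𝔊| = N(S,H)/N_S`. -/
theorem count_of_alpha (H : Finset X) (α : ℝ)
    (hα : ∀ u, IsLaw H u → α * sizeL u - Real.log 2 ≤ II 𝔊 u) (q : ℝ) (hq : 0 < q)
    (hqα : -Real.log q ≤ α) (S : Finset X) :
    ((univ.filter (fun g : 𝔊 => S ⊆ g • H)).card : ℝ) ≤ 2 * q ^ S.card * Fintype.card 𝔊 := by
  classical
  have hG : (0 : ℝ) < Fintype.card 𝔊 := card_pos_real
  rcases (univ.filter (fun g : 𝔊 => S ⊆ g • H)).eq_empty_or_nonempty with hemp | hne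
  · rw [hemp]; simp only [card_empty, Nat.cast_zero]; positivity
  · -- number of `g` with `g • S ⊆ H`
    set M := (univ.filter (fun g : 𝔊 => g • S ⊆ H)).card with hM
    have hM' : (univ.filter (fun g : 𝔊 => S ⊆ g • H)).card = M := by
      rw [hM]
      refine card_bij (fun g _ => g⁻¹) ?_ ?_ ?_
      · intro g hg
        rw [mem_filter] at hg ⊢
        refine ⟨mem_univ _, ?_⟩
        have := smul_finset_subset_smul_finset (a := g⁻¹) hg.2
        rwa [inv_smul_smul] at this
      · intro a _ b _ hab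
        exact inv_injective hab
      · intro g hg
        rw [mem_filter] at hg
        refine ⟨g⁻¹, ?_, inv_inv g⟩
        rw [mem_filter]
        refine ⟨mem_univ _, ?_⟩
        have := smul_finset_subset_smul_finset (a := g⁻¹) hg.2
        rwa [inv_smul_smul] at this
    set O := univ.image (fun g : 𝔊 => g • S) with hO
    set F := O.filter (fun T => T ⊆ H) with hF
    have hcardO : ∀ T ∈ O, T.card = S.card := by
      intro T hT
      rw [hO, mem_image] at hT
      obtain ⟨k, _, rfl⟩ := hT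
      exact card_smul_finset _ _
    have hOne : O.Nonempty := ⟨S, by rw [hO, mem_image]; exact ⟨1, mem_univ _, one_smul _ _⟩⟩
    have hFne : F.Nonempty := by
      obtain ⟨g, hg⟩ := hne
      rw [mem_filter] at hg
      refine ⟨g⁻¹ • S, ?_⟩
      rw [hF, mem_filter, hO, mem_image]
      refine ⟨⟨g⁻¹, mem_univ _, rfl⟩, ?_⟩
      have := smul_finset_subset_smul_finset (a := g⁻¹) hg.2
      rwa [inv_smul_smul] at this
    have hFc : (0 : ℝ) < F.card := by exact_mod_cast card_pos.2 hFne
    have hOc : (0 : ℝ) < O.card := by exact_mod_cast card_pos.2 hOne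
    let u : Finset X → ℝ := fun T => if T ∈ F then (F.card : ℝ)⁻¹ else 0
    have hu : IsLaw H u := by
      refine ⟨fun T => ?_, ?_, fun T hT => ?_⟩
      · simp only [u]; split_ifs
        · positivity
        · exact le_rfl
      · simp only [u]
        rw [← sum_filter, filter_mem_eq_inter, univ_inter, sum_const, nsmul_eq_mul]
        field_simp
      · simp only [u] at hT
        by_cases h : T ∈ F
        · rw [hF, mem_filter] at h; exact h.2
        · rw [if_neg h] at hT; exact absurd rfl hT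
    have hsize : sizeL u = S.card := by
      unfold sizeL
      simp only [u]
      simp_rw [ite_mul, zero_mul]
      rw [← sum_filter, filter_mem_eq_inter, univ_inter]
      have : ∀ T ∈ F, (F.card : ℝ)⁻¹ * (T.card : ℝ) = (F.card : ℝ)⁻¹ * (S.card : ℝ) := by
        intro T hT
        rw [hF, mem_filter] at hT
        rw [hcardO T hT.1]
      rw [sum_congr rfl this, sum_const, nsmul_eq_mul]
      field_simp
    -- the average
    have hmemF : ∀ k : 𝔊, (k • S ∈ F ↔ k • S ⊆ H) := by
      intro k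
      rw [hF, mem_filter, hO, mem_image]
      constructor
      · exact fun h => h.2
      · exact fun h => ⟨⟨k, mem_univ _, rfl⟩, h⟩
    have hAvS : Av 𝔊 u S = (M : ℝ) / (F.card * Fintype.card 𝔊) := by
      unfold Av
      have h1 : ∑ g : 𝔊, u (g⁻¹ • S) = ∑ g : 𝔊, u (g • S) :=
        Fintype.sum_equiv (Equiv.inv 𝔊) _ _ (fun g => rfl)
      rw [h1]
      simp only [u, hmemF]
      rw [← sum_filter, sum_const, nsmul_eq_mul, ← hM]
      field_simp
    have hAvO : ∀ T ∈ O, Av 𝔊 u T = Av 𝔊 u S := by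
      intro T hT
      rw [hO, mem_image] at hT
      obtain ⟨k, _, rfl⟩ := hT
      exact Av_smul _ _ _
    have hAv0 : ∀ T, T ∉ O → Av 𝔊 u T = 0 := by
      intro T hT
      by_contra h
      obtain ⟨g, hg⟩ := Av_ne_zero_exists h
      have hgF : g • T ∈ F := by
        by_contra h'
        exact hg (if_neg h')
      rw [hF, mem_filter, hO, mem_image] at hgF
      obtain ⟨⟨k, _, hk⟩, _⟩ := hgF
      apply hT
      rw [hO, mem_image]
      refine ⟨g⁻¹ * k, mem_univ _, ?_⟩
      rw [mul_smul, hk, inv_smul_smul]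
    have hsumO : (O.card : ℝ) * Av 𝔊 u S = 1 := by
      have h1 : ∑ T, Av 𝔊 u T = 1 := by rw [sum_Av, hu.sum_one]
      rw [← h1, ← sum_subset (subset_univ O) (fun T _ hT => hAv0 T hT), sum_congr rfl hAvO,
        sum_const, nsmul_eq_mul]
    have hAvS' : Av 𝔊 u S = (O.card : ℝ)⁻¹ := by
      field_simp
      linarith
    have hAvu : Av 𝔊 u = fun T => if T ∈ O then (O.card : ℝ)⁻¹ else 0 := by
      funext T
      by_cases h : T ∈ O
      · rw [if_pos h, hAvO T h, hAvS']
      · rw [if_neg h, hAv0 T h]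
    have hII : II 𝔊 u = Real.log O.card - Real.log F.card := by
      unfold II
      rw [hAvu, Ent_unif O hOne, Ent_unif F hFne]
    have h1 := hα u hu
    rw [hII, hsize] at h1
    -- conclude
    have h2 : (M : ℝ) = F.card * Fintype.card 𝔊 / O.card := by
      rw [hAvS] at hAvS'
      field_simp at hAvS' ⊢
      linarith
    rw [hM', h2]
    have h3 : Real.log F.card ≤ Real.log (2 * q ^ S.card * O.card) := by
      rw [Real.log_mul (by positivity) hOc.ne', Real.log_mul two_ne_zero (by positivity),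
        Real.log_pow]
      have : (S.card : ℝ) * (-Real.log q) ≤ (S.card : ℝ) * α :=
        mul_le_mul_of_nonneg_left hqα (Nat.cast_nonneg _)
      linarith
    have h4 : (F.card : ℝ) ≤ 2 * q ^ S.card * O.card :=
      (Real.log_le_log_iff hFc (by positivity)).1 h3
    rw [div_le_iff₀ hOc]
    nlinarith

end Crest.Agent.R55
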