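import Crest.Agent.R55.Defs

/-! Row 55, piece Analytic: real inequalities. `F3`, `psi2`, `BB` are in Defs.lean. -/

set_option autoImplicit false
open Finset

namespace Crest.Agent.R55

theorem F3_nonneg {y : ℝ} (h0 : 0 ≤ y) : 0 ≤ F3 y := by
  unfold F3; positivity

theorem F3_le {y : ℝ} (h0 : 0 ≤ y) (h1 : y ≤ 1) : F3 y ≤ 2 * y := by
  unfold F3
  have : √y ≤ 1 := by rw [Real.sqrt_le_one]; exact h1
  have h2 := Real.sqrt_nonneg y
  nlinarith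

theorem BB_nonneg (y y0 : ℝ) : 0 ≤ BB y y0 := by
  unfold BB; positivity

theorem BB_eq {y y0 : ℝ} (h : 0 ≤ y) (h0 : 0 ≤ y0) :
    BB y y0 = F3 y - F3 y0 - 3 * √y0 * (y - y0) := by
  unfold BB F3
  obtain ⟨r, hr, rfl⟩ : ∃ r : ℝ, 0 ≤ r ∧ y = r ^ 2 := ⟨√y, Real.sqrt_nonneg _, (Real.sq_sqrt h).symm⟩
  obtain ⟨r0, hr0, rfl⟩ : ∃ r : ℝ, 0 ≤ r ∧ y0 = r ^ 2 :=
    ⟨√y0, Real.sqrt_nonneg _, (Real.sq_sqrt h0).symm⟩
  rw [Real.sqrt_sq hr, Real.sqrt_sq hr0]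
  ring

theorem BB_ge {y y0 : ℝ} (h : 0 ≤ y) (h0 : √y0 ≤ √y / 3) : 8 / 9 * (y * √y) ≤ BB y y0 := by
  unfold BB
  obtain ⟨r, hr, rfl⟩ : ∃ r : ℝ, 0 ≤ r ∧ y = r ^ 2 := ⟨√y, Real.sqrt_nonneg _, (Real.sq_sqrt h).symm⟩
  have hz := Real.sqrt_nonneg y0
  rw [Real.sqrt_sq hr] at *
  set z := √y0
  have h1 : (2 * r / 3) ^ 2 ≤ (r - z) ^ 2 := by
    apply pow_le_pow_left₀ (by positivity)
    linarith
  have h2 : r ≤ r + z / 2 := by linarith
  calc 8 / 9 * (r ^ 2 * r) = 2 * (2 * r / 3) ^ 2 * r := by ring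
    _ ≤ 2 * (r - z) ^ 2 * (r + z / 2) := by
      apply mul_le_mul (by linarith) h2 hr (by positivity)

theorem le_of_sq_le_sq {a b : ℝ} (h : a ^ 2 ≤ b ^ 2) (hb : 0 ≤ b) : a ≤ b :=
  le_of_abs_le (abs_le_of_sq_le_sq h hb)

theorem psi2_sq {s w : ℝ} (hs : 0 ≤ s) (hw : 0 ≤ w) (hw2 : w ^ 2 = 2 - s ^ 2) :
    psi2 (s ^ 2) = 2 * s ^ 3 * w ^ 3 - 4 * s ^ 3 := by
  unfold psi2 F3
  have h1 : 2 * s ^ 2 - (s ^ 2) ^ 2 = (s * w) ^ 2 := by rw [mul_pow, hw2]; ring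
  rw [h1, Real.sqrt_sq (mul_nonneg hs hw), Real.sqrt_sq hs]
  ring

/-- with `s = √y`: `2 (2-s²)^{3/2} ≥ 5 - 3 s`, i.e. `4 (2-s²)³ ≥ (5-3s)²` on `[0,1]`. -/
theorem psi2_ge {y : ℝ} (h0 : 0 ≤ y) (h1 : y ≤ 1) : y * √y ≤ psi2 y + 3 * y ^ 2 := by
  obtain ⟨s, hs, rfl⟩ : ∃ s : ℝ, 0 ≤ s ∧ y = s ^ 2 := ⟨√y, Real.sqrt_nonneg _, (Real.sq_sqrt h0).symm⟩
  have hs1 : s ≤ 1 := by nlinarith
  obtain ⟨w, hw, hw2⟩ : ∃ w : ℝ, 0 ≤ w ∧ w ^ 2 = 2 - s ^ 2 :=
    ⟨√(2 - s ^ 2), Real.sqrt_nonneg _, Real.sq_sqrt (by nlinarith)⟩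
  rw [psi2_sq hs hw hw2, Real.sqrt_sq hs]
  have h3 : 5 - 3 * s ≤ 2 * w ^ 3 := by
    apply le_of_sq_le_sq _ (by positivity)
    have h4 : (2 * w ^ 3) ^ 2 = 4 * (2 - s ^ 2) ^ 3 := by rw [← hw2]; ring
    have h5 : 4 * (2 - s ^ 2) ^ 3 - (5 - 3 * s) ^ 2 =
      (1 - s) * (7 + 37 * s - 20 * s ^ 2 - 20 * s ^ 3 + 4 * s ^ 4 + 4 * s ^ 5) := by ring
    have h6 : s ^ 2 ≤ s := by nlinarith
    have h7 : s ^ 3 ≤ s := by nlinarith
    have h8 : 0 ≤ (1 - s) * (7 + 37 * s - 20 * s ^ 2 - 20 * s ^ 3 + 4 * s ^ 4 + 4 * s ^ 5) := by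
      apply mul_nonneg (by linarith)
      have : 0 ≤ s ^ 4 := by positivity
      have : 0 ≤ s ^ 5 := by positivity
      linarith
    linarith
  have h9 : 0 ≤ s ^ 3 := by positivity
  nlinarith

theorem psi2_ge' {y : ℝ} (h0 : 0 ≤ y) (h1 : y ≤ 1) : 0 ≤ psi2 y + 2 * y ^ 2 := by
  obtain ⟨s, hs, rfl⟩ : ∃ s : ℝ, 0 ≤ s ∧ y = s ^ 2 := ⟨√y, Real.sqrt_nonneg _, (Real.sq_sqrt h0).symm⟩
  have hs1 : s ≤ 1 := by nlinarith
  obtain ⟨w, hw, hw2⟩ : ∃ w : ℝ, 0 ≤ w ∧ w ^ 2 = 2 - s ^ 2 :=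
    ⟨√(2 - s ^ 2), Real.sqrt_nonneg _, Real.sq_sqrt (by nlinarith)⟩
  rw [psi2_sq hs hw hw2]
  have h3 : 2 - s ≤ w ^ 3 := by
    apply le_of_sq_le_sq _ (by positivity)
    have h4 : (w ^ 3) ^ 2 = (2 - s ^ 2) ^ 3 := by rw [← hw2]; ring
    have h5 : (2 - s ^ 2) ^ 3 - (2 - s) ^ 2 =
      (1 - s) * (4 + 8 * s - 5 * s ^ 2 - 5 * s ^ 3 + s ^ 4 + s ^ 5) := by ring
    have h6 : s ^ 2 ≤ s := by nlinarith
    have h7 : s ^ 3 ≤ s := by nlinarith
    have h8 : 0 ≤ (1 - s) * (4 + 8 * s - 5 * s ^ 2 - 5 * s ^ 3 + s ^ 4 + s ^ 5) := by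
      apply mul_nonneg (by linarith)
      have : 0 ≤ s ^ 4 := by positivity
      have : 0 ≤ s ^ 5 := by positivity
      linarith
    linarith
  have h9 : 0 ≤ s ^ 3 := by positivity
  nlinarith

/-- `log u ≤ c u - 1 - log c` -/
theorem log_le_tangent {u c : ℝ} (hu : 0 < u) (hc : 0 < c) :
    Real.log u ≤ c * u - 1 - Real.log c := by
  have h := Real.log_le_sub_one_of_pos (mul_pos hc hu)
  rw [Real.log_mul hc.ne' hu.ne'] at h
  linarith

theorem core_pt {q P p y y0 m X : ℝ} (hq : 0 < q) (hP : 0 < P) (hp : 0 < p) (hy : 0 < y)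
    (hy0 : 0 < y0) (hm : 0 ≤ m) (hX : 0 ≤ X) :
    q * (Real.log P - Real.log q + 1 / 2 * Real.log y) ≤
      P * (BB y y0 / y) / (m + 1) + P * p + q / p * √y0 / (X + 1) +
      q * max (Real.log (m + 1) - 1 + Real.log (9 / 8)) (Real.log (X + 1) - 2 + Real.log 3) := by
  have hu : 0 < P / q := div_pos hP hq
  have hlu : Real.log (P / q) = Real.log P - Real.log q := Real.log_div hP.ne' hq.ne'
  have hsy : 0 < √y := Real.sqrt_pos.2 hy
  have hsy0 : 0 < √y0 := Real.sqrt_pos.2 hy0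
  have hly : 1 / 2 * Real.log y = Real.log (√y) := by rw [Real.log_sqrt hy.le]; ring
  rw [← hlu, hly]
  have hm1 : 0 < m + 1 := by linarith
  have hX1 : 0 < X + 1 := by linarith
  have n1 : 0 ≤ P * (BB y y0 / y) / (m + 1) := by
    have := BB_nonneg y y0; positivity
  have n2 : 0 ≤ P * p := by positivity
  have n3 : 0 ≤ q / p * √y0 / (X + 1) := by positivity
  rcases le_or_gt (√y0) (√y / 3) with h | h
  · have hB := BB_ge hy.le h
    have hB1 : 8 / 9 * √y ≤ BB y y0 / y := by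
      rw [le_div_iff₀ hy]; linarith
    have hB0 : 0 < BB y y0 / y := lt_of_lt_of_le (by positivity) hB1
    have hc : 0 < BB y y0 / y / (m + 1) := div_pos hB0 hm1
    have h1 := log_le_tangent hu hc
    have h2 : Real.log (BB y y0 / y / (m + 1)) = Real.log (BB y y0 / y) - Real.log (m + 1) :=
      Real.log_div hB0.ne' hm1.ne'
    have h3 : Real.log (8 / 9 * √y) ≤ Real.log (BB y y0 / y) :=
      Real.log_le_log (by positivity) hB1
    have h4 : Real.log (8 / 9 * √y) = - Real.log (9 / 8) + Real.log (√y) := by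
      rw [Real.log_mul (by norm_num) hsy.ne', ← Real.log_inv]
      norm_num
    have h5 : Real.log (P / q) + Real.log (√y) ≤ BB y y0 / y / (m + 1) * (P / q) +
        max (Real.log (m + 1) - 1 + Real.log (9 / 8)) (Real.log (X + 1) - 2 + Real.log 3) := by
      have := le_max_left (Real.log (m + 1) - 1 + Real.log (9 / 8))
        (Real.log (X + 1) - 2 + Real.log 3)
      linarith
    have h6 := mul_le_mul_of_nonneg_left h5 hq.le
    have h7 : q * (BB y y0 / y / (m + 1) * (P / q)) = P * (BB y y0 / y) / (m + 1) := by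
      field_simp
    rw [mul_add q (BB y y0 / y / (m + 1) * (P / q)), h7] at h6
    linarith
  · have h1 := log_le_tangent hu hp
    have h2 : 0 < √y0 / p := div_pos hsy0 hp
    have h3 := log_le_tangent h2 (inv_pos.2 hX1)
    rw [Real.log_inv, Real.log_div hsy0.ne' hp.ne'] at h3
    have h4 : Real.log (√y) ≤ Real.log (3 * √y0) := Real.log_le_log hsy (by linarith)
    rw [Real.log_mul (by norm_num) hsy0.ne'] at h4
    have h5 : Real.log (P / q) + Real.log (√y) ≤ p * (P / q) + (X + 1)⁻¹ * (√y0 / p) +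
        max (Real.log (m + 1) - 1 + Real.log (9 / 8)) (Real.log (X + 1) - 2 + Real.log 3) := by
      have := le_max_right (Real.log (m + 1) - 1 + Real.log (9 / 8))
        (Real.log (X + 1) - 2 + Real.log 3)
      linarith
    have h6 := mul_le_mul_of_nonneg_left h5 hq.le
    have h7 : q * (p * (P / q)) = P * p := by field_simp
    have h8 : q * ((X + 1)⁻¹ * (√y0 / p)) = q / p * √y0 / (X + 1) := by field_simp
    rw [mul_add q (p * (P / q) + _), mul_add q (p * (P / q)), h7, h8] at h6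
    linarith

/-- The pointwise inequality summed up.
For one index `j` put `u = P/q`.  If `√y0 ≤ √y/3` then `BB/y ≥ (8/9) √y`, and
`log u ≤ c u - 1 - log c` with `c = BB/(y (m+1))`;
otherwise `log u ≤ u p - 1 - log p` and `log (√y0/p) ≤ (√y0/p)/(X+1) - 1 + log (X+1)`, and
`log √y0 ≥ log √y - log 3`.  Sum with weights `q`, all other terms are nonnegative. -/
theorem core_sum {ι : Type} (s : Finset ι) (q P p y y0 : ι → ℝ) (A m X : ℝ)
    (hq : ∀ j ∈ s, 0 < q j) (hP : ∀ j ∈ s, 0 < P j) (hp : ∀ j ∈ s, 0 < p j)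
    (hy : ∀ j ∈ s, 0 < y j) (hy0 : ∀ j ∈ s, 0 < y0 j) (hm : 0 ≤ m) (hX : 0 ≤ X)
    (hA : ∑ j ∈ s, q j = A)
    (h5 : ∑ j ∈ s, P j * (BB (y j) (y0 j) / y j) ≤ (m + 1) * A)
    (h6 : ∑ j ∈ s, P j * p j ≤ A)
    (h7 : ∑ j ∈ s, q j / p j * √(y0 j) ≤ (X + 1) * A) :
    ∑ j ∈ s, q j * (Real.log (P j) - Real.log (q j) + 1 / 2 * Real.log (y j)) ≤
      A * (3 + max (Real.log (m + 1) - 1 + Real.log (9 / 8))
        (Real.log (X + 1) - 2 + Real.log 3)) := by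
  have hm1 : 0 < m + 1 := by linarith
  have hX1 : 0 < X + 1 := by linarith
  have h := Finset.sum_le_sum (fun j hj =>
    core_pt (hq j hj) (hP j hj) (hp j hj) (hy j hj) (hy0 j hj) hm hX)
  refine h.trans ?_
  rw [Finset.sum_add_distrib, Finset.sum_add_distrib, Finset.sum_add_distrib,
    ← Finset.sum_mul, hA, ← Finset.sum_div, ← Finset.sum_div]
  have h5' : (∑ j ∈ s, P j * (BB (y j) (y0 j) / y j)) / (m + 1) ≤ A := by
    rw [div_le_iff₀ hm1]; linarith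
  have h7' : (∑ j ∈ s, q j / p j * √(y0 j)) / (X + 1) ≤ A := by
    rw [div_le_iff₀ hX1]; linarith
  linarith

/-- The final numerical contradiction.  (`log (m+1) ≤ (m+1)/e³ + 2`,
`log (X+1) ≤ (X+1)/2 + log 2 - 1`.) -/
theorem numeric {c l m X e : ℝ} (hm : 0 ≤ m) (hX : 0 ≤ X) (he : 0 ≤ e) (he' : e ≤ 1 / 100)
    (h1 : c - 2 + X - e ≤ 2 * l) (h2 : m ≤ 2 * l + 2 - X + e)
    (h3 : 3 / 2 * l - 1 / 2 * m - 1 ≤ 3 + max (Real.log (m + 1) - 1 + Real.log (9 / 8))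
        (Real.log (X + 1) - 2 + Real.log 3)) :
    c ≤ 40 := by
  have l2 := Real.log_two_lt_d9
  have l2' := Real.log_two_gt_d9
  have l98 : Real.log (9 / 8) ≤ 1 / 8 := by
    have := Real.log_le_sub_one_of_pos (show (0 : ℝ) < 9 / 8 by norm_num)
    linarith
  have l3 : Real.log 3 ≤ 6 / 5 := by
    have h3 : (3 : ℝ) = 2 * (3 / 2) := by norm_num
    rw [h3, Real.log_mul (by norm_num) (by norm_num)]
    have := Real.log_le_sub_one_of_pos (show (0 : ℝ) < 3 / 2 by norm_num)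
    linarith
  rcases max_choice (Real.log (m + 1) - 1 + Real.log (9 / 8))
        (Real.log (X + 1) - 2 + Real.log 3) with h | h
  · rw [h] at h3
    have h4 := log_le_tangent (show (0 : ℝ) < m + 1 by linarith) (show (0 : ℝ) < 1 / 16 by norm_num)
    have h5 : Real.log (1 / 16) = - (4 * Real.log 2) := by
      rw [one_div, Real.log_inv]
      have : (16 : ℝ) = 2 ^ 4 := by norm_num
      rw [this, Real.log_pow]; norm_num
    rw [h5] at h4
    linarith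
  · rw [h] at h3
    have h4 := log_le_tangent (show (0 : ℝ) < X + 1 by linarith) (show (0 : ℝ) < 1 / 2 by norm_num)
    have h5 : Real.log (1 / 2) = - Real.log 2 := by
      rw [one_div, Real.log_inv]
    rw [h5] at h4
    linarith

end Crest.Agent.R55
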