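import Mathlib
import Crest.Prelude.Def_RandomGraph

/-! Row 55 (S0076).  Definitions used by all pieces. -/

set_option autoImplicit false
open Finset
open scoped Pointwise

namespace Crest.Agent.R55

/-! ## Entropy of (nonnegative) functions on finite types -/

/-- `∑ -f log f`. -/
noncomputable def Ent {α : Type} [Fintype α] (f : α → ℝ) : ℝ := ∑ x, Real.negMulLog (f x)

/-- push-forward of `f` along `π`. -/
noncomputable def push {α β : Type} [Fintype α] [DecidableEq β] (π : α → β) (f : α → ℝ) (b : β) : ℝ :=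
  ∑ a, if π a = b then f a else 0

/-- average over the finite group `𝔊`. -/
noncomputable def Av (𝔊 : Type) [Group 𝔊] [Fintype 𝔊] {α : Type} [MulAction 𝔊 α]
    (f : α → ℝ) (y : α) : ℝ := (∑ g : 𝔊, f (g⁻¹ • y)) / (Fintype.card 𝔊 : ℝ)

/-- `Ent (Av f) - Ent f`. -/
noncomputable def II (𝔊 : Type) [Group 𝔊] [Fintype 𝔊] {α : Type} [Fintype α] [MulAction 𝔊 α]
    (f : α → ℝ) : ℝ := Ent (Av 𝔊 f) - Ent f

/-! ## Thinning -/

section thin
variable {X : Type} [Fintype X] [DecidableEq X]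

/-- probability that the `t`-thinning of `k` is `S`. -/
noncomputable def thin (t : ℝ) (k S : Finset X) : ℝ :=
  if S ⊆ k then t ^ S.card * (1 - t) ^ (k.card - S.card) else 0

/-- law of the thinning when `k` has law `r`. -/
noncomputable def thinP (r : Finset X → ℝ) (t : ℝ) (S : Finset X) : ℝ :=
  ∑ k, r k * thin t k S

/-- mass of `{x ∈ k, thinning of k \ x = S}`. -/
noncomputable def thinQ (r : Finset X → ℝ) (t : ℝ) (S : Finset X) (x : X) : ℝ :=
  ∑ k, if x ∈ k then r k * thin t (k.erase x) S else 0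

end thin

/-! ## Bernoulli weights on subsets of `X` -/

/-- weight of `W` for independent inclusion with probability `q`. -/
noncomputable def bern {X : Type} [Fintype X] (q : ℝ) (W : Finset X) : ℝ :=
  q ^ W.card * (1 - q) ^ (Fintype.card X - W.card)

/-! ## States: laws on `Finset X × Z` -/

section state
variable {X : Type} [Fintype X] [DecidableEq X] {Z : Type} [Fintype Z]

structure IsState (H : Finset X) (ν : Finset X × Z → ℝ) : Prop where
  nonneg : ∀ y, 0 ≤ ν y
  sum_one : ∑ y, ν y = 1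
  supp : ∀ y, ν y ≠ 0 → y.1 ⊆ H

/-- expected size of the random set `G`. -/
noncomputable def sizeA (ν : Finset X × Z → ℝ) : ℝ := ∑ y, ν y * (y.1.card : ℝ)

/-- law of `Z`. -/
noncomputable def marg (ν : Finset X × Z → ℝ) (z : Z) : ℝ := ∑ G, ν (G, z)

/-- `P(x ∈ G, Z = z)`. -/
noncomputable def mem1 (ν : Finset X × Z → ℝ) (x : X) (z : Z) : ℝ :=
  ∑ G, if x ∈ G then ν (G, z) else 0

/-- `P(x ∈ G | Z = z)`. -/
noncomputable def kap (ν : Finset X × Z → ℝ) (x : X) (z : Z) : ℝ := mem1 ν x z / marg ν z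

/-- `2 y^{3/2}`. -/
noncomputable def F3 (y : ℝ) : ℝ := 2 * y * √y

/-- `ψ₂(y) = 2φ(y) - φ(2y-y²)` with `φ = -F3`. -/
noncomputable def psi2 (y : ℝ) : ℝ := F3 (2 * y - y ^ 2) - 2 * F3 y

/-- Bregman divergence of `F3`: with `r = √y`, `r₀ = √y₀` it is `2 (r-r₀)² (r + r₀/2)`. -/
noncomputable def BB (y y0 : ℝ) : ℝ := 2 * (√y - √y0) ^ 2 * (√y + √y0 / 2)

/-- the potential. -/
noncomputable def pot (𝔊 : Type) [Group 𝔊] [Fintype 𝔊] [MulAction 𝔊 X] [MulAction 𝔊 Z]
    (α : ℝ) (ν : Finset X × Z → ℝ) : ℝ :=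
  II 𝔊 ν - α * sizeA ν + Real.log 2 + Ent (marg ν) - ∑ z, marg ν z * ∑ x, F3 (kap ν x z)

end state


/-! ## Laws of random subsets of `H` -/

section law
variable {X : Type} [Fintype X] [DecidableEq X]

structure IsLaw (H : Finset X) (u : Finset X → ℝ) : Prop where
  nonneg : ∀ S, 0 ≤ u S
  sum_one : ∑ S, u S = 1
  supp : ∀ S, u S ≠ 0 → S ⊆ H

/-- expected size -/
noncomputable def sizeL (u : Finset X → ℝ) : ℝ := ∑ S, u S * (S.card : ℝ)

end law

/-! ## The doubling construction -/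

section defs
variable {X : Type} [Fintype X] [DecidableEq X] {Z : Type} [Fintype Z] [DecidableEq Z]

/-- law of `(G₁, G₂, Z)`, `G₁, G₂` conditionally iid given `Z`. -/
noncomputable def tau (ν : Finset X × Z → ℝ) (y : Finset X × Finset X × Z) : ℝ :=
  ν (y.1, y.2.2) * ν (y.2.1, y.2.2) / marg ν y.2.2

/-- law of `(G₁ ∪ G₂, Z)` -/
noncomputable def nuU (ν : Finset X × Z → ℝ) : Finset X × Z → ℝ :=
  push (fun y : Finset X × Finset X × Z => (y.1 ∪ y.2.1, y.2.2)) (tau ν)

/-- law of `(G₁, G₁ ∩ G₂, Z)` -/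
noncomputable def rho (ν : Finset X × Z → ℝ) : Finset X × Finset X × Z → ℝ :=
  push (fun y : Finset X × Finset X × Z => (y.1, y.1 ∩ y.2.1, y.2.2)) (tau ν)

/-- law of `(G₁ ∩ G₂, Z)` -/
noncomputable def nuK (ν : Finset X × Z → ℝ) : Finset X × Z → ℝ :=
  push (fun y : Finset X × Finset X × Z => (y.1 ∩ y.2.1, y.2.2)) (tau ν)

variable (𝔊 : Type) [Group 𝔊] [Fintype 𝔊] [MulAction 𝔊 X] [MulAction 𝔊 Z]

/-- the invariant kernel `w(k | G, z)`. -/
noncomputable def ww (ν : Finset X × Z → ℝ) (y : Finset X × Z) (k : Finset X) : ℝ :=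
  Av 𝔊 (rho ν) (y.1, k, y.2) / Av 𝔊 ν y

/-- law of `(G, K_u, Z)`: `ν` times the invariant kernel. -/
noncomputable def rhoU (ν : Finset X × Z → ℝ) (y : Finset X × Finset X × Z) : ℝ :=
  ν (y.1, y.2.2) * ww 𝔊 ν (y.1, y.2.2) y.2.1

/-- law of `(K_u, Z)`. -/
noncomputable def nuKu (ν : Finset X × Z → ℝ) : Finset X × Z → ℝ :=
  push (fun y : Finset X × Finset X × Z => (y.2.1, y.2.2)) (rhoU 𝔊 ν)

/-- `L` -/
noncomputable def LL (ν : Finset X × Z → ℝ) : ℝ := Ent (Av 𝔊 (rho ν)) - Ent (Av 𝔊 ν)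

/-- `M` -/
noncomputable def MM (ν : Finset X × Z → ℝ) : ℝ := Ent (nuKu 𝔊 ν) - Ent (marg ν)

/-- law of `(G, (Z, thinning of K_u))`. -/
noncomputable def nuT (ν : Finset X × Z → ℝ) (t : ℝ) (y : Finset X × Z × Finset X) : ℝ :=
  ν (y.1, y.2.1) * ∑ k, ww 𝔊 ν (y.1, y.2.1) k * thin t k y.2.2

end defs

/-! ## Edge slots -/

open Crest.CombinatoricsR.RandomGraph

/-- the action of the permutations of the vertices on the edge slots. -/
noncomputable instance slotAction (n : ℕ) : MulAction (Equiv.Perm (Fin n)) (EdgeSlot n) where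
  smul g z := ⟨Sym2.map g z.1, by
    intro h; apply z.2; rcases z with ⟨z, hz⟩
    induction z with
    | _ a b => simpa using h⟩
  one_smul z := by
    apply Subtype.ext; rcases z with ⟨z, hz⟩
    change Sym2.map _ z = z
    induction z with
    | _ a b => simp
  mul_smul g h z := by
    apply Subtype.ext; rcases z with ⟨z, hz⟩
    change Sym2.map _ z = Sym2.map _ (Sym2.map _ z)
    induction z with
    | _ a b => simp

theorem slot_smul_val {n : ℕ} (g : Equiv.Perm (Fin n)) (z : EdgeSlot n) :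
    (g • z).1 = Sym2.map g z.1 := rfl

/-- the image of the edge set of `H` under the embedding `f` of the vertices. -/
noncomputable def edgeImg {n : ℕ} {W : Type} (H : SimpleGraph W) (f : W ↪ Fin n) :
    Finset (EdgeSlot n) := by
  classical
  exact univ.filter (fun z : EdgeSlot n => ∃ e ∈ H.edgeSet, Sym2.map f e = z.1)

end Crest.Agent.R55
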