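import Crest.Agent.R55.EntLib

/-! Row 55, piece DoubleA: elementary facts on the doubling construction (no group action).
Definitions in Defs.lean; `EntLib` has the facts on `push`. -/

set_option autoImplicit false
open Finset
open scoped Pointwise

namespace Crest.Agent.R55

section basic
variable {X : Type} [Fintype X] [DecidableEq X] {Z : Type} [Fintype Z] [DecidableEq Z]
variable {H : Finset X} {ν : Finset X × Z → ℝ}

omit [DecidableEq X] [Fintype Z] [DecidableEq Z] in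
theorem marg_nonneg (h : ∀ y, 0 ≤ ν y) (z : Z) : 0 ≤ marg ν z :=
  Finset.sum_nonneg fun G _ => h (G, z)

omit [DecidableEq X] [DecidableEq Z] in
theorem sum_marg (ν : Finset X × Z → ℝ) : ∑ z, marg ν z = ∑ y, ν y := by
  unfold marg
  rw [Fintype.sum_prod_type_right]

omit [Fintype Z] [DecidableEq Z] in
theorem mem1_nonneg (h : ∀ y, 0 ≤ ν y) (x : X) (z : Z) : 0 ≤ mem1 ν x z := by
  unfold mem1
  refine Finset.sum_nonneg fun G _ => ?_
  split_ifs
  · exact h _
  · exact le_rfl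

omit [Fintype Z] [DecidableEq Z] in
theorem mem1_le_marg (h : ∀ y, 0 ≤ ν y) (x : X) (z : Z) : mem1 ν x z ≤ marg ν z := by
  unfold mem1 marg
  refine Finset.sum_le_sum fun G _ => ?_
  split_ifs
  · exact le_rfl
  · exact h _

omit [Fintype Z] [DecidableEq Z] in
theorem kap_nonneg (h : ∀ y, 0 ≤ ν y) (x : X) (z : Z) : 0 ≤ kap ν x z :=
  div_nonneg (mem1_nonneg h x z) (marg_nonneg h z)

omit [Fintype Z] [DecidableEq Z] in
theorem kap_le_one (h : ∀ y, 0 ≤ ν y) (x : X) (z : Z) : kap ν x z ≤ 1 :=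
  div_le_one_of_le₀ (mem1_le_marg h x z) (marg_nonneg h z)

omit [Fintype Z] [DecidableEq Z] in
theorem marg_mul_kap (h : ∀ y, 0 ≤ ν y) (x : X) (z : Z) : marg ν z * kap ν x z = mem1 ν x z := by
  unfold kap
  by_cases h0 : marg ν z = 0
  · have h1 := mem1_le_marg h x z
    have h2 := mem1_nonneg h x z
    rw [h0] at h1
    rw [h0, zero_mul]
    linarith
  · field_simp

theorem sizeA_eq_mem1 (ν : Finset X × Z → ℝ) : sizeA ν = ∑ z, ∑ x, mem1 ν x z := by
  unfold sizeA mem1
  rw [Fintype.sum_prod_type_right]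
  refine Finset.sum_congr rfl fun z _ => ?_
  rw [Finset.sum_comm]
  refine Finset.sum_congr rfl fun G _ => ?_
  rw [← Finset.sum_filter, Finset.sum_const, nsmul_eq_mul, mul_comm]
  simp

omit [DecidableEq Z] in
theorem sizeA_eq (h : ∀ y, 0 ≤ ν y) : sizeA ν = ∑ z, marg ν z * ∑ x, kap ν x z := by
  classical
  rw [sizeA_eq_mem1]
  refine Finset.sum_congr rfl fun z _ => ?_
  rw [Finset.mul_sum]
  exact Finset.sum_congr rfl fun x _ => (marg_mul_kap h x z).symm

omit [DecidableEq X] [Fintype Z] [DecidableEq Z] in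
theorem tau_nonneg (h : ∀ y, 0 ≤ ν y) (y : Finset X × Finset X × Z) : 0 ≤ tau ν y :=
  div_nonneg (mul_nonneg (h _) (h _)) (marg_nonneg h _)

omit [DecidableEq X] [Fintype Z] [DecidableEq Z] in
theorem nu_le_marg (h : ∀ y, 0 ≤ ν y) (G : Finset X) (z : Z) : ν (G, z) ≤ marg ν z :=
  Finset.single_le_sum (f := fun G => ν (G, z)) (fun G _ => h (G, z)) (Finset.mem_univ G)

omit [DecidableEq X] [Fintype Z] [DecidableEq Z] in
theorem nu_eq_zero_of_marg (h : ∀ y, 0 ≤ ν y) {z : Z} (hz : marg ν z = 0) (G : Finset X) :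
    ν (G, z) = 0 := le_antisymm (hz ▸ nu_le_marg h G z) (h _)

/-- sums against `tau` -/
theorem sum_tau_mul (ν : Finset X × Z → ℝ) (a b : Finset X → ℝ) (z : Z) :
    ∑ y : Finset X × Finset X × Z, tau ν y * (a y.1 * b y.2.1 * (if y.2.2 = z then 1 else 0))
      = (∑ G, ν (G, z) * a G) * (∑ G, ν (G, z) * b G) / marg ν z := by
  rw [Fintype.sum_prod_type]
  have h1 : ∀ G₁ : Finset X, ∑ y : Finset X × Z,
      tau ν (G₁, y) * (a G₁ * b y.1 * (if y.2 = z then 1 else 0))
      = ∑ G₂, (ν (G₁, z) * a G₁) * (ν (G₂, z) * b G₂) / marg ν z := by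
    intro G₁
    rw [Fintype.sum_prod_type]
    refine Finset.sum_congr rfl fun G₂ _ => ?_
    rw [Finset.sum_eq_single z]
    · simp only [tau, if_true]; ring
    · intro z' _ hz'
      simp [hz']
    · intro h; exact absurd (Finset.mem_univ z) h
  simp only [h1]
  rw [Finset.sum_mul_sum, Finset.sum_div]
  refine Finset.sum_congr rfl fun G₁ _ => ?_
  rw [Finset.sum_div]

/-- the three margins of `tau` needed. -/
theorem push_tau_fst (h : ∀ y, 0 ≤ ν y) :
    push (fun y : Finset X × Finset X × Z => (y.1, y.2.2)) (tau ν) = ν := by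
  funext ⟨G, z⟩
  have h1 := sum_tau_mul ν (fun G' => if G' = G then 1 else 0) (fun _ => 1) z
  unfold push
  have h2 : ∀ y : Finset X × Finset X × Z,
      (if (y.1, y.2.2) = (G, z) then tau ν y else 0) =
      tau ν y * ((if y.1 = G then 1 else 0) * 1 * (if y.2.2 = z then 1 else 0)) := by
    intro y
    by_cases h3 : y.1 = G <;> by_cases h4 : y.2.2 = z <;> simp [h3, h4]
  simp only [h2]
  rw [h1]
  simp only [mul_ite, mul_one, mul_zero, Finset.sum_ite_eq', Finset.mem_univ, if_true]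
  change ν (G, z) * marg ν z / marg ν z = ν (G, z)
  by_cases h0 : marg ν z = 0
  · rw [nu_eq_zero_of_marg h h0 G]; simp
  · field_simp

theorem Ent_tau (h : ∀ y, 0 ≤ ν y) : Ent (tau ν) = 2 * Ent ν - Ent (marg ν) := by
  -- the conditional kernel
  let κ : Z → Finset X → ℝ := fun z G => ν (G, z) / marg ν z
  have hκ : ∀ z, marg ν z ≠ 0 → ∑ G, κ z G = 1 := by
    intro z hz
    simp only [κ]
    rw [← Finset.sum_div]
    exact div_self hz
  have hν : ∀ G z, ν (G, z) = marg ν z * κ z G := by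
    intro G z
    simp only [κ]
    by_cases h0 : marg ν z = 0
    · rw [nu_eq_zero_of_marg h h0 G]; simp
    · field_simp
  have e1 : Ent ν = Ent (marg ν) + ∑ z, marg ν z * Ent (κ z) := by
    rw [← Ent_kernel (marg ν) κ hκ]
    unfold Ent
    apply Fintype.sum_equiv (Equiv.prodComm _ _)
    rintro ⟨G, z⟩
    simp only [Equiv.prodComm_apply, Prod.swap_prod_mk]
    rw [hν]
  have e2 : Ent (tau ν) = Ent ν + ∑ y, ν y * Ent (κ y.2) := by
    rw [← Ent_kernel ν (fun y => κ y.2)]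
    · unfold Ent
      let e : Finset X × Finset X × Z ≃ (Finset X × Z) × Finset X :=
        { toFun := fun y => ((y.1, y.2.2), y.2.1)
          invFun := fun y => (y.1.1, y.2, y.1.2)
          left_inv := fun y => rfl
          right_inv := fun y => rfl }
      apply Fintype.sum_equiv e
      rintro ⟨G₁, G₂, z⟩
      simp only [e, Equiv.coe_fn_mk, tau, κ, mul_div_assoc]
    · rintro ⟨G, z⟩ hy
      apply hκ z
      intro h0
      exact hy (nu_eq_zero_of_marg h h0 G)
  have e3 : ∑ y, ν y * Ent (κ y.2) = ∑ z, marg ν z * Ent (κ z) := by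
    rw [Fintype.sum_prod_type_right]
    refine Finset.sum_congr rfl fun z _ => ?_
    unfold marg
    rw [Finset.sum_mul]
  rw [e2, e3]
  linarith

theorem sum_tau (h : ∀ y, 0 ≤ ν y) : ∑ y, tau ν y = ∑ y, ν y := by
  have := sum_push (fun y : Finset X × Finset X × Z => (y.1, y.2.2)) (tau ν)
  rw [push_tau_fst h] at this
  exact this.symm

omit [DecidableEq X] [Fintype Z] [DecidableEq Z] in
theorem tau_ne_zero {y : Finset X × Finset X × Z} (h : tau ν y ≠ 0) :
    ν (y.1, y.2.2) ≠ 0 ∧ ν (y.2.1, y.2.2) ≠ 0 := by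
  constructor <;> intro h0 <;> apply h <;> simp [tau, h0]

theorem nuU_nonneg (h : ∀ y, 0 ≤ ν y) (y : Finset X × Z) : 0 ≤ nuU ν y :=
  push_nonneg (tau_nonneg h) _ _

theorem nuK_nonneg (h : ∀ y, 0 ≤ ν y) (y : Finset X × Z) : 0 ≤ nuK ν y :=
  push_nonneg (tau_nonneg h) _ _

theorem isState_nuU (h : IsState H ν) : IsState H (nuU ν) := by
  refine ⟨nuU_nonneg h.nonneg, ?_, ?_⟩
  · unfold nuU
    rw [sum_push, sum_tau h.nonneg, h.sum_one]
  · intro y hy
    obtain ⟨a, ha, ha'⟩ := push_ne_zero_exists hy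
    obtain ⟨h1, h2⟩ := tau_ne_zero ha'
    rw [← ha]
    exact Finset.union_subset (h.supp _ h1) (h.supp _ h2)

theorem isState_nuK (h : IsState H ν) : IsState H (nuK ν) := by
  refine ⟨nuK_nonneg h.nonneg, ?_, ?_⟩
  · unfold nuK
    rw [sum_push, sum_tau h.nonneg, h.sum_one]
  · intro y hy
    obtain ⟨a, ha, ha'⟩ := push_ne_zero_exists hy
    obtain ⟨h1, _⟩ := tau_ne_zero ha'
    rw [← ha]
    exact Finset.inter_subset_left.trans (h.supp _ h1)

theorem marg_eq_push (ν : Finset X × Z → ℝ) : marg ν = push Prod.snd ν := by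
  funext z
  unfold marg push
  rw [Fintype.sum_prod_type]
  simp

theorem marg_nuU (h : ∀ y, 0 ≤ ν y) : marg (nuU ν) = marg ν := by
  rw [marg_eq_push, marg_eq_push]
  conv_rhs => rw [← push_tau_fst h]
  unfold nuU
  rw [push_push, push_push]
  rfl

theorem marg_nuK (h : ∀ y, 0 ≤ ν y) : marg (nuK ν) = marg ν := by
  rw [marg_eq_push, marg_eq_push]
  conv_rhs => rw [← push_tau_fst h]
  unfold nuK
  rw [push_push, push_push]
  rfl

theorem mem1_eq_sum (ν : Finset X × Z → ℝ) (x : X) (z : Z) :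
    mem1 ν x z = ∑ y, ν y * ((if x ∈ y.1 then 1 else 0) * (if y.2 = z then 1 else 0)) := by
  unfold mem1
  rw [Fintype.sum_prod_type]
  refine Finset.sum_congr rfl fun G _ => ?_
  by_cases hx : x ∈ G <;> simp [hx]

theorem mem1_eq_sum' (ν : Finset X × Z → ℝ) (x : X) (z : Z) :
    mem1 ν x z = ∑ G, ν (G, z) * (if x ∈ G then 1 else 0) := by
  unfold mem1
  refine Finset.sum_congr rfl fun G _ => ?_
  by_cases hx : x ∈ G <;> simp [hx]

theorem mem1_nuK (ν : Finset X × Z → ℝ) (x : X) (z : Z) :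
    mem1 (nuK ν) x z = mem1 ν x z * mem1 ν x z / marg ν z := by
  rw [mem1_eq_sum]
  unfold nuK
  rw [sum_push_mul, mem1_eq_sum' ν, ← sum_tau_mul]
  refine Finset.sum_congr rfl fun y _ => ?_
  congr 1
  by_cases h1 : x ∈ y.1 <;> by_cases h2 : x ∈ y.2.1 <;> simp [h1, h2]

theorem mem1_nuU (ν : Finset X × Z → ℝ) (x : X) (z : Z) :
    mem1 (nuU ν) x z = mem1 ν x z * marg ν z / marg ν z + marg ν z * mem1 ν x z / marg ν z
      - mem1 ν x z * mem1 ν x z / marg ν z := by
  have hm : marg ν z = ∑ G, ν (G, z) * 1 := by simp [marg]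
  have e1 := sum_tau_mul ν (fun G => if x ∈ G then 1 else 0) (fun _ => 1) z
  have e2 := sum_tau_mul ν (fun _ => 1) (fun G => if x ∈ G then 1 else 0) z
  have e3 := sum_tau_mul ν (fun G => if x ∈ G then 1 else 0) (fun G => if x ∈ G then 1 else 0) z
  rw [← mem1_eq_sum', ← hm] at e1 e2
  rw [← mem1_eq_sum'] at e3
  rw [← e1, ← e2, ← e3, ← Finset.sum_add_distrib, ← Finset.sum_sub_distrib]
  rw [mem1_eq_sum]
  unfold nuU
  rw [sum_push_mul]
  refine Finset.sum_congr rfl fun y _ => ?_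
  by_cases h1 : x ∈ y.1 <;> by_cases h2 : x ∈ y.2.1 <;> simp [h1, h2]

theorem kap_nuU (h : ∀ y, 0 ≤ ν y) (x : X) (z : Z) (hz : marg ν z ≠ 0) :
    kap (nuU ν) x z = 2 * kap ν x z - kap ν x z ^ 2 := by
  unfold kap
  rw [marg_nuU h, mem1_nuU]
  field_simp
  ring

theorem kap_nuK (h : ∀ y, 0 ≤ ν y) (x : X) (z : Z) (hz : marg ν z ≠ 0) :
    kap (nuK ν) x z = kap ν x z ^ 2 := by
  unfold kap
  rw [marg_nuK h, mem1_nuK]
  field_simp

theorem sizeA_nuK (h : ∀ y, 0 ≤ ν y) :
    sizeA (nuK ν) = ∑ z, marg ν z * ∑ x, kap ν x z ^ 2 := by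
  rw [sizeA_eq (nuK_nonneg h), marg_nuK h]
  refine Finset.sum_congr rfl fun z _ => ?_
  by_cases hz : marg ν z = 0
  · rw [hz]; simp
  · congr 1
    exact Finset.sum_congr rfl fun x _ => kap_nuK h x z hz

theorem sizeA_nuU (h : ∀ y, 0 ≤ ν y) : sizeA (nuU ν) = 2 * sizeA ν - sizeA (nuK ν) := by
  rw [sizeA_eq (nuU_nonneg h), marg_nuU h, sizeA_eq h, sizeA_nuK h, Finset.mul_sum,
    ← Finset.sum_sub_distrib]
  refine Finset.sum_congr rfl fun z _ => ?_
  by_cases hz : marg ν z = 0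
  · rw [hz]; simp
  · rw [Finset.sum_congr rfl fun x _ => kap_nuU h x z hz, Finset.sum_sub_distrib,
      ← Finset.mul_sum]
    ring

/-- Cauchy-Schwarz -/
theorem sizeA_sq_le (h : IsState H ν) : sizeA ν ^ 2 ≤ (H.card : ℝ) * sizeA (nuK ν) := by
  have hn := h.nonneg
  -- `kap` vanishes off `H`
  have hk0 : ∀ x z, x ∉ H → kap ν x z = 0 := by
    intro x z hx
    unfold kap mem1
    rw [Finset.sum_eq_zero, zero_div]
    intro G _
    split_ifs with hxG
    · by_contra h0
      exact hx (h.supp _ h0 hxG)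
    · rfl
  have e1 : sizeA ν = ∑ y ∈ (Finset.univ : Finset Z) ×ˢ H, marg ν y.1 * kap ν y.2 y.1 := by
    rw [sizeA_eq hn, Finset.sum_product]
    refine Finset.sum_congr rfl fun z _ => ?_
    rw [Finset.mul_sum]
    symm
    apply Finset.sum_subset (Finset.subset_univ H)
    intro x _ hx
    rw [hk0 x z hx, mul_zero]
  have e2 : sizeA (nuK ν)
      = ∑ y ∈ (Finset.univ : Finset Z) ×ˢ H, marg ν y.1 * kap ν y.2 y.1 ^ 2 := by
    rw [sizeA_nuK hn, Finset.sum_product]
    refine Finset.sum_congr rfl fun z _ => ?_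
    rw [Finset.mul_sum]
    symm
    apply Finset.sum_subset (Finset.subset_univ H)
    intro x _ hx
    rw [hk0 x z hx]; simp
  have e3 : (H.card : ℝ) = ∑ y ∈ (Finset.univ : Finset Z) ×ˢ H, marg ν y.1 := by
    rw [Finset.sum_product]
    simp only [Finset.sum_const, nsmul_eq_mul]
    rw [← Finset.mul_sum, sum_marg, h.sum_one, mul_one]
  rw [e1, e2, e3]
  apply Finset.sum_sq_le_sum_mul_sum_of_sq_eq_mul
  · intro y _; exact marg_nonneg hn _
  · intro y _; exact mul_nonneg (marg_nonneg hn _) (sq_nonneg _)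
  · intro y _; ring

end basic

end Crest.Agent.R55
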