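import Crest.Agent.R55.DoubleA

/-! Row 55, piece DoubleB: the doubling inequality and the unbiased kernel.
Definitions in Defs.lean; uses `EntLib` and `DoubleA`. -/

set_option autoImplicit false
open Finset
open scoped Pointwise

namespace Crest.Agent.R55

section aux
variable {X : Type} [Fintype X] [DecidableEq X] {Z : Type} [Fintype Z] [DecidableEq Z]

/-- push along `(G,k,z) ↦ (G,z)` is summation over `k` -/
theorem dbAux_push_fst (f : Finset X × Finset X × Z → ℝ) (y : Finset X × Z) :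
    push (fun t : Finset X × Finset X × Z => (t.1, t.2.2)) f y = ∑ k, f (y.1, k, y.2) := by
  unfold push
  rw [Fintype.sum_prod_type]
  rw [Finset.sum_eq_single y.1]
  · rw [Fintype.sum_prod_type]
    refine Finset.sum_congr rfl fun k _ => ?_
    rw [Finset.sum_eq_single y.2]
    · simp
    · intro z _ hz
      rw [if_neg]
      intro h
      exact hz (congrArg Prod.snd h)
    · intro h; exact absurd (Finset.mem_univ _) h
  · intro G _ hG
    refine Finset.sum_eq_zero fun p _ => ?_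
    rw [if_neg]
    intro h
    exact hG (congrArg Prod.fst h)
  · intro h; exact absurd (Finset.mem_univ _) h

/-- push along `(G,k,z) ↦ (k,z)` is summation over `G` -/
theorem dbAux_push_snd (f : Finset X × Finset X × Z → ℝ) (y : Finset X × Z) :
    push (fun t : Finset X × Finset X × Z => (t.2.1, t.2.2)) f y = ∑ G, f (G, y.1, y.2) := by
  unfold push
  rw [Fintype.sum_prod_type]
  refine Finset.sum_congr rfl fun G _ => ?_
  rw [Finset.sum_eq_single (y.1, y.2)]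
  · simp
  · intro z _ hz
    rw [if_neg]
    intro h
    exact hz h
  · intro h; exact absurd (Finset.mem_univ _) h

omit [DecidableEq X] in
theorem dbAux_marg (ν : Finset X × Z → ℝ) : marg ν = push Prod.snd ν := by
  funext z
  unfold marg push
  rw [Fintype.sum_prod_type]
  refine Finset.sum_congr rfl fun G _ => ?_
  rw [Finset.sum_eq_single z]
  · simp
  · intro z' _ hz
    rw [if_neg]
    intro h
    exact hz h
  · intro h; exact absurd (Finset.mem_univ _) h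

theorem dbAux_Ent_equiv {α β : Type} [Fintype α] [Fintype β] (e : α ≃ β) (f : β → ℝ) :
    Ent (fun a => f (e a)) = Ent f := by
  unfold Ent
  exact Fintype.sum_equiv e _ _ fun _ => rfl

theorem dbAux_rho_nonneg {ν : Finset X × Z → ℝ} (h : ∀ y, 0 ≤ ν y)
    (y : Finset X × Finset X × Z) : 0 ≤ rho ν y :=
  push_nonneg (tau_nonneg h) _ y

/-- `rho` is the joint law, with second margin `ν` -/
theorem dbAux_push_rho {ν : Finset X × Z → ℝ} (h : ∀ y, 0 ≤ ν y) :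
    push (fun t : Finset X × Finset X × Z => (t.1, t.2.2)) (rho ν) = ν := by
  unfold rho
  rw [push_push]
  exact push_tau_fst h

theorem dbAux_sum_rho {ν : Finset X × Z → ℝ} (h : ∀ y, 0 ≤ ν y) (y : Finset X × Z) :
    ∑ k, rho ν (y.1, k, y.2) = ν y := by
  rw [← dbAux_push_fst, dbAux_push_rho h]

theorem dbAux_rho_le {ν : Finset X × Z → ℝ} (h : ∀ y, 0 ≤ ν y)
    (y : Finset X × Finset X × Z) : rho ν y ≤ ν (y.1, y.2.2) := by
  rw [← dbAux_sum_rho h (y.1, y.2.2)]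
  exact Finset.single_le_sum (f := fun k => rho ν (y.1, k, y.2.2))
    (fun k _ => dbAux_rho_nonneg h _) (Finset.mem_univ y.2.1)

theorem dbAux_nuK (ν : Finset X × Z → ℝ) :
    push (fun t : Finset X × Finset X × Z => (t.2.1, t.2.2)) (rho ν) = nuK ν := by
  unfold rho nuK
  rw [push_push]
  rfl

/-- symmetry of `tau` -/
theorem dbAux_rho_symm (ν : Finset X × Z → ℝ) :
    push (fun y : Finset X × Finset X × Z => (y.2.1, y.1 ∩ y.2.1, y.2.2)) (tau ν) = rho ν := by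
  funext b
  unfold rho push
  let e : (Finset X × Finset X × Z) ≃ (Finset X × Finset X × Z) :=
    { toFun := fun y => (y.2.1, y.1, y.2.2)
      invFun := fun y => (y.2.1, y.1, y.2.2)
      left_inv := fun y => rfl
      right_inv := fun y => rfl }
  refine Fintype.sum_equiv e _ _ fun y => ?_
  have h1 : tau ν (e y) = tau ν y := by
    simp only [tau, e, Equiv.coe_fn_mk]
    rw [mul_comm]
  rw [h1]
  simp only [e, Equiv.coe_fn_mk, Finset.inter_comm]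

end aux

section act
variable {𝔊 : Type} [Group 𝔊] [Fintype 𝔊]
variable {X : Type} [Fintype X] [DecidableEq X] {Z : Type} [Fintype Z] [DecidableEq Z]
variable [MulAction 𝔊 X] [MulAction 𝔊 Z]
variable {H : Finset X} {ν : Finset X × Z → ℝ}

/-- doubling inequality: data processing for `(G₁,G₂,Z) ↦ (G₁ ∪ G₂, Z)`, `Ent_tau`, and
submodularity for the averaged law with `(G₁,K,Z)`, `(G₂,K,Z)`. -/
theorem D0 (h : ∀ y, 0 ≤ ν y) :
    II 𝔊 (nuU ν) ≤ 2 * II 𝔊 ν + 2 * LL 𝔊 ν - Ent (Av 𝔊 (nuK ν)) + Ent (marg ν) := by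
  have hτ : ∀ y, 0 ≤ tau ν y := tau_nonneg h
  have h1 : II 𝔊 (nuU ν) ≤ II 𝔊 (tau ν) :=
    II_push_le hτ (fun y : Finset X × Finset X × Z => (y.1 ∪ y.2.1, y.2.2)) (by
      rintro g ⟨G₁, G₂, z⟩
      simp only [Prod.smul_mk]
      rw [Finset.smul_finset_union])
  have h2 := submod (f := Av 𝔊 (tau ν)) (Av_nonneg hτ)
    (fun y : Finset X × Finset X × Z => (y.1, y.1 ∩ y.2.1, y.2.2))
    (fun y : Finset X × Finset X × Z => (y.2.1, y.1 ∩ y.2.1, y.2.2))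
    (fun t : Finset X × Finset X × Z => (t.2.1, t.2.2))
    (fun t : Finset X × Finset X × Z => (t.2.1, t.2.2))
    (fun _ => rfl) (by
      rintro ⟨a1, a2, a3⟩ ⟨b1, b2, b3⟩ e1 e2
      simp only [Prod.mk.injEq] at e1 e2 ⊢
      exact ⟨e1.1, e2.1, e1.2.2⟩)
  rw [push_Av (fun y : Finset X × Finset X × Z => (y.1, y.1 ∩ y.2.1, y.2.2)) (by
      rintro g ⟨G₁, G₂, z⟩
      simp only [Prod.smul_mk]
      rw [Finset.smul_finset_inter]),
    push_Av (fun y : Finset X × Finset X × Z => (y.2.1, y.1 ∩ y.2.1, y.2.2)) (by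
      rintro g ⟨G₁, G₂, z⟩
      simp only [Prod.smul_mk]
      rw [Finset.smul_finset_inter]), dbAux_rho_symm,
    push_Av (fun y : Finset X × Finset X × Z => (y.1 ∩ y.2.1, y.2.2)) (by
      rintro g ⟨G₁, G₂, z⟩
      simp only [Prod.smul_mk]
      rw [Finset.smul_finset_inter])] at h2
  change Ent (Av 𝔊 (tau ν)) ≤ Ent (Av 𝔊 (rho ν)) + Ent (Av 𝔊 (rho ν)) - Ent (Av 𝔊 (nuK ν)) at h2
  have h3 := Ent_tau h
  have h4 : II 𝔊 (tau ν) = Ent (Av 𝔊 (tau ν)) - Ent (tau ν) := rfl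
  have h5 : II 𝔊 ν = Ent (Av 𝔊 ν) - Ent ν := rfl
  have h6 : LL 𝔊 ν = Ent (Av 𝔊 (rho ν)) - Ent (Av 𝔊 ν) := rfl
  rw [h5, h6]
  rw [h4, h3] at h1
  linarith

theorem ww_nonneg (h : ∀ y, 0 ≤ ν y) (y : Finset X × Z) (k : Finset X) : 0 ≤ ww 𝔊 ν y k :=
  div_nonneg (Av_nonneg (dbAux_rho_nonneg h) _) (Av_nonneg h _)

theorem ww_smul (g : 𝔊) (y : Finset X × Z) (k : Finset X) :
    ww 𝔊 ν (g • y) (g • k) = ww 𝔊 ν y k := by
  unfold ww
  rw [Av_smul ν g y]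
  have h1 : ((g • y).1, g • k, (g • y).2) = g • ((y.1, k, y.2) : Finset X × Finset X × Z) := rfl
  rw [h1, Av_smul]

theorem dbAux_sum_Av_rho (h : ∀ y, 0 ≤ ν y) (y : Finset X × Z) :
    ∑ k, Av 𝔊 (rho ν) (y.1, k, y.2) = Av 𝔊 ν y := by
  rw [← dbAux_push_fst, push_Av _ (fun g a => rfl), dbAux_push_rho h]

theorem sum_ww (h : ∀ y, 0 ≤ ν y) (y : Finset X × Z) (hy : Av 𝔊 ν y ≠ 0) :
    ∑ k, ww 𝔊 ν y k = 1 := by
  unfold ww
  rw [← Finset.sum_div, dbAux_sum_Av_rho h, div_self hy]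

set_option linter.unusedVariables false in
theorem ww_subset (h : ∀ y, 0 ≤ ν y) (y : Finset X × Z) (k : Finset X) (hk : ww 𝔊 ν y k ≠ 0) :
    k ⊆ y.1 := by
  have h1 : Av 𝔊 (rho ν) (y.1, k, y.2) ≠ 0 := by
    intro h0
    apply hk
    unfold ww
    rw [h0, zero_div]
  obtain ⟨g, hg⟩ := Av_ne_zero_exists h1
  obtain ⟨⟨G₁, G₂, z⟩, he, -⟩ := push_ne_zero_exists hg
  have e : (G₁, G₁ ∩ G₂, z) = (g • y.1, g • k, g • y.2) := he
  have e1 : G₁ = g • y.1 := congrArg Prod.fst e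
  have e2 : G₁ ∩ G₂ = g • k := congrArg (fun t => t.2.1) e
  have h2 : g • k ⊆ g • y.1 := by
    rw [← e2, ← e1]
    exact Finset.inter_subset_left
  exact Finset.smul_finset_subset_smul_finset_iff.1 h2

theorem rhoU_nonneg (h : ∀ y, 0 ≤ ν y) (y : Finset X × Finset X × Z) : 0 ≤ rhoU 𝔊 ν y :=
  mul_nonneg (h _) (ww_nonneg h _ _)

theorem sum_rhoU (h : ∀ y, 0 ≤ ν y) (G : Finset X) (z : Z) :
    ∑ k, rhoU 𝔊 ν (G, k, z) = ν (G, z) := by
  change ∑ k, ν (G, z) * ww 𝔊 ν (G, z) k = ν (G, z)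
  rw [← Finset.mul_sum]
  by_cases h0 : ν (G, z) = 0
  · simp only [h0, zero_mul]
  · rw [sum_ww h (G, z) (Av_ne_zero h h0), mul_one]

/-- `Av rhoU = Av rho`. -/
theorem Av_rhoU (h : ∀ y, 0 ≤ ν y) : Av 𝔊 (rhoU 𝔊 ν) = Av 𝔊 (rho ν) := by
  funext y
  have h1 := Av_mul_inv (𝔊 := 𝔊) (fun y : Finset X × Finset X × Z => ν (y.1, y.2.2))
    (fun y => ww 𝔊 ν (y.1, y.2.2) y.2.1) (fun g a => ww_smul g (a.1, a.2.2) a.2.1) y
  have h2 : Av 𝔊 (rhoU 𝔊 ν) y =
      Av 𝔊 (fun y : Finset X × Finset X × Z => ν (y.1, y.2.2)) y * ww 𝔊 ν (y.1, y.2.2) y.2.1 := h1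
  have h3 : Av 𝔊 (fun y : Finset X × Finset X × Z => ν (y.1, y.2.2)) y =
      Av 𝔊 ν (y.1, y.2.2) := rfl
  rw [h2, h3]
  unfold ww
  by_cases h0 : Av 𝔊 ν (y.1, y.2.2) = 0
  · rw [h0, zero_mul]
    have h4 : Av 𝔊 (rho ν) y ≤ Av 𝔊 ν (y.1, y.2.2) := by
      unfold Av
      refine div_le_div_of_nonneg_right (Finset.sum_le_sum fun g _ => ?_) (Nat.cast_nonneg _)
      exact dbAux_rho_le h (g⁻¹ • y)
    rw [h0] at h4
    exact le_antisymm (Av_nonneg (dbAux_rho_nonneg h) _) h4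
  · rw [mul_div_cancel₀ _ h0]

theorem Av_nuKu (h : ∀ y, 0 ≤ ν y) : Av 𝔊 (nuKu 𝔊 ν) = Av 𝔊 (nuK ν) := by
  unfold nuKu
  rw [← push_Av (𝔊 := 𝔊) (fun y : Finset X × Finset X × Z => (y.2.1, y.2.2)) (fun g a => rfl),
    Av_rhoU h, push_Av _ (fun g a => rfl), dbAux_nuK]

theorem LL_eq (h : ∀ y, 0 ≤ ν y) : LL 𝔊 ν = Ent (rhoU 𝔊 ν) - Ent ν := by
  have h1 := II_kernel (𝔊 := 𝔊) h (ww 𝔊 ν) (fun g a b => ww_smul g a b) (fun a ha => sum_ww h a ha)
  let e : (Finset X × Z) × Finset X ≃ Finset X × Finset X × Z :=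
    { toFun := fun y => (y.1.1, y.2, y.1.2)
      invFun := fun y => ((y.1, y.2.2), y.2.1)
      left_inv := fun y => rfl
      right_inv := fun y => rfl }
  have h2 : Ent (fun y : (Finset X × Z) × Finset X => ν y.1 * ww 𝔊 ν y.1 y.2) =
      Ent (rhoU 𝔊 ν) := dbAux_Ent_equiv e (rhoU 𝔊 ν)
  have h3 : Ent (Av 𝔊 (fun y : (Finset X × Z) × Finset X => ν y.1 * ww 𝔊 ν y.1 y.2)) =
      Ent (Av 𝔊 (rhoU 𝔊 ν)) := dbAux_Ent_equiv e (Av 𝔊 (rhoU 𝔊 ν))
  unfold II at h1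
  rw [h2, h3, Av_rhoU h] at h1
  unfold LL
  linarith

theorem isState_nuKu (h : IsState H ν) : IsState H (nuKu 𝔊 ν) where
  nonneg := push_nonneg (rhoU_nonneg h.nonneg) _
  sum_one := by
    unfold nuKu
    rw [sum_push]
    rw [← sum_push (fun t : Finset X × Finset X × Z => (t.1, t.2.2))]
    have h1 : ∀ y : Finset X × Z, push (fun t : Finset X × Finset X × Z => (t.1, t.2.2))
        (rhoU 𝔊 ν) y = ν y := fun y => by
      rw [dbAux_push_fst, sum_rhoU h.nonneg]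
    rw [Finset.sum_congr rfl fun y _ => h1 y]
    exact h.sum_one
  supp := by
    intro y hy
    obtain ⟨⟨G, k, z⟩, he, h1⟩ := push_ne_zero_exists hy
    have h2 : ν (G, z) * ww 𝔊 ν (G, z) k ≠ 0 := h1
    have h3 : ν (G, z) ≠ 0 := left_ne_zero_of_mul h2
    have h4 : ww 𝔊 ν (G, z) k ≠ 0 := right_ne_zero_of_mul h2
    have h5 : G ⊆ H := h.supp _ h3
    have h6 : k ⊆ G := ww_subset h.nonneg _ _ h4
    have h7 : k = y.1 := congrArg Prod.fst he
    rw [← h7]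
    exact h6.trans h5

theorem sizeA_nuKu (h : ∀ y, 0 ≤ ν y) : sizeA (nuKu 𝔊 ν) = sizeA (nuK ν) := by
  unfold sizeA
  have hu : ∀ (g : 𝔊) (a : Finset X × Z), (((g • a).1.card : ℕ) : ℝ) = ((a.1.card : ℕ) : ℝ) := by
    intro g a
    have : (g • a).1 = g • a.1 := rfl
    rw [this, Finset.card_smul_finset]
  rw [← sum_Av_mul (𝔊 := 𝔊) (nuKu 𝔊 ν) (fun y => ((y.1.card : ℕ) : ℝ)) hu,
    ← sum_Av_mul (𝔊 := 𝔊) (nuK ν) (fun y => ((y.1.card : ℕ) : ℝ)) hu, Av_nuKu h]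

theorem marg_nuKu (h : ∀ y, 0 ≤ ν y) : marg (nuKu 𝔊 ν) = marg ν := by
  funext z
  unfold marg nuKu
  have h1 : ∀ k : Finset X, push (fun y : Finset X × Finset X × Z => (y.2.1, y.2.2))
      (rhoU 𝔊 ν) (k, z) = ∑ G, rhoU 𝔊 ν (G, k, z) := fun k => dbAux_push_snd _ (k, z)
  rw [Finset.sum_congr rfl fun k _ => h1 k, Finset.sum_comm]
  exact Finset.sum_congr rfl fun G _ => sum_rhoU h G z

theorem MM_nonneg (h : ∀ y, 0 ≤ ν y) : 0 ≤ MM 𝔊 ν := by
  unfold MM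
  rw [← marg_nuKu (𝔊 := 𝔊) h, dbAux_marg, sub_nonneg]
  exact Ent_push_le (push_nonneg (rhoU_nonneg h) _) _

end act

end Crest.Agent.R55
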