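import Crest.Agent.R55.Defs

/-! Row 55, piece EntLib: finite entropy library. -/

set_option autoImplicit false
open Finset
open scoped Pointwise

namespace Crest.Agent.R55

section basic
variable {α β γ : Type} [Fintype α] [Fintype β] [Fintype γ] [DecidableEq β] [DecidableEq γ]

theorem Ent_nonneg {f : α → ℝ} (h0 : ∀ a, 0 ≤ f a) (h1 : ∀ a, f a ≤ 1) : 0 ≤ Ent f :=
  Finset.sum_nonneg fun a _ => Real.negMulLog_nonneg (h0 a) (h1 a)

/-- Gibbs' inequality. -/
theorem gibbs {f q : α → ℝ} (hf : ∀ a, 0 ≤ f a) (hq : ∀ a, 0 ≤ q a)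
    (h0 : ∀ a, q a = 0 → f a = 0) (hs : ∑ a, q a ≤ ∑ a, f a) :
    Ent f ≤ ∑ a, f a * (-Real.log (q a)) := by
  have key : ∀ a, Real.negMulLog (f a) ≤ f a * (-Real.log (q a)) + (q a - f a) := by
    intro a
    rcases (hf a).eq_or_lt with h | h
    · rw [← h]; simp [hq a]
    · have hqa : 0 < q a := lt_of_le_of_ne (hq a) (fun h' => h.ne' (h0 a h'.symm))
      have h1 := Real.log_le_sub_one_of_pos (div_pos hqa h)
      rw [Real.log_div hqa.ne' h.ne'] at h1
      have h2 : f a * (Real.log (q a) - Real.log (f a)) ≤ f a * (q a / f a - 1) :=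
        mul_le_mul_of_nonneg_left h1 h.le
      have h3 : f a * (q a / f a - 1) = q a - f a := by field_simp
      unfold Real.negMulLog
      nlinarith
  calc Ent f ≤ ∑ a, (f a * (-Real.log (q a)) + (q a - f a)) := Finset.sum_le_sum fun a _ => key a
    _ = ∑ a, f a * (-Real.log (q a)) + (∑ a, q a - ∑ a, f a) := by
        rw [Finset.sum_add_distrib, Finset.sum_sub_distrib]
    _ ≤ _ := by linarith

theorem push_nonneg {f : α → ℝ} (hf : ∀ a, 0 ≤ f a) (π : α → β) (b : β) : 0 ≤ push π f b := by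
  unfold push
  apply Finset.sum_nonneg
  intro a _
  split_ifs
  · exact hf a
  · exact le_rfl

theorem sum_push_mul (π : α → β) (f : α → ℝ) (u : β → ℝ) :
    ∑ b, push π f b * u b = ∑ a, f a * u (π a) := by
  unfold push
  simp_rw [Finset.sum_mul]
  rw [Finset.sum_comm]
  apply Finset.sum_congr rfl
  intro a _
  simp [ite_mul]

theorem sum_push (π : α → β) (f : α → ℝ) : ∑ b, push π f b = ∑ a, f a := by
  have := sum_push_mul π f (fun _ => 1)
  simpa using this

theorem push_push (π : α → β) (σ : β → γ) (f : α → ℝ) : push σ (push π f) = push (σ ∘ π) f := by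
  funext c
  have := sum_push_mul π f (fun b => if σ b = c then 1 else 0)
  simp only [mul_ite, mul_one, mul_zero] at this
  unfold push at this ⊢
  simpa using this

theorem le_push {f : α → ℝ} (hf : ∀ a, 0 ≤ f a) (π : α → β) (a : α) : f a ≤ push π f (π a) := by
  unfold push
  have : f a = (if π a = π a then f a else 0) := by simp
  conv_lhs => rw [this]
  apply Finset.single_le_sum (f := fun a' => if π a' = π a then f a' else 0) (fun a' _ => ?_)
    (Finset.mem_univ a)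
  split_ifs
  · exact hf a'
  · exact le_rfl

theorem push_ne_zero_exists {f : α → ℝ} {π : α → β} {b : β} (h : push π f b ≠ 0) :
    ∃ a, π a = b ∧ f a ≠ 0 := by
  unfold push at h
  obtain ⟨a, _, ha⟩ := Finset.exists_ne_zero_of_sum_ne_zero h
  by_cases h' : π a = b
  · exact ⟨a, h', by simpa [h'] using ha⟩
  · simp [h'] at ha

/-- entropy decreases under maps. -/
theorem Ent_push_le {f : α → ℝ} (hf : ∀ a, 0 ≤ f a) (π : α → β) : Ent (push π f) ≤ Ent f := by
  have h1 : Ent (push π f) = ∑ a, f a * (-Real.log (push π f (π a))) := by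
    rw [← sum_push_mul π f (fun b => -Real.log (push π f b))]
    unfold Ent
    apply Finset.sum_congr rfl
    intro b _
    unfold Real.negMulLog
    ring
  rw [h1]
  unfold Ent
  apply Finset.sum_le_sum
  intro a _
  unfold Real.negMulLog
  rcases (hf a).eq_or_lt with h | h
  · rw [← h]; simp
  · have h2 : Real.log (f a) ≤ Real.log (push π f (π a)) := Real.log_le_log h (le_push hf π a)
    nlinarith

/-- entropy of a law composed with a kernel. -/
theorem Ent_kernel (f : α → ℝ) (w : α → β → ℝ) (hw : ∀ a, f a ≠ 0 → ∑ b, w a b = 1) :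
    Ent (fun y : α × β => f y.1 * w y.1 y.2) = Ent f + ∑ a, f a * Ent (w a) := by
  unfold Ent
  rw [Fintype.sum_prod_type, ← Finset.sum_add_distrib]
  apply Finset.sum_congr rfl
  intro a _
  simp only [Real.negMulLog_mul]
  rw [Finset.sum_add_distrib, ← Finset.mul_sum, ← Finset.sum_mul]
  by_cases h : f a = 0
  · simp [h]
  · rw [hw a h]; ring

end basic

section submod
variable {α β₁ β₂ γ : Type} [Fintype α] [Fintype β₁] [Fintype β₂] [Fintype γ]
  [DecidableEq β₁] [DecidableEq β₂] [DecidableEq γ]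

/-- submodularity: `H(A) ≤ H(B₁) + H(B₂) - H(C)`, `C` a function of `B₁` and a function of `B₂`,
and `A` determined by `(B₁, B₂)`. -/
theorem submod {f : α → ℝ} (hf : ∀ a, 0 ≤ f a) (π₁ : α → β₁) (π₂ : α → β₂) (s₁ : β₁ → γ)
    (s₂ : β₂ → γ) (hs : ∀ a, s₁ (π₁ a) = s₂ (π₂ a))
    (hinj : ∀ a a', π₁ a = π₁ a' → π₂ a = π₂ a' → a = a') :
    Ent f ≤ Ent (push π₁ f) + Ent (push π₂ f) - Ent (push (fun a => s₁ (π₁ a)) f) := by
  classical
  set p₁ := push π₁ f with hp₁
  set p₂ := push π₂ f with hp₂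
  set p₀ := push (fun a => s₁ (π₁ a)) f with hp₀
  have n1 : ∀ b, 0 ≤ p₁ b := push_nonneg hf π₁
  have n2 : ∀ b, 0 ≤ p₂ b := push_nonneg hf π₂
  have n0 : ∀ b, 0 ≤ p₀ b := push_nonneg hf _
  have e1 : p₀ = push s₁ p₁ := by rw [hp₁, push_push]; rfl
  have e2 : p₀ = push s₂ p₂ := by
    rw [hp₂, push_push, hp₀]
    congr 1
    funext a
    exact hs a
  let q : α → ℝ := fun a => p₁ (π₁ a) * p₂ (π₂ a) / p₀ (s₁ (π₁ a))
  have hq : ∀ a, 0 ≤ q a := fun a => div_nonneg (mul_nonneg (n1 _) (n2 _)) (n0 _)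
  have hpos : ∀ a, f a ≠ 0 → 0 < p₁ (π₁ a) ∧ 0 < p₂ (π₂ a) ∧ 0 < p₀ (s₁ (π₁ a)) := by
    intro a ha
    have h : 0 < f a := lt_of_le_of_ne (hf a) (Ne.symm ha)
    exact ⟨h.trans_le (le_push hf π₁ a), h.trans_le (le_push hf π₂ a),
      h.trans_le (le_push hf (fun a => s₁ (π₁ a)) a)⟩
  have h0 : ∀ a, q a = 0 → f a = 0 := by
    intro a ha
    by_contra h
    obtain ⟨h1, h2, h3⟩ := hpos a h
    exact (div_pos (mul_pos h1 h2) h3).ne' ha
  have hsum : ∑ a, q a ≤ ∑ a, f a := by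
    -- sum over all pairs (b₁, b₂) with s₁ b₁ = s₂ b₂
    let Q : β₁ × β₂ → ℝ := fun b => if s₁ b.1 = s₂ b.2 then p₁ b.1 * p₂ b.2 / p₀ (s₁ b.1) else 0
    have hQ : ∀ b, 0 ≤ Q b := by
      intro b
      simp only [Q]
      split_ifs
      · exact div_nonneg (mul_nonneg (n1 _) (n2 _)) (n0 _)
      · exact le_rfl
    have h1 : ∑ a, q a ≤ ∑ b, Q b := by
      have h2 : ∑ a, q a = ∑ a, Q (π₁ a, π₂ a) := by
        apply Finset.sum_congr rfl
        intro a _
        simp only [Q, q, hs a, if_true]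
      rw [h2]
      have hinj' : Function.Injective (fun a => (π₁ a, π₂ a)) := by
        intro a a' h
        simp only [Prod.mk.injEq] at h
        exact hinj a a' h.1 h.2
      rw [← Finset.sum_image (s := Finset.univ) (f := Q) (g := fun a => (π₁ a, π₂ a))
        (fun a _ a' _ h => hinj' h)]
      exact Finset.sum_le_sum_of_subset_of_nonneg (Finset.subset_univ _) (fun b _ _ => hQ b)
    have h3 : ∑ b, Q b ≤ ∑ a, f a := by
      rw [Fintype.sum_prod_type]
      have h4 : ∀ b₁, ∑ b₂, Q (b₁, b₂) ≤ p₁ b₁ := by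
        intro b₁
        simp only [Q]
        have h50 : p₀ (s₁ b₁) = ∑ b₂, (if s₂ b₂ = s₁ b₁ then p₂ b₂ else 0) := by
          rw [e2]; rfl
        have h5 : ∑ b₂, (if s₁ b₁ = s₂ b₂ then p₁ b₁ * p₂ b₂ / p₀ (s₁ b₁) else 0) =
            p₁ b₁ / p₀ (s₁ b₁) * p₀ (s₁ b₁) := by
          conv_rhs => rw [h50, ← h50, h50]
          rw [Finset.mul_sum]
          apply Finset.sum_congr rfl
          intro b₂ _
          by_cases h : s₂ b₂ = s₁ b₁
          · rw [if_pos h, if_pos h.symm, ← h50]; ring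
          · rw [if_neg h, if_neg (fun h' => h h'.symm)]; ring
        rw [h5]
        by_cases h : p₀ (s₁ b₁) = 0
        · rw [h]; simp [n1 b₁]
        · rw [div_mul_cancel₀ _ h]
      calc ∑ b₁, ∑ b₂, Q (b₁, b₂) ≤ ∑ b₁, p₁ b₁ := Finset.sum_le_sum fun b₁ _ => h4 b₁
        _ = ∑ a, f a := by rw [hp₁, sum_push]
    exact h1.trans h3
  have hg := gibbs hf hq h0 hsum
  have hEnt : ∀ {δ : Type} [Fintype δ] [DecidableEq δ] (π : α → δ),
      Ent (push π f) = ∑ a, f a * (-Real.log (push π f (π a))) := by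
    intro δ _ _ π
    rw [← sum_push_mul π f (fun b => -Real.log (push π f b))]
    unfold Ent
    apply Finset.sum_congr rfl
    intro b _
    unfold Real.negMulLog
    ring
  have h6 : ∑ a, f a * (-Real.log (q a)) = Ent p₁ + Ent p₂ - Ent p₀ := by
    rw [hp₁, hp₂, hp₀, hEnt π₁, hEnt π₂, hEnt (fun a => s₁ (π₁ a)), ← Finset.sum_add_distrib,
      ← Finset.sum_sub_distrib]
    apply Finset.sum_congr rfl
    intro a _
    rw [← hp₁, ← hp₂, ← hp₀]
    by_cases h : f a = 0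
    · simp [h]
    · obtain ⟨h1, h2, h3⟩ := hpos a h
      simp only [q]
      rw [Real.log_div (mul_pos h1 h2).ne' h3.ne', Real.log_mul h1.ne' h2.ne']
      ring
  rw [h6] at hg
  exact hg

end submod

section act
variable {𝔊 : Type} [Group 𝔊] [Fintype 𝔊] {α β : Type} [Fintype α] [Fintype β] [DecidableEq β]
  [MulAction 𝔊 α] [MulAction 𝔊 β]

omit [Fintype α] in
theorem Av_nonneg {f : α → ℝ} (hf : ∀ a, 0 ≤ f a) (a : α) : 0 ≤ Av 𝔊 f a := by
  unfold Av
  exact div_nonneg (Finset.sum_nonneg fun g _ => hf _) (Nat.cast_nonneg _)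

omit [Fintype α] in
theorem Av_smul (f : α → ℝ) (g : 𝔊) (a : α) : Av 𝔊 f (g • a) = Av 𝔊 f a := by
  unfold Av
  congr 1
  apply Fintype.sum_equiv (Equiv.mulLeft g⁻¹)
  intro h
  simp [mul_smul]

theorem card_pos_real : (0 : ℝ) < (Fintype.card 𝔊 : ℝ) := by
  exact_mod_cast Fintype.card_pos

omit [Fintype α] in
theorem Av_ne_zero {f : α → ℝ} (hf : ∀ a, 0 ≤ f a) {a : α} (h : f a ≠ 0) : Av 𝔊 f a ≠ 0 := by
  unfold Av
  apply ne_of_gt
  apply div_pos _ card_pos_real
  apply Finset.sum_pos' (fun g _ => hf _)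
  exact ⟨1, Finset.mem_univ _, by simpa using lt_of_le_of_ne (hf a) (Ne.symm h)⟩

omit [Fintype α] in
theorem Av_ne_zero_exists {f : α → ℝ} {a : α} (h : Av 𝔊 f a ≠ 0) : ∃ g : 𝔊, f (g • a) ≠ 0 := by
  unfold Av at h
  have h' : ∑ g : 𝔊, f (g⁻¹ • a) ≠ 0 := by
    intro h0; rw [h0] at h; simp at h
  obtain ⟨g, _, hg⟩ := Finset.exists_ne_zero_of_sum_ne_zero h'
  exact ⟨g⁻¹, hg⟩

omit [Fintype α] in
theorem Av_mul_inv (f u : α → ℝ) (hu : ∀ (g : 𝔊) a, u (g • a) = u a) (a : α) :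
    Av 𝔊 (fun a => f a * u a) a = Av 𝔊 f a * u a := by
  unfold Av
  simp_rw [hu]
  rw [← Finset.sum_mul]
  ring

omit [Fintype α] in
/-- averaging an invariant function does nothing -/
theorem Av_of_inv (u : α → ℝ) (hu : ∀ (g : 𝔊) a, u (g • a) = u a) : Av 𝔊 u = u := by
  funext a
  unfold Av
  simp_rw [hu]
  have := card_pos_real (𝔊 := 𝔊)
  simp only [Finset.sum_const, Finset.card_univ, nsmul_eq_mul]
  field_simp

theorem sum_Av_mul (f u : α → ℝ) (hu : ∀ (g : 𝔊) a, u (g • a) = u a) :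
    ∑ a, Av 𝔊 f a * u a = ∑ a, f a * u a := by
  unfold Av
  have h1 : ∀ g : 𝔊, ∑ a, f (g⁻¹ • a) * u a = ∑ a, f a * u a := by
    intro g
    apply Fintype.sum_equiv (MulAction.toPerm g⁻¹)
    intro a
    simp only [MulAction.toPerm_apply, hu]
  have h2 : ∑ a, (∑ g : 𝔊, f (g⁻¹ • a)) / (Fintype.card 𝔊 : ℝ) * u a =
      (∑ g : 𝔊, ∑ a, f (g⁻¹ • a) * u a) / (Fintype.card 𝔊 : ℝ) := by
    rw [Finset.sum_comm, Finset.sum_div]
    apply Finset.sum_congr rfl
    intro a _
    rw [← Finset.sum_mul]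
    ring
  rw [h2]
  simp_rw [h1]
  have := card_pos_real (𝔊 := 𝔊)
  simp only [Finset.sum_const, Finset.card_univ, nsmul_eq_mul]
  field_simp

theorem sum_Av (f : α → ℝ) : ∑ a, Av 𝔊 f a = ∑ a, f a := by
  have := sum_Av_mul (𝔊 := 𝔊) f (fun _ => 1) (fun _ _ => rfl)
  simpa using this

theorem push_Av (π : α → β) (hπ : ∀ (g : 𝔊) a, π (g • a) = g • π a) (f : α → ℝ) :
    push π (Av 𝔊 f) = Av 𝔊 (push π f) := by
  funext b
  have h1 : ∀ g : 𝔊, ∑ a, (if π a = b then f (g⁻¹ • a) else 0) =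
      ∑ a, (if π a = g⁻¹ • b then f a else 0) := by
    intro g
    apply Fintype.sum_equiv (MulAction.toPerm g⁻¹)
    intro a
    simp only [MulAction.toPerm_apply, hπ, smul_left_cancel_iff]
  unfold push Av
  simp_rw [← h1]
  rw [Finset.sum_comm, Finset.sum_div]
  apply Finset.sum_congr rfl
  intro a _
  split_ifs
  · rfl
  · simp

theorem Ent_eq_sum (f : α → ℝ) : Ent f = ∑ a, f a * (-Real.log (f a)) := by
  unfold Ent Real.negMulLog
  apply Finset.sum_congr rfl
  intro a _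
  ring

/-- data processing: `I` decreases under equivariant maps. -/
theorem II_push_le {f : α → ℝ} (hf : ∀ a, 0 ≤ f a) (π : α → β)
    (hπ : ∀ (g : 𝔊) a, π (g • a) = g • π a) : II 𝔊 (push π f) ≤ II 𝔊 f := by
  set P := Av 𝔊 f with hP
  set p := push π f with hp
  set P' := Av 𝔊 p with hP'
  have hpP : push π P = P' := by rw [hP, push_Av π hπ]
  have nP : ∀ a, 0 ≤ P a := Av_nonneg hf
  have np : ∀ b, 0 ≤ p b := push_nonneg hf π
  have nP' : ∀ b, 0 ≤ P' b := Av_nonneg np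
  have hpos : ∀ a, f a ≠ 0 → 0 < P a ∧ 0 < p (π a) ∧ 0 < P' (π a) := by
    intro a ha
    have h : 0 < f a := lt_of_le_of_ne (hf a) (Ne.symm ha)
    have h1 : 0 < P a := lt_of_le_of_ne (nP a) (Ne.symm (Av_ne_zero hf ha))
    have h2 : 0 < p (π a) := h.trans_le (le_push hf π a)
    exact ⟨h1, h2, lt_of_le_of_ne (nP' _) (Ne.symm (Av_ne_zero np h2.ne'))⟩
  let q : α → ℝ := fun a => P a * (p (π a) / P' (π a))
  have hq : ∀ a, 0 ≤ q a := fun a => mul_nonneg (nP a) (div_nonneg (np _) (nP' _))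
  have h0 : ∀ a, q a = 0 → f a = 0 := by
    intro a ha
    by_contra h
    obtain ⟨h1, h2, h3⟩ := hpos a h
    exact (mul_pos h1 (div_pos h2 h3)).ne' ha
  have hsum : ∑ a, q a ≤ ∑ a, f a := by
    apply le_of_eq
    have h1 : ∑ a, q a = ∑ b, push π P b * (p b / P' b) :=
      (sum_push_mul π P (fun b => p b / P' b)).symm
    rw [h1, hpP, ← sum_push π f]
    apply Finset.sum_congr rfl
    intro b _
    rw [← hp]
    by_cases h : P' b = 0
    · have : p b = 0 := by
        by_contra h'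
        exact Av_ne_zero np h' h
      rw [h, this]; simp
    · field_simp
  have hg := gibbs hf hq h0 hsum
  have h1 : ∑ a, f a * (-Real.log (q a)) =
      ∑ a, f a * (-Real.log (P a)) + ∑ a, f a * (-Real.log (p (π a))) -
        ∑ a, f a * (-Real.log (P' (π a))) := by
    rw [← Finset.sum_add_distrib, ← Finset.sum_sub_distrib]
    apply Finset.sum_congr rfl
    intro a _
    by_cases h : f a = 0
    · simp [h]
    · obtain ⟨h1, h2, h3⟩ := hpos a h
      simp only [q]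
      rw [Real.log_mul h1.ne' (div_pos h2 h3).ne', Real.log_div h2.ne' h3.ne']
      ring
  have h2 : ∑ a, f a * (-Real.log (P a)) = Ent P := by
    rw [Ent_eq_sum]
    exact (sum_Av_mul (𝔊 := 𝔊) f (fun a => -Real.log (P a))
      (fun g a => by rw [hP, Av_smul])).symm
  have h3 : ∑ a, f a * (-Real.log (p (π a))) = Ent p := by
    rw [Ent_eq_sum]
    exact (sum_push_mul π f (fun b => -Real.log (p b))).symm
  have h4 : ∑ a, f a * (-Real.log (P' (π a))) = Ent P' := by
    rw [Ent_eq_sum]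
    rw [← sum_push_mul π f (fun b => -Real.log (P' b))]
    exact (sum_Av_mul (𝔊 := 𝔊) p (fun b => -Real.log (P' b))
      (fun g a => by rw [hP', Av_smul])).symm
  rw [h1, h2, h3, h4] at hg
  unfold II
  linarith

theorem II_nonneg {f : α → ℝ} (hf : ∀ a, 0 ≤ f a) : 0 ≤ II 𝔊 f := by
  have hg := gibbs (f := f) (q := Av 𝔊 f) hf (Av_nonneg hf)
    (fun a ha => by by_contra h; exact Av_ne_zero hf h ha) (sum_Av f).le
  have h2 : ∑ a, f a * (-Real.log (Av 𝔊 f a)) = Ent (Av 𝔊 f) := by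
    rw [Ent_eq_sum]
    exact (sum_Av_mul (𝔊 := 𝔊) f (fun a => -Real.log (Av 𝔊 f a))
      (fun g a => by rw [Av_smul])).symm
  rw [h2] at hg
  unfold II
  linarith

/-- `I` is unchanged when an equivariant kernel is adjoined. -/
theorem II_kernel {f : α → ℝ} (hf : ∀ a, 0 ≤ f a) (w : α → β → ℝ)
    (hinv : ∀ (g : 𝔊) a b, w (g • a) (g • b) = w a b)
    (hw : ∀ a, Av 𝔊 f a ≠ 0 → ∑ b, w a b = 1) :
    II 𝔊 (fun y : α × β => f y.1 * w y.1 y.2) = II 𝔊 f := by
  have h1 : Av 𝔊 (fun y : α × β => f y.1 * w y.1 y.2) =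
      fun y : α × β => Av 𝔊 f y.1 * w y.1 y.2 := by
    funext y
    have := Av_mul_inv (𝔊 := 𝔊) (fun y : α × β => f y.1) (fun y : α × β => w y.1 y.2)
      (fun g y => hinv g y.1 y.2) y
    rw [this]
    rfl
  have hEinv : ∀ (g : 𝔊) a, Ent (w (g • a)) = Ent (w a) := by
    intro g a
    unfold Ent
    symm
    apply Fintype.sum_equiv (MulAction.toPerm g)
    intro b
    simp only [MulAction.toPerm_apply, hinv]
  unfold II
  rw [h1, Ent_kernel _ _ hw, Ent_kernel _ _ (fun a ha => hw a (Av_ne_zero hf ha)),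
    sum_Av_mul (𝔊 := 𝔊) f (fun a => Ent (w a)) hEinv]
  ring

end act

end Crest.Agent.R55
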