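import Crest.Agent.R55.Defs

/-! Row 55, piece GraphA: translation of the conclusion.  `slotAction`, `edgeImg`, `bern` in Defs. -/

set_option autoImplicit false
open Finset
open scoped Pointwise

namespace Crest.Agent.R55

open Crest.CombinatoricsR.RandomGraph

theorem mem_edgeImg_iff {n : ℕ} {W : Type} (H : SimpleGraph W) (f : W ↪ Fin n)
    (z : EdgeSlot n) : z ∈ edgeImg H f ↔ ∃ e ∈ H.edgeSet, Sym2.map f e = z.1 := by
  classical
  unfold edgeImg
  simp only [Finset.mem_filter, Finset.mem_univ, true_and]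

theorem card_smul_edgeImg {n : ℕ} {W : Type} [Fintype W] [DecidableEq W] (H : SimpleGraph W)
    [DecidableRel H.Adj] (f : W ↪ Fin n) (g : Equiv.Perm (Fin n)) :
    (g • edgeImg H f).card = H.edgeFinset.card := by
  classical
  rw [Finset.card_smul_finset]
  symm
  have hd : ∀ e ∈ H.edgeFinset, ¬ (Sym2.map f e).IsDiag := by
    intro e he
    rw [SimpleGraph.mem_edgeFinset] at he
    induction e with
    | _ a b =>
      have hab : a ≠ b := H.ne_of_adj he
      simpa using hab
  refine Finset.card_bij (fun e he => (⟨Sym2.map f e, hd e he⟩ : EdgeSlot n)) ?_ ?_ ?_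
  · intro e he
    rw [mem_edgeImg_iff]
    exact ⟨e, SimpleGraph.mem_edgeFinset.1 he, rfl⟩
  · intro e he e' he' h
    have h1 : Sym2.map f e = Sym2.map f e' := congrArg Subtype.val h
    exact Sym2.map.injective f.injective h1
  · intro z hz
    rw [mem_edgeImg_iff] at hz
    obtain ⟨e, he, hez⟩ := hz
    exact ⟨e, SimpleGraph.mem_edgeFinset.2 he, Subtype.ext hez⟩

theorem concl_transfer {n : ℕ} {W : Type} [Fintype W] [DecidableEq W] (H : SimpleGraph W)
    [DecidableRel H.Adj] (f : W ↪ Fin n) (p : ℝ) (hp0 : 0 ≤ p) (hp1 : p ≤ 1) :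
    ∑ V : Finset (EdgeSlot n), bern p V *
      (if ∃ g : Equiv.Perm (Fin n), g • edgeImg H f ⊆ V then 1 else 0) ≤
    gnpProb n p {G | H.IsContained G} := by
  classical
  rw [gnpProb, Crest.FinProb.bernoulliProb]
  simp only [mul_ite, mul_one, mul_zero]
  rw [← Finset.sum_filter]
  have hw : ∀ V : Finset (EdgeSlot n), bern p V =
      Crest.FinProb.bernoulliWeight p (fun z => decide (z ∈ V)) := by
    intro V
    rw [bern, Crest.FinProb.bernoulliWeight]
    simp only [decide_eq_true_eq]
    rw [Finset.prod_ite, Finset.prod_const, Finset.prod_const, Finset.filter_mem_eq_inter,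
      Finset.univ_inter, Finset.filter_not, Finset.filter_mem_eq_inter, Finset.univ_inter,
      ← Finset.compl_eq_univ_sdiff, Finset.card_compl]
  rw [Finset.sum_congr rfl fun V _ => hw V]
  have hinj : Function.Injective (fun (V : Finset (EdgeSlot n)) (z : EdgeSlot n) =>
      decide (z ∈ V)) := by
    intro V V' h
    ext z
    have := congrFun h z
    simpa using this
  rw [← Finset.sum_image (f := fun ω => Crest.FinProb.bernoulliWeight p ω)
    (g := fun (V : Finset (EdgeSlot n)) (z : EdgeSlot n) => decide (z ∈ V))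
    (fun V _ V' _ h => hinj h)]
  refine Finset.sum_le_sum_of_subset_of_nonneg ?_ ?_
  · intro ω hω
    rw [Finset.mem_image] at hω
    obtain ⟨V, hV, rfl⟩ := hω
    rw [Finset.mem_filter] at hV
    obtain ⟨_, g, hg⟩ := hV
    rw [Finset.mem_filter]
    refine ⟨Finset.mem_univ _, ?_⟩
    change H.IsContained (graphOf fun z => decide (z ∈ V))
    refine ⟨⟨⟨fun a => g (f a), ?_⟩, fun a b h => f.injective (g.injective h)⟩⟩
    intro a b hab
    have hne : g (f a) ≠ g (f b) := fun h => H.ne_of_adj hab (f.injective (g.injective h))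
    have hfd : ¬ (s(f a, f b)).IsDiag := by
      simpa using H.ne_of_adj hab
    have hgd : ¬ (s(g (f a), g (f b))).IsDiag := by
      simpa using hne
    rw [graphOf, SimpleGraph.fromEdgeSet_adj]
    refine ⟨⟨hgd, ?_⟩, hne⟩
    rw [decide_eq_true_eq]
    apply hg
    rw [Finset.mem_smul_finset]
    refine ⟨⟨s(f a, f b), hfd⟩, ?_, Subtype.ext rfl⟩
    rw [mem_edgeImg_iff]
    exact ⟨s(a, b), hab, rfl⟩
  · intro ω _ _
    rw [Crest.FinProb.bernoulliWeight]
    refine Finset.prod_nonneg fun i _ => ?_
    split_ifs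
    · exact hp0
    · linarith

end Crest.Agent.R55
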