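import Crest.Agent.R55.Defs

/-! Row 55, piece GraphB: translation of the hypothesis.  `slotAction`, `edgeImg` in Defs. -/

set_option autoImplicit false
open Finset
open scoped Pointwise

namespace Crest.Agent.R55

open Crest.CombinatoricsR.RandomGraph

namespace GraphB

/-- two injections differ by a permutation of the target -/
theorem exists_perm_extend {A B : Type} [Fintype B] (i j : A → B) (hi : Function.Injective i)
    (hj : Function.Injective j) : ∃ g : Equiv.Perm B, ∀ a, g (i a) = j a := by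
  classical
  let e : {x // x ∈ Set.range i} ≃ {x // x ∈ Set.range j} :=
    (Equiv.ofInjective i hi).symm.trans (Equiv.ofInjective j hj)
  refine ⟨e.extendSubtype, fun a => ?_⟩
  rw [Equiv.extendSubtype_apply_of_mem e (i a) ⟨a, rfl⟩]
  have h1 : (Equiv.ofInjective i hi).symm ⟨i a, ⟨a, rfl⟩⟩ = a := by
    rw [Equiv.symm_apply_eq]
    rfl
  change ((Equiv.ofInjective j hj) ((Equiv.ofInjective i hi).symm ⟨i a, ⟨a, rfl⟩⟩) : B) = j a
  rw [h1]
  rfl

theorem sum_weight_supset {ι : Type} [Fintype ι] [DecidableEq ι] (p : ℝ) (T : Finset ι) :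
    ∑ ω : ι → Bool, Crest.FinProb.bernoulliWeight p ω *
      (if ∀ z ∈ T, ω z = true then (1 : ℝ) else 0) = p ^ T.card := by
  classical
  have h1 : ∀ ω : ι → Bool, Crest.FinProb.bernoulliWeight p ω *
      (if ∀ z ∈ T, ω z = true then (1 : ℝ) else 0) =
      ∏ i, ((if ω i then p else 1 - p) * (if i ∈ T → ω i = true then (1 : ℝ) else 0)) := by
    intro ω
    rw [Finset.prod_mul_distrib, Crest.FinProb.bernoulliWeight]
    congr 1
    rw [Finset.prod_ite_zero]
    simp
  rw [Finset.sum_congr rfl fun ω _ => h1 ω]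
  have h2 := Finset.prod_univ_sum (fun _ : ι => (Finset.univ : Finset Bool))
    (fun i b => ((if b then p else 1 - p) * (if i ∈ T → b = true then (1 : ℝ) else 0)))
  rw [Fintype.piFinset_univ] at h2
  rw [← h2]
  have h3 : ∀ i : ι, (∑ b : Bool, ((if b then p else 1 - p) *
      (if i ∈ T → b = true then (1 : ℝ) else 0))) = if i ∈ T then p else 1 := by
    intro i
    by_cases hi : i ∈ T
    · simp [hi]
    · simp [hi]
  rw [Finset.prod_congr rfl fun i _ => h3 i, Finset.prod_ite_mem, Finset.univ_inter,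
    Finset.prod_const]

/-- the subgraph of `H` with edge set `f⁻¹ S` and without isolated vertices -/
def subF {n : ℕ} {W : Type} (H : SimpleGraph W) (f : W ↪ Fin n) (S : Finset (EdgeSlot n)) :
    H.Subgraph where
  verts := {a | ∃ b, H.Adj a b ∧ ∃ s ∈ S, s.1 = s(f a, f b)}
  Adj a b := H.Adj a b ∧ ∃ s ∈ S, s.1 = s(f a, f b)
  adj_sub h := h.1
  edge_vert h := ⟨_, h⟩
  symm := ⟨fun a b h => ⟨h.1.symm, by
    obtain ⟨s, hs, h'⟩ := h.2
    exact ⟨s, hs, by rw [h', Sym2.eq_swap]⟩⟩⟩

theorem graphOf_adj {n : ℕ} (ω : EdgeSlot n → Bool) (z : EdgeSlot n)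
    (h : z.1 ∈ (graphOf ω).edgeSet) : ω z = true := by
  rw [graphOf, SimpleGraph.edgeSet_fromEdgeSet] at h
  obtain ⟨⟨h1, h2⟩, _⟩ := h
  exact h2

/-- the slots of a subgraph -/
noncomputable def slots {n : ℕ} {G : SimpleGraph (Fin n)} (G' : G.Subgraph) :
    Finset (EdgeSlot n) := by
  classical
  exact univ.filter (fun z : EdgeSlot n => z.1 ∈ G'.edgeSet)

theorem mem_slots {n : ℕ} {G : SimpleGraph (Fin n)} (G' : G.Subgraph) (z : EdgeSlot n) :
    z ∈ slots G' ↔ z.1 ∈ G'.edgeSet := by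
  classical
  rw [slots, Finset.mem_filter]
  simp

theorem verts_of_iso {n : ℕ} {W : Type} (H : SimpleGraph W) (f : W ↪ Fin n)
    (S : Finset (EdgeSlot n)) {G : SimpleGraph (Fin n)} (G' : G.Subgraph)
    (φ : (subF H f S).coe ≃g G'.coe) (x : Fin n) :
    x ∈ G'.verts ↔ ∃ y, G'.Adj x y := by
  constructor
  · intro hx
    obtain ⟨b, hb⟩ := (φ.symm ⟨x, hx⟩).2
    have hb2 : (subF H f S).Adj (φ.symm ⟨x, hx⟩).1 b := hb
    have hbv : b ∈ (subF H f S).verts := (subF H f S).edge_vert hb2.symm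
    have h3 : (subF H f S).coe.Adj (φ.symm ⟨x, hx⟩) ⟨b, hbv⟩ := hb2
    have h4 := φ.map_rel_iff.2 h3
    have h5 : φ (φ.symm ⟨x, hx⟩) = ⟨x, hx⟩ := φ.apply_symm_apply _
    rw [h5] at h4
    exact ⟨_, h4⟩
  · rintro ⟨y, hy⟩
    exact G'.edge_vert hy

theorem slots_eq {n : ℕ} {W : Type} (H : SimpleGraph W) (f : W ↪ Fin n)
    (S : Finset (EdgeSlot n)) (hS : S ⊆ edgeImg H f) {G : SimpleGraph (Fin n)} (G' : G.Subgraph)
    (φ : (subF H f S).coe ≃g G'.coe) : ∃ g : Equiv.Perm (Fin n), g • S = slots G' := by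
  classical
  obtain ⟨g, hg⟩ := exists_perm_extend (A := (subF H f S).verts) (fun a => f a.1)
    (fun a => (φ a).1) (fun a b h => Subtype.ext (f.injective h))
    (fun a b h => φ.injective (Subtype.ext h))
  refine ⟨g, ?_⟩
  ext z
  rw [mem_slots, Finset.mem_smul_finset]
  constructor
  · rintro ⟨s, hs, rfl⟩
    have h1 := hS hs
    rw [edgeImg, Finset.mem_filter] at h1
    obtain ⟨_, e, he, hes⟩ := h1
    induction e with
    | _ a b =>
      rw [SimpleGraph.mem_edgeSet] at he
      have hab : (subF H f S).Adj a b := ⟨he, s, hs, by rw [← hes]; rfl⟩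
      have ha : a ∈ (subF H f S).verts := (subF H f S).edge_vert hab
      have hb : b ∈ (subF H f S).verts := (subF H f S).edge_vert hab.symm
      have h3 : (subF H f S).coe.Adj ⟨a, ha⟩ ⟨b, hb⟩ := hab
      have h4 := φ.map_rel_iff.2 h3
      have h5 : G'.Adj (φ ⟨a, ha⟩).1 (φ ⟨b, hb⟩).1 := h4
      rw [slot_smul_val, ← hes]
      change s(g (f a), g (f b)) ∈ G'.edgeSet
      rw [hg ⟨a, ha⟩, hg ⟨b, hb⟩]
      exact h5
  · intro hz
    rcases z with ⟨z, hzd⟩
    induction z with
    | _ x y =>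
      have hxy : G'.Adj x y := hz
      have hx : x ∈ G'.verts := G'.edge_vert hxy
      have hy : y ∈ G'.verts := G'.edge_vert hxy.symm
      have h3 : G'.coe.Adj ⟨x, hx⟩ ⟨y, hy⟩ := hxy
      have h4 := φ.symm.map_rel_iff.2 h3
      have h5 : (subF H f S).Adj (φ.symm ⟨x, hx⟩).1 (φ.symm ⟨y, hy⟩).1 := h4
      obtain ⟨_, s, hs, hs'⟩ := h5
      refine ⟨s, hs, ?_⟩
      apply Subtype.ext
      rw [slot_smul_val, hs']
      change s(g (f _), g (f _)) = s(x, y)
      rw [hg (φ.symm ⟨x, hx⟩), hg (φ.symm ⟨y, hy⟩), φ.apply_symm_apply, φ.apply_symm_apply]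

theorem copyCount_le {n : ℕ} {W : Type} (H : SimpleGraph W) (f : W ↪ Fin n)
    (S : Finset (EdgeSlot n)) (hS : S ⊆ edgeImg H f) (ω : EdgeSlot n → Bool) :
    (graphOf ω).copyCount (subF H f S).coe ≤
      ((univ.image (fun g : Equiv.Perm (Fin n) => g • S)).filter
        (fun T => ∀ z ∈ T, ω z = true)).card := by
  classical
  rw [SimpleGraph.copyCount]
  refine Finset.card_le_card_of_injOn (fun G' => slots G') ?_ ?_
  · intro G' hG'
    have hG : Nonempty ((subF H f S).coe ≃g G'.coe) := by simpa using hG'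
    obtain ⟨φ⟩ := hG
    obtain ⟨g, hg⟩ := slots_eq H f S hS G' φ
    rw [Finset.mem_coe, Finset.mem_filter, Finset.mem_image]
    refine ⟨⟨g, Finset.mem_univ _, hg⟩, fun z hz => ?_⟩
    rw [mem_slots] at hz
    exact graphOf_adj ω z (G'.edgeSet_subset hz)
  · intro G1 h1 G2 h2 h12
    have hG1 : Nonempty ((subF H f S).coe ≃g G1.coe) := by simpa using h1
    have hG2 : Nonempty ((subF H f S).coe ≃g G2.coe) := by simpa using h2
    obtain ⟨φ1⟩ := hG1
    obtain ⟨φ2⟩ := hG2
    simp only at h12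
    have hadj : ∀ x y, G1.Adj x y ↔ G2.Adj x y := by
      intro x y
      by_cases hxy : x = y
      · subst hxy
        exact ⟨fun h => absurd rfl h.ne, fun h => absurd rfl h.ne⟩
      · have hd : ¬ (s(x, y)).IsDiag := by simpa using hxy
        have e1 := mem_slots G1 ⟨s(x, y), hd⟩
        have e2 := mem_slots G2 ⟨s(x, y), hd⟩
        rw [h12] at e1
        exact e1.symm.trans e2
    apply SimpleGraph.Subgraph.ext
    · ext x
      rw [verts_of_iso H f S G1 φ1 x, verts_of_iso H f S G2 φ2 x]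
      simp only [hadj]
    · funext x y
      exact propext (hadj x y)

end GraphB

open GraphB in
/-- If `S ⊆ edgeImg H f`, let `F : H.Subgraph` be the subgraph with edge set `f⁻¹ S` and no
isolated vertices.  Each subgraph `G'` of `G` isomorphic to `F.coe` has no isolated vertices, so it
is determined by its edge set, which is `g • S` for some permutation `g` (extend the injection
`V(F) → V(G')` to a permutation `g` with `g ∘ f = ` it).  Hence `E copyCount ≤ N_S p^|S|`. -/
theorem hyp_transfer {n : ℕ} {W : Type} [Fintype W] [DecidableEq W] (H : SimpleGraph W)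
    [DecidableRel H.Adj] (f : W ↪ Fin n) (p : ℝ) (hp0 : 0 ≤ p) (hp1 : p ≤ 1)
    (hE : ∀ F : H.Subgraph, (1 : ℝ) / 2 ≤
      gnpExpect n p (fun G => (G.copyCount F.coe : ℝ)))
    (S : Finset (EdgeSlot n)) (hS : S ⊆ edgeImg H f) :
    (1 : ℝ) / 2 ≤
      ((univ.image (fun g : Equiv.Perm (Fin n) => g • S)).card : ℝ) * p ^ S.card := by
  classical
  refine (hE (subF H f S)).trans ?_
  rw [gnpExpect]
  set orb := univ.image (fun g : Equiv.Perm (Fin n) => g • S) with horb
  have hw : ∀ ω : EdgeSlot n → Bool, 0 ≤ Crest.FinProb.bernoulliWeight p ω := by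
    intro ω
    rw [Crest.FinProb.bernoulliWeight]
    refine Finset.prod_nonneg fun i _ => ?_
    split_ifs
    · exact hp0
    · linarith
  calc ∑ ω : EdgeSlot n → Bool, Crest.FinProb.bernoulliWeight p ω *
        ((graphOf ω).copyCount (subF H f S).coe : ℝ)
      ≤ ∑ ω : EdgeSlot n → Bool, Crest.FinProb.bernoulliWeight p ω *
        ∑ T ∈ orb, (if ∀ z ∈ T, ω z = true then (1 : ℝ) else 0) := by
        refine Finset.sum_le_sum fun ω _ => mul_le_mul_of_nonneg_left ?_ (hw ω)
        have h1 := copyCount_le H f S hS ω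
        have h2 : ((graphOf ω).copyCount (subF H f S).coe : ℝ) ≤
            ((orb.filter (fun T => ∀ z ∈ T, ω z = true)).card : ℝ) := by
          exact_mod_cast h1
        refine h2.trans (le_of_eq ?_)
        rw [Finset.sum_boole]
    _ = ∑ T ∈ orb, ∑ ω : EdgeSlot n → Bool, Crest.FinProb.bernoulliWeight p ω *
        (if ∀ z ∈ T, ω z = true then (1 : ℝ) else 0) := by
        rw [Finset.sum_comm]
        refine Finset.sum_congr rfl fun ω _ => ?_
        rw [Finset.mul_sum]
    _ = ∑ T ∈ orb, p ^ S.card := by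
        refine Finset.sum_congr rfl fun T hT => ?_
        rw [sum_weight_supset]
        rw [horb, Finset.mem_image] at hT
        obtain ⟨g, _, rfl⟩ := hT
        rw [Finset.card_smul_finset]
    _ = (orb.card : ℝ) * p ^ S.card := by
        rw [Finset.sum_const, nsmul_eq_mul]

end Crest.Agent.R55
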