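import Crest.Agent.R55.SpreadB

/-! Row 55, piece SpreadC: the spread lemma, all rounds. -/

set_option autoImplicit false
open Finset

namespace Crest.Agent.R55

variable {X : Type} [Fintype X] [DecidableEq X]

/-- total error of one round -/
theorem round_error {ι : Type} (I : Finset ι) (E : ι → Finset X) (ℓ : ℕ)
    (hE : ∀ i ∈ I, (E i).card ≤ ℓ) (q K N : ℝ) (hq : 0 < q) (hK : 64 ≤ K) (hq1 : K * q < 1)
    (hN : 0 ≤ N)
    (hspread : ∀ S : Finset X, ((I.filter (fun i => S ⊆ E i)).card : ℝ) ≤ 2 * q ^ S.card * N)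
    (T : Finset X → ι → Finset X)
    (hT : ∀ W, ∀ i ∈ I,
      (∃ j ∈ I, T W i = E j \ W) ∧ T W i ⊆ E i ∧ Disjoint (T W i) W ∧
      (∀ j ∈ I, E j ⊆ W ∪ E i → (T W i).card ≤ (E j \ W).card) ∧ (∃ j ∈ I, E j ⊆ W ∪ T W i)) :
    ∑ W : Finset X, bern (K * q) W * ((I.filter (fun i => ¬ (T W i).card ≤ ℓ / 2)).card : ℝ) ≤
      1 / 4 * (1 / 4) ^ ℓ * N := by
  classical
  have hK0 : 0 < K := by linarith
  have hqq0 : 0 ≤ K * q := (mul_pos hK0 hq).le
  have hb : ∀ W : Finset X, 0 ≤ bern (K * q) W := bern_nonneg hqq0 hq1.le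
  have hcard : ∀ W : Finset X, ((I.filter (fun i => ¬ (T W i).card ≤ ℓ / 2)).card : ℝ) ≤
      ∑ t ∈ Finset.Ioc (ℓ / 2) ℓ, ((I.filter (fun i => (T W i).card = t)).card : ℝ) := by
    intro W
    have h1 : (I.filter (fun i => ¬ (T W i).card ≤ ℓ / 2)) ⊆
        (Finset.Ioc (ℓ / 2) ℓ).biUnion (fun t => I.filter (fun i => (T W i).card = t)) := by
      intro i hi
      rw [Finset.mem_filter] at hi
      rw [Finset.mem_biUnion]
      refine ⟨(T W i).card, ?_, ?_⟩
      · rw [Finset.mem_Ioc]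
        refine ⟨by omega, ?_⟩
        exact (Finset.card_le_card (hT W i hi.1).2.1).trans (hE i hi.1)
      · rw [Finset.mem_filter]
        exact ⟨hi.1, rfl⟩
    have h2 := (Finset.card_le_card h1).trans Finset.card_biUnion_le
    exact_mod_cast h2
  calc ∑ W : Finset X, bern (K * q) W * ((I.filter (fun i => ¬ (T W i).card ≤ ℓ / 2)).card : ℝ)
      ≤ ∑ W : Finset X, bern (K * q) W *
          ∑ t ∈ Finset.Ioc (ℓ / 2) ℓ, ((I.filter (fun i => (T W i).card = t)).card : ℝ) :=
        Finset.sum_le_sum fun W _ => mul_le_mul_of_nonneg_left (hcard W) (hb W)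
    _ = ∑ t ∈ Finset.Ioc (ℓ / 2) ℓ, ∑ W : Finset X, bern (K * q) W *
          ((I.filter (fun i => (T W i).card = t)).card : ℝ) := by
        rw [Finset.sum_comm]
        refine Finset.sum_congr rfl fun W _ => ?_
        rw [Finset.mul_sum]
    _ ≤ ∑ t ∈ Finset.Ioc (ℓ / 2) ℓ, 2 * (ℓ.choose t : ℝ) * N / K ^ t :=
        Finset.sum_le_sum fun t _ => round I E ℓ hE q K N hq hK0 hq1 hN hspread T hT t
    _ ≤ ∑ t ∈ Finset.Ioc (ℓ / 2) ℓ, (ℓ.choose t : ℝ) * (2 * N * (1 / 8) ^ (ℓ + 1)) := by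
        refine Finset.sum_le_sum fun t ht => ?_
        rw [Finset.mem_Ioc] at ht
        have h64 : (8 : ℝ) ^ (ℓ + 1) ≤ K ^ t := by
          calc (8 : ℝ) ^ (ℓ + 1) ≤ 8 ^ (2 * t) :=
                pow_le_pow_right₀ (by norm_num) (by omega)
            _ = 64 ^ t := by rw [pow_mul]; norm_num
            _ ≤ K ^ t := pow_le_pow_left₀ (by norm_num) hK t
        have hc : (0 : ℝ) ≤ (ℓ.choose t : ℝ) := by positivity
        have h8 : (0 : ℝ) < 8 ^ (ℓ + 1) := by positivity
        rw [div_eq_mul_inv]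
        have hinv : (K ^ t)⁻¹ ≤ (1 / 8 : ℝ) ^ (ℓ + 1) := by
          rw [one_div, inv_pow]
          exact inv_anti₀ h8 h64
        calc 2 * (ℓ.choose t : ℝ) * N * (K ^ t)⁻¹
            ≤ 2 * (ℓ.choose t : ℝ) * N * (1 / 8 : ℝ) ^ (ℓ + 1) :=
              mul_le_mul_of_nonneg_left hinv (by positivity)
          _ = (ℓ.choose t : ℝ) * (2 * N * (1 / 8) ^ (ℓ + 1)) := by ring
    _ = (∑ t ∈ Finset.Ioc (ℓ / 2) ℓ, (ℓ.choose t : ℝ)) * (2 * N * (1 / 8) ^ (ℓ + 1)) := by
        rw [Finset.sum_mul]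
    _ ≤ 2 ^ ℓ * (2 * N * (1 / 8) ^ (ℓ + 1)) := by
        refine mul_le_mul_of_nonneg_right ?_ (by positivity)
        have h3 : ∑ t ∈ Finset.Ioc (ℓ / 2) ℓ, ℓ.choose t ≤ ∑ t ∈ Finset.range (ℓ + 1), ℓ.choose t := by
          refine Finset.sum_le_sum_of_subset ?_
          intro t ht
          rw [Finset.mem_Ioc] at ht
          rw [Finset.mem_range]
          omega
        rw [Nat.sum_range_choose] at h3
        exact_mod_cast h3
    _ = 1 / 4 * (1 / 4) ^ ℓ * N := by
        have : (2 : ℝ) ^ ℓ * (1 / 8) ^ ℓ = (1 / 4) ^ ℓ := by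
          rw [← mul_pow]; norm_num
        rw [pow_succ]
        calc (2 : ℝ) ^ ℓ * (2 * N * ((1 / 8) ^ ℓ * (1 / 8)))
            = (2 ^ ℓ * (1 / 8) ^ ℓ) * (1 / 4) * N := by ring
          _ = 1 / 4 * (1 / 4) ^ ℓ * N := by rw [this]; ring

/-- all rounds: induction on the size bound `ℓ` (`ℓ → ℓ / 2`), number of rounds `Nat.size ℓ`.
The error of one round is at most `∑_{t > ℓ/2} 2 C(ℓ,t) K^{-t} ≤ 2·2^ℓ·K^{-(ℓ+1)/2} ≤ 4^{-ℓ}/4`. -/
theorem all_rounds {ι : Type} (N : ℝ) (hN : 0 < N) (q K : ℝ) (hq : 0 < q) (hK : 64 ≤ K)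
    (hq1 : K * q < 1) (ℓ : ℕ) (I : Finset ι) (hI : (I.card : ℝ) ≤ N) (E : ι → Finset X)
    (hE : ∀ i ∈ I, (E i).card ≤ ℓ)
    (hspread : ∀ S : Finset X, ((I.filter (fun i => S ⊆ E i)).card : ℝ) ≤ 2 * q ^ S.card * N) :
    (I.card : ℝ) / N - 1 / 2 * (1 - (1 / 4) ^ ℓ) ≤
      ∑ W : Finset X, bern (1 - (1 - K * q) ^ Nat.size ℓ) W *
        (if ∃ i ∈ I, E i ⊆ W then 1 else 0) := by
  have hK0 : 0 < K := by linarith
  have hqq0 : 0 ≤ K * q := (mul_pos hK0 hq).le
  induction ℓ using Nat.strong_induction_on generalizing I E with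
  | _ ℓ ih =>
  rcases Nat.eq_zero_or_pos ℓ with h0 | hpos
  · subst h0
    have hE0 : ∀ i ∈ I, E i = ∅ := fun i hi => by
      have := hE i hi
      exact Finset.card_eq_zero.mp (by omega)
    rcases I.eq_empty_or_nonempty with hIe | ⟨i, hi⟩
    · subst hIe
      simp
    · have h1 : ∀ W : Finset X, (∃ i ∈ I, E i ⊆ W) := fun W => ⟨i, hi, by rw [hE0 i hi]; simp⟩
      simp only [h1, if_true, mul_one]
      rw [sum_bern]
      have : (I.card : ℝ) / N ≤ 1 := by rw [div_le_one hN]; exact hI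
      simpa using this
  · classical
    -- the fragments
    choose T hT using fun W : Finset X => exists_frag I E W
    set J : Finset X → Finset ι := fun W => I.filter (fun i => (T W i).card ≤ ℓ / 2) with hJ
    set q' : ℝ := 1 - (1 - K * q) ^ Nat.size (ℓ / 2) with hq'
    have hlt : ℓ / 2 < ℓ := Nat.div_lt_self hpos (by norm_num)
    have hb0 : ∀ W : Finset X, 0 ≤ bern (K * q) W := bern_nonneg hqq0 hq1.le
    have hq'0 : 0 ≤ q' := by
      rw [hq', sub_nonneg]
      exact pow_le_one₀ (by linarith) (by linarith)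
    have hq'1 : q' ≤ 1 := by
      rw [hq']
      have : 0 ≤ (1 - K * q) ^ Nat.size (ℓ / 2) := pow_nonneg (by linarith) _
      linarith
    have hb' : ∀ W : Finset X, 0 ≤ bern q' W := bern_nonneg hq'0 hq'1
    have hsize : Nat.size ℓ = Nat.size (ℓ / 2) + 1 := by
      have h1 : Nat.size ℓ ≠ 0 := by
        intro h; rw [Nat.size_eq_zero] at h; omega
      have h2 : Nat.size (ℓ / 2) = Nat.size ℓ - 1 := by
        apply le_antisymm
        · rw [Nat.size_le]
          have h3 : ℓ < 2 ^ Nat.size ℓ := Nat.lt_size_self ℓ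
          have h4 : 2 ^ Nat.size ℓ = 2 * 2 ^ (Nat.size ℓ - 1) := by
            rw [← pow_succ']; congr 1; omega
          omega
        · have h3 : Nat.size ℓ ≤ Nat.size (ℓ / 2) + 1 := by
            rw [Nat.size_le]
            have h5 : ℓ / 2 < 2 ^ Nat.size (ℓ / 2) := Nat.lt_size_self (ℓ / 2)
            rw [pow_succ]
            omega
          omega
      omega
    have hcomb : 1 - (1 - K * q) ^ Nat.size ℓ = K * q + q' - K * q * q' := by
      rw [hsize, pow_succ, hq']; ring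
    rw [hcomb, ← bern_union]
    -- induction hypothesis for each `W`
    have hIH : ∀ W : Finset X, ((J W).card : ℝ) / N - 1 / 2 * (1 - (1 / 4) ^ (ℓ / 2)) ≤
        ∑ W' : Finset X, bern q' W' * (if ∃ i ∈ I, E i ⊆ W ∪ W' then 1 else 0) := by
      intro W
      have hJI : J W ⊆ I := Finset.filter_subset _ _
      refine (ih (ℓ / 2) hlt (J W) ?_ (T W) ?_ ?_).trans ?_
      · exact le_trans (by exact_mod_cast Finset.card_le_card hJI) hI
      · intro i hi
        exact (Finset.mem_filter.mp hi).2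
      · intro S
        refine le_trans ?_ (hspread S)
        have : (J W).filter (fun i => S ⊆ T W i) ⊆ I.filter (fun i => S ⊆ E i) := by
          intro i hi
          rw [Finset.mem_filter] at hi ⊢
          exact ⟨hJI hi.1, hi.2.trans (hT W i (hJI hi.1)).2.1⟩
        exact_mod_cast Finset.card_le_card this
      · refine Finset.sum_le_sum fun W' _ => mul_le_mul_of_nonneg_left ?_ (hb' W')
        by_cases h : ∃ i ∈ J W, T W i ⊆ W'
        · obtain ⟨i, hi, hiW⟩ := h
          obtain ⟨j, hj, hjW⟩ := (hT W i (hJI hi)).2.2.2.2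
          have h2 : ∃ i ∈ I, E i ⊆ W ∪ W' :=
            ⟨j, hj, hjW.trans (Finset.union_subset_union (Finset.Subset.refl _) hiW)⟩
          rw [if_pos h2]
          split_ifs <;> norm_num
        · rw [if_neg h]
          split_ifs <;> norm_num
    have herr := round_error I E ℓ hE q K N hq hK hq1 hN.le hspread T hT
    have hsplit : ∀ W : Finset X, ((J W).card : ℝ) =
        I.card - ((I.filter (fun i => ¬ (T W i).card ≤ ℓ / 2)).card : ℝ) := by
      intro W
      have := Finset.card_filter_add_card_filter_not (s := I) (fun i => (T W i).card ≤ ℓ / 2)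
      rw [eq_sub_iff_add_eq]
      exact_mod_cast this
    have hmain : (I.card : ℝ) / N - 1 / 4 * (1 / 4) ^ ℓ - 1 / 2 * (1 - (1 / 4) ^ (ℓ / 2)) ≤
        ∑ W : Finset X, bern (K * q) W *
          (((J W).card : ℝ) / N - 1 / 2 * (1 - (1 / 4) ^ (ℓ / 2))) := by
      have e1 : ∑ W : Finset X, bern (K * q) W *
          (((J W).card : ℝ) / N - 1 / 2 * (1 - (1 / 4) ^ (ℓ / 2))) =
          (∑ W : Finset X, bern (K * q) W) * ((I.card : ℝ) / N - 1 / 2 * (1 - (1 / 4) ^ (ℓ / 2)))
          - (∑ W : Finset X, bern (K * q) W *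
            ((I.filter (fun i => ¬ (T W i).card ≤ ℓ / 2)).card : ℝ)) / N := by
        rw [Finset.sum_mul, Finset.sum_div, ← Finset.sum_sub_distrib]
        refine Finset.sum_congr rfl fun W _ => ?_
        rw [hsplit W]
        ring
      rw [e1, sum_bern]
      have h2 : (∑ W : Finset X, bern (K * q) W *
            ((I.filter (fun i => ¬ (T W i).card ≤ ℓ / 2)).card : ℝ)) / N ≤ 1 / 4 * (1 / 4) ^ ℓ := by
        rw [div_le_iff₀ hN]
        exact herr
      linarith
    have hpow : (4 : ℝ) * (1 / 4) ^ ℓ ≤ (1 / 4) ^ (ℓ / 2) := by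
      have h1 : (1 / 4 : ℝ) ^ ℓ ≤ (1 / 4) ^ (ℓ / 2 + 1) :=
        pow_le_pow_of_le_one (by norm_num) (by norm_num) (by omega)
      rw [pow_succ] at h1
      linarith
    have hpos4 : (0 : ℝ) ≤ (1 / 4) ^ ℓ := by positivity
    calc (I.card : ℝ) / N - 1 / 2 * (1 - (1 / 4) ^ ℓ)
        ≤ (I.card : ℝ) / N - 1 / 4 * (1 / 4) ^ ℓ - 1 / 2 * (1 - (1 / 4) ^ (ℓ / 2)) := by
          linarith
      _ ≤ _ := hmain
      _ ≤ ∑ W : Finset X, bern (K * q) W *
            ∑ W' : Finset X, bern q' W' * (if ∃ i ∈ I, E i ⊆ W ∪ W' then 1 else 0) :=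
          Finset.sum_le_sum fun W _ => mul_le_mul_of_nonneg_left (hIH W) (hb0 W)
      _ = _ := by
          refine Finset.sum_congr rfl fun W _ => ?_
          rw [Finset.mul_sum]
          refine Finset.sum_congr rfl fun W' _ => ?_
          ring

/-- the spread lemma in final form. -/
theorem spread {ι : Type} [Fintype ι] [Nonempty ι] (E : ι → Finset X) (h : ℕ) (hh : 1 ≤ h)
    (hE : ∀ i, (E i).card ≤ h) (q K : ℝ) (hq : 0 < q) (hK : 64 ≤ K)
    (hspread : ∀ S : Finset X,
      ((univ.filter (fun i => S ⊆ E i)).card : ℝ) ≤ 2 * q ^ S.card * Fintype.card ι) :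
    (1 : ℝ) / 2 ≤ ∑ W : Finset X, bern (min 1 (K * q * (1 + Real.logb 2 h))) W *
      (if ∃ i, E i ⊆ W then 1 else 0) := by
  have hK0 : 0 < K := by linarith
  have hqq0 : 0 < K * q := mul_pos hK0 hq
  have hlog : 0 ≤ Real.logb 2 h := Real.logb_nonneg (by norm_num) (by exact_mod_cast hh)
  rcases le_or_gt 1 (K * q) with h1 | h1
  · have hmin : min 1 (K * q * (1 + Real.logb 2 h)) = 1 := by
      apply min_eq_left
      nlinarith
    rw [hmin]
    have hu : bern (1 : ℝ) (univ : Finset X) * (if ∃ i, E i ⊆ (univ : Finset X) then 1 else 0) ≤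
        ∑ W : Finset X, bern 1 W * (if ∃ i, E i ⊆ W then (1 : ℝ) else 0) :=
      Finset.single_le_sum (f := fun W : Finset X => bern 1 W * (if ∃ i, E i ⊆ W then (1 : ℝ) else 0))
        (fun W _ => mul_nonneg (bern_nonneg (by norm_num) le_rfl W) (by split_ifs <;> norm_num))
        (Finset.mem_univ _)
    refine le_trans ?_ hu
    obtain ⟨i⟩ := ‹Nonempty ι›
    have h2 : ∃ i, E i ⊆ (univ : Finset X) := ⟨i, Finset.subset_univ _⟩
    rw [if_pos h2]
    simp [bern]
    norm_num
  · have hcard : (0 : ℝ) < Fintype.card ι := by exact_mod_cast Fintype.card_pos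
    have key := all_rounds (X := X) (Fintype.card ι : ℝ) hcard q K hq hK h1 h (univ : Finset ι)
      (by simp) E (fun i _ => hE i) hspread
    have e1 : ((univ : Finset ι).card : ℝ) / Fintype.card ι = 1 := by
      rw [Finset.card_univ]; exact div_self hcard.ne'
    rw [e1] at key
    have hpos4 : (0 : ℝ) ≤ (1 / 4) ^ h := by positivity
    have hmono := bern_mono (X := X) (q := 1 - (1 - K * q) ^ Nat.size h)
      (q' := min 1 (K * q * (1 + Real.logb 2 h))) ?_ ?_ (min_le_left _ _)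
      (fun W => if ∃ i, E i ⊆ W then (1 : ℝ) else 0) ?_
    · simp only [Finset.mem_univ, true_and] at key
      linarith
    · rw [sub_nonneg]
      exact pow_le_one₀ (by linarith) (by linarith)
    · apply le_min
      · have : 0 ≤ (1 - K * q) ^ Nat.size h := pow_nonneg (by linarith) _
        linarith
      · have hbern := one_add_mul_le_pow (a := -(K * q)) (by linarith) (Nat.size h)
        have h3 : (Nat.size h : ℝ) ≤ 1 + Real.logb 2 h := by
          have h4 : Nat.size h = Nat.log 2 h + 1 := by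
            apply le_antisymm
            · rw [Nat.size_le]
              exact Nat.lt_pow_succ_log_self (by norm_num) h
            · have h5 : 2 ^ Nat.log 2 h ≤ h := Nat.pow_log_le_self 2 (by omega)
              have h6 : Nat.log 2 h < Nat.size h := by
                rw [Nat.lt_size]; exact h5
              omega
          rw [h4]
          have h7 : (Nat.log 2 h : ℝ) ≤ Real.logb 2 h := by
            rw [Real.le_logb_iff_rpow_le (by norm_num) (by exact_mod_cast hh)]
            rw [Real.rpow_natCast]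
            exact_mod_cast Nat.pow_log_le_self 2 (by omega : h ≠ 0)
          push_cast
          linarith
        have h8 : (Nat.size h : ℝ) * (K * q) ≤ K * q * (1 + Real.logb 2 h) := by
          rw [mul_comm]
          exact mul_le_mul_of_nonneg_left h3 hqq0.le
        have h9 : (1 : ℝ) + Nat.size h * -(K * q) ≤ (1 - K * q) ^ Nat.size h := by
          simpa [sub_eq_add_neg] using hbern
        linarith
    · intro A B hAB
      by_cases hA : ∃ i, E i ⊆ A
      · obtain ⟨i, hi⟩ := hA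
        have hB : ∃ i, E i ⊆ B := ⟨i, hi.trans hAB⟩
        rw [if_pos ⟨i, hi⟩, if_pos hB]
      · rw [if_neg hA]
        split_ifs <;> norm_num

end Crest.Agent.R55
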