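import Crest.Agent.R55.PartI
import Crest.Agent.R55.SpreadC
import Crest.Agent.R55.GraphA
import Crest.Agent.R55.GraphB

/-! Row 55: assembly of S0076. -/

set_option autoImplicit false
open Finset
open scoped Pointwise

namespace Crest.Agent.R55

theorem final
    (n : ℕ) (W : Type) [Fintype W] [DecidableEq W] (H : SimpleGraph W)
    [DecidableRel H.Adj] (hW : Fintype.card W ≤ n) (hH : 1 ≤ H.edgeFinset.card)
    (p : ℝ) (hp0 : 0 ≤ p) (hp1 : p ≤ 1)
    (hE : ∀ F : H.Subgraph, (1 : ℝ) / 2 ≤
      Crest.CombinatoricsR.RandomGraph.gnpExpect n p (fun G => (G.copyCount F.coe : ℝ))) :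
    (1 : ℝ) / 2 ≤ Crest.CombinatoricsR.RandomGraph.gnpProb n
      (min 1 (2048 * Real.exp 50 * p * (1 + Real.logb 2 (H.edgeFinset.card : ℝ))))
      {G | H.IsContained G} := by
  obtain ⟨f⟩ : Nonempty (W ↪ Fin n) := by
    apply Function.Embedding.nonempty_of_card_le
    simpa using hW
  have hyp := hyp_transfer H f p hp0 hp1 hE
  have hcard : ∀ g : Equiv.Perm (Fin n), (g • edgeImg H f).card = H.edgeFinset.card :=
    fun g => card_smul_edgeImg H f g
  have hcard1 : (edgeImg H f).card = H.edgeFinset.card := by
    have := hcard 1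
    rwa [one_smul] at this
  have hne : (edgeImg H f).Nonempty := by
    rw [← Finset.card_pos, hcard1]; exact hH
  -- p > 0
  have hp : 0 < p := by
    rcases hp0.eq_or_lt with h | h
    · exfalso
      have h1 := hyp (edgeImg H f) (Finset.Subset.refl _)
      rw [← h, zero_pow (by rw [hcard1]; omega)] at h1
      norm_num at h1
    · exact h
  have hcount := partI (𝔊 := Equiv.Perm (Fin n)) (edgeImg H f) hne p hp hyp
  have hlog : 0 ≤ Real.logb 2 (H.edgeFinset.card : ℝ) := by
    apply Real.logb_nonneg (by norm_num)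
    exact_mod_cast hH
  have hK : (64 : ℝ) ≤ 2048 * Real.exp 10 := by
    have := Real.add_one_le_exp (10 : ℝ)
    linarith
  have hspread := spread (ι := Equiv.Perm (Fin n)) (fun g => g • edgeImg H f)
    H.edgeFinset.card hH (fun g => (hcard g).le) (Real.exp 40 * p) (2048 * Real.exp 10)
    (by positivity) hK hcount
  have hexp : 2048 * Real.exp 10 * (Real.exp 40 * p) = 2048 * Real.exp 50 * p := by
    have : Real.exp 50 = Real.exp 10 * Real.exp 40 := by
      rw [← Real.exp_add]; norm_num
    rw [this]; ring
  rw [hexp] at hspread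
  refine hspread.trans ?_
  exact concl_transfer H f _ (le_min zero_le_one (by positivity)) (min_le_left _ _)

end Crest.Agent.R55
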