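import Crest.Agent.R55.ThinA

/-! Row 55, piece ThinB: derivative of the entropy of the thinned set and the mean value theorem. -/

set_option autoImplicit false
open Finset
open scoped Pointwise

namespace Crest.Agent.R55

variable {X : Type} [Fintype X] [DecidableEq X]

/-- re-indexing `(S, x ∈ S)` by `(S.erase x, x)`. -/
theorem thinB_reindex (F : Finset X → X → ℝ) :
    ∑ S, ∑ x, (if x ∈ S then F S x else 0) = ∑ S, ∑ x, (if x ∈ S then 0 else F (insert x S) x) := by
  rw [Finset.sum_comm]
  conv_rhs => rw [Finset.sum_comm]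
  refine Finset.sum_congr rfl fun x _ => ?_
  have h1 : ∑ S : Finset X, (if x ∈ S then F S x else 0)
      = ∑ S ∈ univ.filter (fun S : Finset X => x ∈ S), F S x := by
    rw [Finset.sum_filter]
  have h2 : ∑ S : Finset X, (if x ∈ S then 0 else F (insert x S) x)
      = ∑ S ∈ univ.filter (fun S : Finset X => x ∉ S), F (insert x S) x := by
    rw [Finset.sum_filter]
    refine Finset.sum_congr rfl fun S _ => ?_
    by_cases hx : x ∈ S <;> simp [hx]
  rw [h1, h2]
  refine Finset.sum_nbij' (fun S => S.erase x) (fun S => insert x S) ?_ ?_ ?_ ?_ ?_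
  · intro S hS
    simp
  · intro S hS
    simp
  · intro S hS
    simp only [Finset.mem_filter, Finset.mem_univ, true_and] at hS
    exact Finset.insert_erase hS
  · intro S hS
    simp only [Finset.mem_filter, Finset.mem_univ, true_and] at hS
    exact Finset.erase_insert hS
  · intro S hS
    simp only [Finset.mem_filter, Finset.mem_univ, true_and] at hS
    rw [Finset.insert_erase hS]

/-- derivative of `thin`. -/
theorem thin_hasDerivAt (k S : Finset X) (t : ℝ) :
    HasDerivAt (fun t => thin t k S)
      (∑ x, ((if x ∈ S then (if x ∈ k then thin t (k.erase x) (S.erase x) else 0) else 0)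
        - (if x ∈ k then (if x ∈ S then 0 else thin t (k.erase x) S) else 0))) t := by
  by_cases hSk : S ⊆ k
  · have hfun : (fun t : ℝ => thin t k S) = fun t => t ^ S.card * (1 - t) ^ (k.card - S.card) := by
      funext t
      simp [thin, hSk]
    rw [hfun]
    have hle : S.card ≤ k.card := Finset.card_le_card hSk
    have hd : HasDerivAt (fun t : ℝ => t ^ S.card * (1 - t) ^ (k.card - S.card))
        (((S.card : ℝ) * t ^ (S.card - 1)) * (1 - t) ^ (k.card - S.card)
          + t ^ S.card * (((k.card - S.card : ℕ) : ℝ) * (1 - t) ^ (k.card - S.card - 1) * (-1))) t := by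
      have h1 : HasDerivAt (fun t : ℝ => t ^ S.card) ((S.card : ℝ) * t ^ (S.card - 1)) t :=
        hasDerivAt_pow _ _
      have h2 : HasDerivAt (fun t : ℝ => 1 - t) (-1) t := by
        simpa using (hasDerivAt_id t).const_sub 1
      have h3 : HasDerivAt (fun t : ℝ => (1 - t) ^ (k.card - S.card))
          (((k.card - S.card : ℕ) : ℝ) * (1 - t) ^ (k.card - S.card - 1) * (-1)) t := by
        exact (h2.fun_pow (k.card - S.card)).congr_deriv (by ring)
      exact h1.mul h3
    refine hd.congr_deriv ?_
    symm
    rw [Finset.sum_sub_distrib]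
    have e1 : ∑ x, (if x ∈ S then (if x ∈ k then thin t (k.erase x) (S.erase x) else 0) else 0)
        = (S.card : ℝ) * t ^ (S.card - 1) * (1 - t) ^ (k.card - S.card) := by
      rw [← Finset.sum_filter]
      have : ∀ x ∈ univ.filter (fun x => x ∈ S),
          (if x ∈ k then thin t (k.erase x) (S.erase x) else 0)
            = t ^ (S.card - 1) * (1 - t) ^ (k.card - S.card) := by
        intro x hx
        simp only [Finset.mem_filter, Finset.mem_univ, true_and] at hx
        have hxk : x ∈ k := hSk hx
        have hsub : S.erase x ⊆ k.erase x := Finset.erase_subset_erase x hSk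
        have hSpos : 0 < S.card := Finset.card_pos.mpr ⟨x, hx⟩
        rw [if_pos hxk, thin, if_pos hsub, Finset.card_erase_of_mem hx, Finset.card_erase_of_mem hxk]
        congr 2
        omega
      rw [Finset.sum_congr rfl this, Finset.sum_const, nsmul_eq_mul]
      have hc : (univ.filter (fun x => x ∈ S)) = S := by ext; simp
      rw [hc]
      ring
    have e2 : ∑ x, (if x ∈ k then (if x ∈ S then 0 else thin t (k.erase x) S) else 0)
        = ((k.card - S.card : ℕ) : ℝ) * (t ^ S.card * (1 - t) ^ (k.card - S.card - 1)) := by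
      have : ∀ x : X, (if x ∈ k then (if x ∈ S then 0 else thin t (k.erase x) S) else 0)
          = if x ∈ k \ S then t ^ S.card * (1 - t) ^ (k.card - S.card - 1) else 0 := by
        intro x
        by_cases hxk : x ∈ k
        · by_cases hxS : x ∈ S
          · simp [hxk, hxS]
          · have hsub : S ⊆ k.erase x := fun y hy => Finset.mem_erase.mpr
              ⟨fun h => hxS (h ▸ hy), hSk hy⟩
            rw [if_pos hxk, if_neg hxS, if_pos (Finset.mem_sdiff.mpr ⟨hxk, hxS⟩), thin, if_pos hsub,
              Finset.card_erase_of_mem hxk]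
            congr 2
            omega
        · simp [hxk]
      rw [Finset.sum_congr rfl (fun x _ => this x), ← Finset.sum_filter, Finset.sum_const,
        nsmul_eq_mul]
      have hc : (univ.filter (fun x => x ∈ k \ S)) = k \ S := by ext; simp
      rw [hc, Finset.card_sdiff_of_subset hSk]
    rw [e1, e2]
    ring
  · have hfun : (fun t : ℝ => thin t k S) = fun _ => 0 := by
      funext t
      simp [thin, hSk]
    rw [hfun]
    have : ∑ x, ((if x ∈ S then (if x ∈ k then thin t (k.erase x) (S.erase x) else 0) else 0)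
        - (if x ∈ k then (if x ∈ S then 0 else thin t (k.erase x) S) else 0)) = 0 := by
      refine Finset.sum_eq_zero fun x _ => ?_
      have a1 : (if x ∈ S then (if x ∈ k then thin t (k.erase x) (S.erase x) else 0) else 0) = (0 : ℝ) := by
        by_cases hxS : x ∈ S
        · by_cases hxk : x ∈ k
          · have : ¬ (S.erase x ⊆ k.erase x) := by
              intro h
              apply hSk
              intro y hy
              by_cases hyx : y = x
              · exact hyx ▸ hxk
              · exact (Finset.mem_erase.mp (h (Finset.mem_erase.mpr ⟨hyx, hy⟩))).2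
            simp [hxS, hxk, thin, this]
          · simp [hxk]
        · simp [hxS]
      have a2 : (if x ∈ k then (if x ∈ S then 0 else thin t (k.erase x) S) else 0) = (0 : ℝ) := by
        by_cases hxS : x ∈ S
        · simp [hxS]
        · by_cases hxk : x ∈ k
          · have : ¬ (S ⊆ k.erase x) := by
              intro h
              exact hSk (h.trans (Finset.erase_subset _ _))
            simp [hxS, hxk, thin, this]
          · simp [hxk]
      rw [a1, a2, sub_zero]
    rw [this]
    exact hasDerivAt_const t 0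

/-- derivative of `thinP`. -/
theorem thinP_hasDerivAt (r : Finset X → ℝ) (S : Finset X) (t : ℝ) :
    HasDerivAt (fun t => thinP r t S)
      (∑ x, ((if x ∈ S then thinQ r t (S.erase x) x else 0) - thinQ r t S x)) t := by
  unfold thinP
  have h : HasDerivAt (fun t => ∑ k, r k * thin t k S)
      (∑ k, r k * (∑ x, ((if x ∈ S then (if x ∈ k then thin t (k.erase x) (S.erase x) else 0) else 0)
        - (if x ∈ k then (if x ∈ S then 0 else thin t (k.erase x) S) else 0)))) t :=
    HasDerivAt.fun_sum fun k _ => (thin_hasDerivAt k S t).const_mul (r k)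
  refine h.congr_deriv ?_
  symm
  simp only [Finset.mul_sum]
  rw [Finset.sum_comm]
  refine Finset.sum_congr rfl fun x _ => ?_
  by_cases hxS : x ∈ S
  · rw [if_pos hxS, thinQ_of_mem r t hxS, sub_zero, thinQ]
    refine Finset.sum_congr rfl fun k _ => ?_
    by_cases hxk : x ∈ k <;> simp [hxS, hxk]
  · rw [if_neg hxS, zero_sub, thinQ, ← Finset.sum_neg_distrib]
    refine Finset.sum_congr rfl fun k _ => ?_
    by_cases hxk : x ∈ k <;> simp [hxS, hxk]

/-- on `(0,1)` the vanishing of `thinP` forces the vanishing of all weights above `S`. -/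
theorem thinP_eq_zero_imp {r : Finset X → ℝ} (hr : ∀ k, 0 ≤ r k) {t : ℝ} (h0 : 0 < t) (h1 : t < 1)
    {S : Finset X} (h : thinP r t S = 0) : ∀ k, S ⊆ k → r k = 0 := by
  intro k hk
  have hnn : ∀ k ∈ (univ : Finset (Finset X)), 0 ≤ r k * thin t k S := fun k _ =>
    mul_nonneg (hr k) (thin_nonneg h0.le h1.le k S)
  have := (Finset.sum_eq_zero_iff_of_nonneg hnn).mp h k (Finset.mem_univ k)
  have hpos : 0 < thin t k S := by
    rw [thin, if_pos hk]
    have : 0 < 1 - t := by linarith
    positivity
  rcases mul_eq_zero.mp this with h | h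
  · exact h
  · exact absurd h hpos.ne'

theorem negMulLog_thinP_hasDerivAt {r : Finset X → ℝ} (hr : ∀ k, 0 ≤ r k) {t : ℝ} (h0 : 0 < t)
    (h1 : t < 1) (S : Finset X) :
    HasDerivAt (fun t => Real.negMulLog (thinP r t S))
      ((-Real.log (thinP r t S) - 1) *
        ∑ x, ((if x ∈ S then thinQ r t (S.erase x) x else 0) - thinQ r t S x)) t := by
  by_cases hP : thinP r t S = 0
  · have hz : ∀ s : ℝ, thinP r s S = 0 := by
      intro s
      unfold thinP
      refine Finset.sum_eq_zero fun k _ => ?_
      by_cases hk : S ⊆ k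
      · rw [thinP_eq_zero_imp hr h0 h1 hP k hk, zero_mul]
      · simp [thin, hk]
    have hfun : (fun t => Real.negMulLog (thinP r t S)) = fun _ => 0 := by
      funext s
      rw [hz s, Real.negMulLog_zero]
    have hd := thinP_hasDerivAt r S t
    have hfun2 : (fun t => thinP r t S) = fun _ => 0 := by
      funext s
      exact hz s
    rw [hfun2] at hd
    have hval := hd.unique (hasDerivAt_const t (0 : ℝ))
    rw [hfun, hval, mul_zero]
    exact hasDerivAt_const t 0
  · have h := (Real.hasDerivAt_negMulLog hP).comp t (thinP_hasDerivAt r S t)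
    exact h

/-- the derivative of the entropy of the thinned set.  For fixed `S` the function
`t ↦ thinP r t S` is a polynomial with derivative
`∑ x ∈ S, thinQ r t (S.erase x) x - ∑ x ∉ S, thinQ r t S x`, and it is either identically zero or
positive on `(0,1)`; re-index the first sum by `(S.erase x, x)` and use `thinP_insert`,
`log (t * Q) = log t + log Q`; terms with `thinQ = 0` vanish. -/
theorem Ent_thinP_hasDerivAt {r : Finset X → ℝ} (hr : ∀ k, 0 ≤ r k) {t : ℝ} (h0 : 0 < t)
    (h1 : t < 1) :
    HasDerivAt (fun t => Ent (thinP r t))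
      (∑ S, ∑ x, thinQ r t S x *
        (Real.log (thinP r t S) - Real.log (thinQ r t S x) - Real.log t)) t := by
  unfold Ent
  have h : HasDerivAt (fun t => ∑ S, Real.negMulLog (thinP r t S))
      (∑ S, (-Real.log (thinP r t S) - 1) *
        ∑ x, ((if x ∈ S then thinQ r t (S.erase x) x else 0) - thinQ r t S x)) t :=
    HasDerivAt.fun_sum fun S _ => negMulLog_thinP_hasDerivAt hr h0 h1 S
  refine h.congr_deriv ?_
  -- expand the right hand side
  have e1 : ∀ S : Finset X, (-Real.log (thinP r t S) - 1) *
        ∑ x, ((if x ∈ S then thinQ r t (S.erase x) x else 0) - thinQ r t S x)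
      = ∑ x, (if x ∈ S then (-Real.log (thinP r t S) - 1) * thinQ r t (S.erase x) x else 0)
        - ∑ x, (-Real.log (thinP r t S) - 1) * thinQ r t S x := by
    intro S
    rw [Finset.mul_sum, ← Finset.sum_sub_distrib]
    refine Finset.sum_congr rfl fun x _ => ?_
    by_cases hx : x ∈ S <;> simp [hx, mul_sub]
  rw [Finset.sum_congr rfl (fun S _ => e1 S), Finset.sum_sub_distrib,
    thinB_reindex (fun S x => (-Real.log (thinP r t S) - 1) * thinQ r t (S.erase x) x),
    ← Finset.sum_sub_distrib]
  refine Finset.sum_congr rfl fun S _ => ?_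
  rw [← Finset.sum_sub_distrib]
  refine Finset.sum_congr rfl fun x _ => ?_
  by_cases hx : x ∈ S
  · rw [thinQ_of_mem r t hx]
    simp [hx]
  · rw [if_neg hx, Finset.erase_insert hx, thinP_insert r t hx]
    by_cases hQ : thinQ r t S x = 0
    · rw [hQ]; ring
    · rw [Real.log_mul h0.ne' hQ]
      ring

/-- mean value theorem for `(3/2) ∑ Ent (thinP (r i) t) - (1/2) ∑ Ent (thinP (r' i) t)
+ A (t log t - t)` on `[0,1]`. -/
theorem thin_mvt {ι ι' : Type} [Fintype ι] [Fintype ι'] (r : ι → Finset X → ℝ)
    (r' : ι' → Finset X → ℝ) (hr : ∀ i k, 0 ≤ r i k) (hr' : ∀ i k, 0 ≤ r' i k) (A : ℝ)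
    (hA : ∑ i, ∑ k, r i k * (k.card : ℝ) = A) (hA' : ∑ i, ∑ k, r' i k * (k.card : ℝ) = A) :
    ∃ t : ℝ, 0 < t ∧ t < 1 ∧
      3 / 2 * (∑ i, ∑ S, ∑ x, thinQ (r i) t S x *
          (Real.log (thinP (r i) t S) - Real.log (thinQ (r i) t S x)))
        - 1 / 2 * (∑ i, ∑ S, ∑ x, thinQ (r' i) t S x *
          (Real.log (thinP (r' i) t S) - Real.log (thinQ (r' i) t S x)))
      = 3 / 2 * (∑ i, Ent (r i) - ∑ i, Real.negMulLog (∑ k, r i k))
        - 1 / 2 * (∑ i, Ent (r' i) - ∑ i, Real.negMulLog (∑ k, r' i k)) - A := by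
  have hcont : Continuous (fun t : ℝ => 3 / 2 * (∑ i, Ent (thinP (r i) t))
      - 1 / 2 * (∑ i, Ent (thinP (r' i) t)) + A * (t * Real.log t - t)) := by
    have c1 : Continuous (fun t : ℝ => ∑ i, Ent (thinP (r i) t)) :=
      continuous_finsetSum _ fun i _ => Ent_thinP_continuous (r i)
    have c2 : Continuous (fun t : ℝ => ∑ i, Ent (thinP (r' i) t)) :=
      continuous_finsetSum _ fun i _ => Ent_thinP_continuous (r' i)
    have c3 : Continuous (fun t : ℝ => t * Real.log t) := Real.continuous_mul_log
    exact ((continuous_const.mul c1).sub (continuous_const.mul c2)).add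
      (continuous_const.mul (c3.sub continuous_id))
  have hder : ∀ t ∈ Set.Ioo (0 : ℝ) 1, HasDerivAt (fun t : ℝ => 3 / 2 * (∑ i, Ent (thinP (r i) t))
      - 1 / 2 * (∑ i, Ent (thinP (r' i) t)) + A * (t * Real.log t - t))
      (3 / 2 * (∑ i, ∑ S, ∑ x, thinQ (r i) t S x *
          (Real.log (thinP (r i) t S) - Real.log (thinQ (r i) t S x)))
        - 1 / 2 * (∑ i, ∑ S, ∑ x, thinQ (r' i) t S x *
          (Real.log (thinP (r' i) t S) - Real.log (thinQ (r' i) t S x)))) t := by
    intro t ht
    obtain ⟨h0, h1⟩ := ht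
    have d1 : HasDerivAt (fun t : ℝ => ∑ i, Ent (thinP (r i) t)) (∑ i, ∑ S, ∑ x, thinQ (r i) t S x *
        (Real.log (thinP (r i) t S) - Real.log (thinQ (r i) t S x) - Real.log t)) t :=
      HasDerivAt.fun_sum fun i _ => Ent_thinP_hasDerivAt (hr i) h0 h1
    have d2 : HasDerivAt (fun t : ℝ => ∑ i, Ent (thinP (r' i) t)) (∑ i, ∑ S, ∑ x, thinQ (r' i) t S x *
        (Real.log (thinP (r' i) t S) - Real.log (thinQ (r' i) t S x) - Real.log t)) t :=
      HasDerivAt.fun_sum fun i _ => Ent_thinP_hasDerivAt (hr' i) h0 h1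
    have d3 : HasDerivAt (fun t : ℝ => t * Real.log t - t) (Real.log t + 1 - 1) t :=
      (Real.hasDerivAt_mul_log h0.ne').sub (hasDerivAt_id t)
    have hd := ((d1.const_mul (3 / 2)).fun_sub (d2.const_mul (1 / 2))).fun_add (d3.const_mul A)
    have s1 : ∑ i, ∑ S, ∑ x, thinQ (r i) t S x *
        (Real.log (thinP (r i) t S) - Real.log (thinQ (r i) t S x) - Real.log t)
        = ∑ i, ∑ S, ∑ x, thinQ (r i) t S x *
          (Real.log (thinP (r i) t S) - Real.log (thinQ (r i) t S x)) - A * Real.log t := by
      rw [← hA, Finset.sum_mul, ← Finset.sum_sub_distrib]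
      refine Finset.sum_congr rfl fun i _ => ?_
      rw [← sum_sum_thinQ (r i) t, Finset.sum_mul, ← Finset.sum_sub_distrib]
      refine Finset.sum_congr rfl fun S _ => ?_
      rw [Finset.sum_mul, ← Finset.sum_sub_distrib]
      refine Finset.sum_congr rfl fun x _ => ?_
      ring
    have s2 : ∑ i, ∑ S, ∑ x, thinQ (r' i) t S x *
        (Real.log (thinP (r' i) t S) - Real.log (thinQ (r' i) t S x) - Real.log t)
        = ∑ i, ∑ S, ∑ x, thinQ (r' i) t S x *
          (Real.log (thinP (r' i) t S) - Real.log (thinQ (r' i) t S x)) - A * Real.log t := by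
      rw [← hA', Finset.sum_mul, ← Finset.sum_sub_distrib]
      refine Finset.sum_congr rfl fun i _ => ?_
      rw [← sum_sum_thinQ (r' i) t, Finset.sum_mul, ← Finset.sum_sub_distrib]
      refine Finset.sum_congr rfl fun S _ => ?_
      rw [Finset.sum_mul, ← Finset.sum_sub_distrib]
      refine Finset.sum_congr rfl fun x _ => ?_
      ring
    rw [s1, s2] at hd
    refine hd.congr_deriv ?_
    ring
  obtain ⟨t, ht, heq⟩ := exists_hasDerivAt_eq_slope _ _ (zero_lt_one' ℝ) hcont.continuousOn hder
  refine ⟨t, ht.1, ht.2, ?_⟩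
  rw [heq]
  simp only [Ent_thinP_one, Ent_thinP_zero, Real.log_one, mul_zero, zero_mul, sub_zero, div_one]
  ring

end Crest.Agent.R55
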