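import Crest.Agent.R55.Seed
import Crest.Agent.R55.ThinB
import Crest.Agent.R55.Alpha

/-! Row 55, piece PartI: the main argument. -/

set_option autoImplicit false
open Finset
open scoped Pointwise

namespace Crest.Agent.R55

section states
variable {𝔊 : Type} [Group 𝔊] [Fintype 𝔊]
variable {X : Type} [Fintype X] [DecidableEq X] {Z : Type} [Fintype Z] [DecidableEq Z]
variable [MulAction 𝔊 X] [MulAction 𝔊 Z]
variable {H : Finset X} {ν : Finset X × Z → ℝ}

theorem state_law (h : IsState H ν) : IsLaw H (push Prod.fst ν) where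
  nonneg := push_nonneg h.nonneg _
  sum_one := by rw [sum_push, h.sum_one]
  supp := by
    intro S hS
    obtain ⟨y, hy, hy'⟩ := push_ne_zero_exists hS
    rw [← hy]
    exact h.supp y hy'

theorem sizeL_push_fst (ν : Finset X × Z → ℝ) : sizeL (push Prod.fst ν) = sizeA ν := by
  unfold sizeL sizeA
  exact sum_push_mul Prod.fst ν (fun S => (S.card : ℝ))

theorem state_II {α : ℝ} (hα : ∀ u, IsLaw H u → α * sizeL u - Real.log 2 ≤ II 𝔊 u)
    (h : IsState H ν) : α * sizeA ν - Real.log 2 ≤ II 𝔊 ν := by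
  have h1 := hα _ (state_law h)
  rw [sizeL_push_fst] at h1
  exact h1.trans (II_push_le h.nonneg Prod.fst (fun g y => rfl))

theorem state_EntAv {a : ℝ} (ha : ∀ u, IsLaw H u → a * sizeL u - Real.log 2 ≤ Ent (Av 𝔊 u))
    (h : IsState H ν) : a * sizeA ν - Real.log 2 ≤ Ent (Av 𝔊 ν) := by
  have h1 := ha _ (state_law h)
  rw [sizeL_push_fst, ← push_Av Prod.fst (fun (g : 𝔊) y => rfl)] at h1
  exact h1.trans (Ent_push_le (Av_nonneg h.nonneg) _)

theorem marg_le_one (h : IsState H ν) (z : Z) : marg ν z ≤ 1 := by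
  rw [← h.sum_one, ← sum_marg]
  exact Finset.single_le_sum (fun z _ => marg_nonneg h.nonneg z) (Finset.mem_univ z)

theorem Ent_marg_nonneg (h : IsState H ν) : 0 ≤ Ent (marg ν) :=
  Ent_nonneg (fun z => marg_nonneg h.nonneg z) (fun z => marg_le_one h z)

theorem sum_F3_le (h : IsState H ν) : ∑ z, marg ν z * ∑ x, F3 (kap ν x z) ≤ 2 * sizeA ν := by
  rw [sizeA_eq h.nonneg, Finset.mul_sum]
  apply Finset.sum_le_sum
  intro z _
  have : ∑ x, F3 (kap ν x z) ≤ 2 * ∑ x, kap ν x z := by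
    rw [Finset.mul_sum]
    exact Finset.sum_le_sum fun x _ => F3_le (kap_nonneg h.nonneg x z) (kap_le_one h.nonneg x z)
  nlinarith [marg_nonneg h.nonneg z]

theorem pot_ge {α : ℝ} (hα : ∀ u, IsLaw H u → α * sizeL u - Real.log 2 ≤ II 𝔊 u)
    (h : IsState H ν) : -2 * sizeA ν ≤ pot 𝔊 α ν := by
  unfold pot
  have h1 := state_II hα h
  have h2 := Ent_marg_nonneg h
  have h3 := sum_F3_le h
  linarith

theorem pot_ge' {α : ℝ} (h : IsState H ν) :
    Real.log 2 - (α + 2) * sizeA ν ≤ pot 𝔊 α ν := by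
  unfold pot
  have h1 := II_nonneg (𝔊 := 𝔊) h.nonneg
  have h2 := Ent_marg_nonneg h
  have h3 := sum_F3_le h
  linarith

theorem sizeA_nonneg (h : ∀ y, 0 ≤ ν y) : 0 ≤ sizeA ν := by
  unfold sizeA
  exact Finset.sum_nonneg fun y _ => mul_nonneg (h y) (Nat.cast_nonneg _)

end states

section exist
variable {X : Type} [Fintype X] [DecidableEq X]

/-- the infimum of the ratio potential/size, and near-minimisers. -/
theorem exists_Psi (𝔊 : Type) [Group 𝔊] [Fintype 𝔊] [MulAction 𝔊 X] (H : Finset X) (α : ℝ)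
    (hα : ∀ u, IsLaw H u → α * sizeL u - Real.log 2 ≤ II 𝔊 u)
    (hα' : ∀ ε > 0, ∃ u, IsLaw H u ∧ 0 < sizeL u ∧
      II 𝔊 u - α * sizeL u + Real.log 2 ≤ ε * sizeL u) :
    ∃ Ψ : ℝ, Ψ ≤ 0 ∧
      (∀ (Z : Type) [Fintype Z] [DecidableEq Z] [MulAction 𝔊 Z] (ν : Finset X × Z → ℝ),
        IsState H ν → 0 < sizeA ν → Ψ * sizeA ν ≤ pot 𝔊 α ν) ∧
      (∀ ε > 0, ∃ (Z : Type) (_ : Fintype Z) (_ : DecidableEq Z) (_ : MulAction 𝔊 Z)
        (ν : Finset X × Z → ℝ), IsState H ν ∧ 0 < sizeA ν ∧ pot 𝔊 α ν ≤ (Ψ + ε) * sizeA ν) := by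
  classical
  let R : Set ℝ := {r | ∃ (Z : Type) (_ : Fintype Z) (_ : DecidableEq Z) (_ : MulAction 𝔊 Z)
    (ν : Finset X × Z → ℝ), IsState H ν ∧ 0 < sizeA ν ∧ r = pot 𝔊 α ν / sizeA ν}
  -- from laws to states
  have hlaw : ∀ ε > 0, ∃ r ∈ R, r ≤ ε := by
    intro ε hε
    obtain ⟨u, hu, hu1, hu2⟩ := hα' ε hε
    letI : MulAction 𝔊 Unit :=
      { smul := fun _ z => z, one_smul := fun _ => rfl, mul_smul := fun _ _ _ => rfl }
    let π : Finset X → Finset X × Unit := fun S => (S, ())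
    let ν : Finset X × Unit → ℝ := push π u
    have hν : ∀ y, ν y = u y.1 := by
      intro y
      simp only [ν, push, π]
      rw [Finset.sum_eq_single y.1]
      · simp
      · intro b _ hb
        rw [if_neg]
        intro h
        apply hb
        rw [← h]
      · simp
    have hst : IsState H ν :=
      { nonneg := push_nonneg hu.nonneg π
        sum_one := by rw [sum_push, hu.sum_one]
        supp := by
          intro y hy
          rw [hν] at hy
          exact hu.supp _ hy }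
    have hsz : sizeA ν = sizeL u := by
      unfold sizeA sizeL
      exact sum_push_mul π u (fun y => (y.1.card : ℝ))
    have hII : II 𝔊 ν ≤ II 𝔊 u := II_push_le hu.nonneg π (fun g S => rfl)
    have hm : ∀ z, marg ν z = 1 := by
      intro z
      unfold marg
      simp_rw [hν]
      exact hu.sum_one
    have hEm : Ent (marg ν) = 0 := by
      unfold Ent
      simp_rw [hm]
      simp
    have hF : 0 ≤ ∑ z, marg ν z * ∑ x, F3 (kap ν x z) :=
      Finset.sum_nonneg fun z _ => mul_nonneg (marg_nonneg hst.nonneg z)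
        (Finset.sum_nonneg fun x _ => F3_nonneg (kap_nonneg hst.nonneg x z))
    refine ⟨pot 𝔊 α ν / sizeA ν, ⟨Unit, inferInstance, inferInstance, inferInstance, ν, hst,
      by rw [hsz]; exact hu1, rfl⟩, ?_⟩
    rw [div_le_iff₀ (by rw [hsz]; exact hu1)]
    unfold pot
    rw [hEm, hsz]
    linarith
  have hbdd : BddBelow R := by
    refine ⟨-2, ?_⟩
    rintro r ⟨Z, _, _, _, ν, hst, hpos, rfl⟩
    rw [le_div_iff₀ hpos]
    exact pot_ge hα hst
  have hne : R.Nonempty := by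
    obtain ⟨r, hr, _⟩ := hlaw 1 one_pos
    exact ⟨r, hr⟩
  refine ⟨sInf R, ?_, ?_, ?_⟩
  · apply le_of_forall_pos_le_add
    intro ε hε
    obtain ⟨r, hr, hr'⟩ := hlaw ε hε
    linarith [csInf_le hbdd hr]
  · intro Z _ _ _ ν hst hpos
    rw [← le_div_iff₀ hpos]
    exact csInf_le hbdd ⟨Z, inferInstance, inferInstance, inferInstance, ν, hst, hpos, rfl⟩
  · intro ε hε
    obtain ⟨r, ⟨Z, i1, i2, i3, ν, hst, hpos, rfl⟩, hr'⟩ :=
      exists_lt_of_csInf_lt hne (lt_add_of_pos_right (sInf R) hε)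
    refine ⟨Z, i1, i2, i3, ν, hst, hpos, ?_⟩
    rw [div_lt_iff₀ hpos] at hr'
    exact hr'.le

end exist

section near
variable {𝔊 : Type} [Group 𝔊] [Fintype 𝔊]
variable {X : Type} [Fintype X] [DecidableEq X] {Z : Type} [Fintype Z] [DecidableEq Z]
variable [MulAction 𝔊 X] [MulAction 𝔊 Z]
variable {H : Finset X} {ν : Finset X × Z → ℝ}

/-- near-minimality against the doubled state -/
theorem nearU {α Ψ ε : ℝ} (h : IsState H ν) (hΨ : Ψ ≤ 0)
    (hU : Ψ * sizeA (nuU ν) ≤ pot 𝔊 α (nuU ν)) (hn : pot 𝔊 α ν ≤ (Ψ + ε) * sizeA ν) :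
    Ent (Av 𝔊 (nuK ν)) - α * sizeA (nuK ν) + Real.log 2 +
      ∑ z, marg ν z * ∑ x, psi2 (kap ν x z) - 2 * ε * sizeA ν ≤ 2 * LL 𝔊 ν := by
  have hD := D0 (𝔊 := 𝔊) h.nonneg
  have hAK : 0 ≤ sizeA (nuK ν) := sizeA_nonneg (isState_nuK h).nonneg
  have hAU := sizeA_nuU h.nonneg
  have hF : ∑ z, marg (nuU ν) z * ∑ x, F3 (kap (nuU ν) x z) =
      ∑ z, marg ν z * ∑ x, psi2 (kap ν x z) + 2 * ∑ z, marg ν z * ∑ x, F3 (kap ν x z) := by
    rw [Finset.mul_sum, ← Finset.sum_add_distrib, marg_nuU h.nonneg]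
    apply Finset.sum_congr rfl
    intro z _
    by_cases hz : marg ν z = 0
    · simp [hz]
    · have h1 : ∑ x, F3 (kap (nuU ν) x z) =
          ∑ x, psi2 (kap ν x z) + 2 * ∑ x, F3 (kap ν x z) := by
        rw [Finset.mul_sum, ← Finset.sum_add_distrib]
        apply Finset.sum_congr rfl
        intro x _
        rw [kap_nuU h.nonneg x z hz]
        unfold psi2
        ring
      rw [h1]; ring
  unfold pot at hU hn
  rw [hF, hAU, marg_nuU h.nonneg] at hU
  have h3 : 0 ≤ -Ψ * sizeA (nuK ν) := mul_nonneg (by linarith) hAK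
  nlinarith

/-- near-minimality against the state with the thinned set adjoined -/
theorem nearT {α Ψ ε : ℝ} (h : IsState H ν) {t : ℝ} (h0 : 0 ≤ t) (h1 : t ≤ 1)
    (hT : Ψ * sizeA (nuT 𝔊 ν t) ≤ pot 𝔊 α (nuT 𝔊 ν t))
    (hn : pot 𝔊 α ν ≤ (Ψ + ε) * sizeA ν) :
    ∑ y, marg (nuT 𝔊 ν t) y * ∑ x, BB (kap (nuT 𝔊 ν t) x y) (kap ν x y.1) ≤
      MM 𝔊 ν + sizeA (nuK ν) * Real.log 2 + ε * sizeA ν := by
  rw [← sum_F3_nuT h.nonneg h0 h1]
  have h2 := Ent_marg_nuT_le (𝔊 := 𝔊) h.nonneg h0 h1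
  have h3 := II_nuT_le (𝔊 := 𝔊) h.nonneg h0 h1
  rw [sizeA_nuKu h.nonneg] at h2
  unfold pot at hT hn
  rw [sizeA_nuT h.nonneg] at hT
  unfold MM
  linarith

theorem nuKu_eq (ν : Finset X × Z → ℝ) (k : Finset X) (z : Z) :
    nuKu 𝔊 ν (k, z) = ∑ G, rhoU 𝔊 ν (G, k, z) := by
  unfold nuKu push
  rw [Fintype.sum_prod_type]
  apply Finset.sum_congr rfl
  intro G _
  rw [Finset.sum_eq_single (k, z)]
  · simp
  · rintro ⟨k', z'⟩ _ hne
    rw [if_neg]
    intro h
    apply hne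
    simpa using h
  · simp

/-- application of the mean value theorem -/
theorem mvt_app (h : ∀ y, 0 ≤ ν y) :
    ∃ t : ℝ, 0 < t ∧ t < 1 ∧
      3 / 2 * (∑ i : Finset X × Z, ∑ S, ∑ x, thinQ (fun k => rhoU 𝔊 ν (i.1, k, i.2)) t S x *
          (Real.log (thinP (fun k => rhoU 𝔊 ν (i.1, k, i.2)) t S) -
            Real.log (thinQ (fun k => rhoU 𝔊 ν (i.1, k, i.2)) t S x)))
        - 1 / 2 * (∑ z, ∑ S, ∑ x, thinQ (fun k => nuKu 𝔊 ν (k, z)) t S x *
          (Real.log (thinP (fun k => nuKu 𝔊 ν (k, z)) t S) -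
            Real.log (thinQ (fun k => nuKu 𝔊 ν (k, z)) t S x)))
      = 3 / 2 * LL 𝔊 ν - 1 / 2 * MM 𝔊 ν - sizeA (nuK ν) := by
  have hr := rhoU_nonneg (𝔊 := 𝔊) h
  have hK : ∀ y, 0 ≤ nuKu 𝔊 ν y := push_nonneg hr _
  have hA : ∑ i : Finset X × Z, ∑ k, rhoU 𝔊 ν (i.1, k, i.2) * (k.card : ℝ) = sizeA (nuK ν) := by
    rw [← sizeA_nuKu (𝔊 := 𝔊) h]
    unfold sizeA nuKu
    rw [sum_push_mul (fun y : Finset X × Finset X × Z => (y.2.1, y.2.2)) (rhoU 𝔊 ν)
      (fun y => (y.1.card : ℝ))]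
    simp only [Fintype.sum_prod_type]
    apply Finset.sum_congr rfl
    intro G _
    rw [Finset.sum_comm]
  have hA' : ∑ z, ∑ k, nuKu 𝔊 ν (k, z) * (k.card : ℝ) = sizeA (nuK ν) := by
    rw [← sizeA_nuKu (𝔊 := 𝔊) h]
    unfold sizeA
    rw [Fintype.sum_prod_type, Finset.sum_comm]
  obtain ⟨t, h0, h1, ht⟩ := thin_mvt (fun i : Finset X × Z => fun k => rhoU 𝔊 ν (i.1, k, i.2))
    (fun z => fun k => nuKu 𝔊 ν (k, z)) (fun i k => hr _) (fun z k => hK _) (sizeA (nuK ν)) hA hA'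
  refine ⟨t, h0, h1, ht.trans ?_⟩
  have e1 : ∑ i : Finset X × Z, Ent (fun k => rhoU 𝔊 ν (i.1, k, i.2)) = Ent (rhoU 𝔊 ν) := by
    unfold Ent
    simp only [Fintype.sum_prod_type]
    apply Finset.sum_congr rfl
    intro G _
    rw [Finset.sum_comm]
  have e2 : ∑ i : Finset X × Z, Real.negMulLog (∑ k, rhoU 𝔊 ν (i.1, k, i.2)) = Ent ν := by
    unfold Ent
    apply Finset.sum_congr rfl
    intro i _
    rw [sum_rhoU h]
  have e3 : ∑ z, Ent (fun k => nuKu 𝔊 ν (k, z)) = Ent (nuKu 𝔊 ν) := by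
    unfold Ent
    rw [Fintype.sum_prod_type, Finset.sum_comm]
  have e4 : ∑ z, Real.negMulLog (∑ k, nuKu 𝔊 ν (k, z)) = Ent (marg ν) := by
    rw [← marg_nuKu (𝔊 := 𝔊) h]
    rfl
  rw [e1, e2, e3, e4, LL_eq h]
  unfold MM
  ring

/-- log-sum inequality in the form needed. -/
theorem logsum {ι : Type} [Fintype ι] (q P : ι → ℝ) (m : ι → Prop) [DecidablePred m]
    (hq : ∀ i, 0 ≤ q i) (hP : ∀ i, 0 ≤ P i) (hm : ∀ i, q i ≠ 0 → m i ∧ P i ≠ 0) :
    ∑ i, q i * (Real.log (P i) - Real.log (q i)) ≤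
      (∑ i, q i) * (Real.log (∑ i, P i) - Real.log (∑ i, q i)) +
      (∑ i, q i) * Real.log ((∑ i, if m i then P i else 0) / ∑ i, P i) := by
  by_cases hQ : ∑ i, q i = 0
  · have h0 : ∀ i, q i = 0 := by
      intro i
      exact (Finset.sum_eq_zero_iff_of_nonneg (fun i _ => hq i)).1 hQ i (Finset.mem_univ i)
    simp [h0]
  set Q := ∑ i, q i with hQdef
  set R := ∑ i, (if m i then P i else 0) with hR
  have hQpos : 0 < Q := lt_of_le_of_ne (Finset.sum_nonneg fun i _ => hq i) (Ne.symm hQ)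
  obtain ⟨i0, _, hi0⟩ := Finset.exists_ne_zero_of_sum_ne_zero hQ
  have hPi0 : 0 < P i0 := lt_of_le_of_ne (hP i0) (Ne.symm (hm i0 hi0).2)
  have hmn : ∀ i, 0 ≤ (if m i then P i else 0) := by
    intro i; split_ifs
    · exact hP i
    · exact le_rfl
  have hRpos : 0 < R := by
    apply Finset.sum_pos' (fun i _ => hmn i)
    exact ⟨i0, Finset.mem_univ _, by rw [if_pos (hm i0 hi0).1]; exact hPi0⟩
  have hPZ : 0 < ∑ i, P i := Finset.sum_pos' (fun i _ => hP i) ⟨i0, Finset.mem_univ _, hPi0⟩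
  have hg := gibbs (f := q) (q := fun i => (if m i then P i else 0) * (Q / R)) hq
    (fun i => mul_nonneg (hmn i) (div_pos hQpos hRpos).le)
    (by
      intro i hi
      by_contra h
      obtain ⟨h1, h2⟩ := hm i h
      simp only [h1, if_true] at hi
      rcases mul_eq_zero.1 hi with h3 | h3
      · exact h2 h3
      · exact (div_pos hQpos hRpos).ne' h3)
    (by
      rw [← Finset.sum_mul, ← hR]
      apply le_of_eq
      field_simp
      rw [hQdef])
  have h1 : ∑ i, q i * (-Real.log ((if m i then P i else 0) * (Q / R))) =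
      ∑ i, q i * (-Real.log (P i)) - Q * (Real.log Q - Real.log R) := by
    rw [hQdef, Finset.sum_mul, ← Finset.sum_sub_distrib, ← hQdef]
    apply Finset.sum_congr rfl
    intro i _
    by_cases h : q i = 0
    · simp [h]
    · obtain ⟨h1, h2⟩ := hm i h
      simp only [h1, if_true]
      rw [Real.log_mul h2 (div_pos hQpos hRpos).ne', Real.log_div hQpos.ne' hRpos.ne']
      ring
  rw [h1, Ent_eq_sum] at hg
  rw [Real.log_div hRpos.ne' hPZ.ne']
  have h2 : ∑ i, q i * (Real.log (P i) - Real.log (q i)) =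
      ∑ i, q i * (-Real.log (q i)) - ∑ i, q i * (-Real.log (P i)) := by
    rw [← Finset.sum_sub_distrib]
    apply Finset.sum_congr rfl
    intro i _
    ring
  rw [h2]
  nlinarith

end near

section core
variable {𝔊 : Type} [Group 𝔊] [Fintype 𝔊]
variable {X : Type} [Fintype X] [DecidableEq X] {Z : Type} [Fintype Z] [DecidableEq Z]
variable [MulAction 𝔊 X] [MulAction 𝔊 Z]
variable {H : Finset X} {ν : Finset X × Z → ℝ}

theorem rhoU_support (h : ∀ y, 0 ≤ ν y) {G k : Finset X} {z : Z} (hk : rhoU 𝔊 ν (G, k, z) ≠ 0) :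
    ν (G, z) ≠ 0 ∧ ww 𝔊 ν (G, z) k ≠ 0 ∧ k ⊆ G := by
  unfold rhoU at hk
  have h1 : ν (G, z) ≠ 0 := left_ne_zero_of_mul hk
  have h2 : ww 𝔊 ν (G, z) k ≠ 0 := right_ne_zero_of_mul hk
  exact ⟨h1, h2, ww_subset h _ _ h2⟩

/-- the kernel probability that `x ∈ K_u` -/
noncomputable def px (𝔊 : Type) [Group 𝔊] [Fintype 𝔊] [MulAction 𝔊 X] [MulAction 𝔊 Z]
    (ν : Finset X × Z → ℝ) (y : Finset X × Z) (x : X) : ℝ :=
  ∑ k, if x ∈ k then ww 𝔊 ν y k else 0

theorem px_nonneg (h : ∀ y, 0 ≤ ν y) (y : Finset X × Z) (x : X) : 0 ≤ px 𝔊 ν y x := by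
  unfold px
  apply Finset.sum_nonneg
  intro k _
  split_ifs
  · exact ww_nonneg h _ _
  · exact le_rfl

theorem sum_thinQ_rhoU (ν : Finset X × Z → ℝ) (y : Finset X × Z) (t : ℝ) (x : X) :
    ∑ S, thinQ (fun k => rhoU 𝔊 ν (y.1, k, y.2)) t S x = ν y * px 𝔊 ν y x := by
  rw [sum_thinQ]
  unfold px
  rw [Finset.mul_sum]
  apply Finset.sum_congr rfl
  intro k _
  split_ifs
  · rfl
  · simp

/-- `thinQ ≠ 0` gives an element `k` of the support with `x ∈ k`. -/
theorem thinQ_ne_zero {r : Finset X → ℝ} {t : ℝ} {S : Finset X} {x : X}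
    (hq : thinQ r t S x ≠ 0) : ∃ k, x ∈ k ∧ r k ≠ 0 := by
  unfold thinQ at hq
  obtain ⟨k, _, hk⟩ := Finset.exists_ne_zero_of_sum_ne_zero hq
  by_cases hx : x ∈ k
  · rw [if_pos hx] at hk
    exact ⟨k, hx, left_ne_zero_of_mul hk⟩
  · rw [if_neg hx] at hk
    exact absurd rfl hk

theorem core_app (h : IsState H ν) {t : ℝ} (h0 : 0 < t) (h1 : t < 1) (m W : ℝ)
    (hm : 0 ≤ m) (hW : 0 ≤ W)
    (hBB : ∑ y, marg (nuT 𝔊 ν t) y * ∑ x, BB (kap (nuT 𝔊 ν t) x y) (kap ν x y.1) ≤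
      (m + 1) * sizeA (nuK ν))
    (hpsi : ∑ z, marg ν z * ∑ x, psi2 (kap ν x z) + 3 * sizeA (nuK ν) ≤ (W + 1) * sizeA (nuK ν)) :
    ∑ i : Finset X × Z, ∑ S, ∑ x, thinQ (fun k => rhoU 𝔊 ν (i.1, k, i.2)) t S x *
        (Real.log (thinP (fun k => rhoU 𝔊 ν (i.1, k, i.2)) t S) -
          Real.log (thinQ (fun k => rhoU 𝔊 ν (i.1, k, i.2)) t S x) +
          1 / 2 * Real.log (kap (nuT 𝔊 ν t) x (i.2, S))) ≤
      sizeA (nuK ν) * (3 + max (Real.log (m + 1) - 1 + Real.log (9 / 8))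
        (Real.log (W + 1) - 2 + Real.log 3)) := by
  classical
  have hν := h.nonneg
  have hr := rhoU_nonneg (𝔊 := 𝔊) hν
  let r : Finset X × Z → Finset X → ℝ := fun i k => rhoU 𝔊 ν (i.1, k, i.2)
  have hr' : ∀ i k, 0 ≤ r i k := fun i k => hr _
  let q : (Finset X × Z) × Finset X × X → ℝ := fun j => thinQ (r j.1) t j.2.1 j.2.2
  let P : (Finset X × Z) × Finset X × X → ℝ := fun j => thinP (r j.1) t j.2.1
  let p : (Finset X × Z) × Finset X × X → ℝ := fun j => px 𝔊 ν j.1 j.2.2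
  let y : (Finset X × Z) × Finset X × X → ℝ := fun j => kap (nuT 𝔊 ν t) j.2.2 (j.1.2, j.2.1)
  let y0 : (Finset X × Z) × Finset X × X → ℝ := fun j => kap ν j.2.2 j.1.2
  have hT := isState_nuT (𝔊 := 𝔊) h h0.le h1.le
  have hqn : ∀ j, 0 ≤ q j := fun j => thinQ_nonneg (hr' _) h0.le h1.le _ _
  have hPn : ∀ j, 0 ≤ P j := fun j => thinP_nonneg (hr' _) h0.le h1.le _
  have hpn : ∀ j, 0 ≤ p j := fun j => px_nonneg hν _ _
  have hyn : ∀ j, 0 ≤ y j := fun j => kap_nonneg hT.nonneg _ _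
  have hy0n : ∀ j, 0 ≤ y0 j := fun j => kap_nonneg hν _ _
  let s : Finset ((Finset X × Z) × Finset X × X) := univ.filter (fun j => q j ≠ 0)
  have hmem : ∀ j, j ∈ s ↔ q j ≠ 0 := fun j => by simp [s]
  -- facts for j ∈ s
  have hfacts : ∀ j ∈ s, 0 < q j ∧ 0 < P j ∧ 0 < p j ∧ j.2.2 ∈ j.1.1 ∧ 0 < y j ∧ 0 < y0 j := by
    rintro ⟨⟨G, z⟩, S, x⟩ hj
    rw [hmem] at hj
    have hq : 0 < q ((G, z), S, x) := lt_of_le_of_ne (hqn _) (Ne.symm hj)
    have hP : 0 < P ((G, z), S, x) := by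
      have := thinQ_le (hr' (G, z)) h0.le h1.le S x
      have h2 : 0 < (1 - t) * q ((G, z), S, x) := mul_pos (by linarith) hq
      exact h2.trans_le this
    obtain ⟨k, hxk, hk⟩ := thinQ_ne_zero hj
    obtain ⟨hk1, hk2, hk3⟩ := rhoU_support hν hk
    have hp : 0 < p ((G, z), S, x) := by
      simp only [p, px]
      apply Finset.sum_pos'
      · intro k _
        split_ifs
        · exact ww_nonneg hν _ _
        · exact le_rfl
      · refine ⟨k, Finset.mem_univ _, ?_⟩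
        rw [if_pos hxk]
        exact lt_of_le_of_ne (ww_nonneg hν _ _) (Ne.symm hk2)
    have hxG : x ∈ G := hk3 hxk
    have hmemT : 0 < mem1 (nuT 𝔊 ν t) x (z, S) := by
      unfold mem1
      apply Finset.sum_pos'
      · intro G' _
        split_ifs
        · exact hT.nonneg _
        · exact le_rfl
      · refine ⟨G, Finset.mem_univ _, ?_⟩
        rw [if_pos hxG, nuT_eq_thinP]
        exact hP
    have hmem0 : 0 < mem1 ν x z := by
      unfold mem1
      apply Finset.sum_pos'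
      · intro G' _
        split_ifs
        · exact hν _
        · exact le_rfl
      · refine ⟨G, Finset.mem_univ _, ?_⟩
        rw [if_pos hxG]
        exact lt_of_le_of_ne (hν _) (Ne.symm hk1)
    have hy : 0 < y ((G, z), S, x) := by
      have h3 := marg_mul_kap hT.nonneg x (z, S)
      rw [← h3] at hmemT
      exact pos_of_mul_pos_right hmemT (marg_nonneg hT.nonneg _)
    have hy0 : 0 < y0 ((G, z), S, x) := by
      have h3 := marg_mul_kap hν x z
      rw [← h3] at hmem0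
      exact pos_of_mul_pos_right hmem0 (marg_nonneg hν _)
    exact ⟨hq, hP, hp, hxG, hy, hy0⟩
  -- sum over s = sum over all, for functions with factor q
  have hsum_s : ∀ F : (Finset X × Z) × Finset X × X → ℝ, (∀ j, q j = 0 → F j = 0) →
      ∑ j ∈ s, F j = ∑ i : Finset X × Z, ∑ S, ∑ x, F (i, S, x) := by
    intro F hF
    have h2 : ∑ j ∈ s, F j = ∑ j, F j := by
      apply Finset.sum_subset (Finset.subset_univ _)
      intro j _ hj
      apply hF
      by_contra h3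
      exact hj ((hmem j).2 h3)
    rw [h2]
    simp only [Fintype.sum_prod_type]
  have hA : ∑ j ∈ s, q j = sizeA (nuK ν) := by
    rw [hsum_s q (fun j hj => hj), ← sizeA_nuKu (𝔊 := 𝔊) hν]
    unfold sizeA nuKu
    rw [sum_push_mul (fun y : Finset X × Finset X × Z => (y.2.1, y.2.2)) (rhoU 𝔊 ν)
      (fun y => (y.1.card : ℝ))]
    simp only [q]
    simp_rw [sum_sum_thinQ, r]
    simp only [Fintype.sum_prod_type]
    apply Finset.sum_congr rfl
    intro G _
    rw [Finset.sum_comm]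
  have h5 : ∑ j ∈ s, P j * (BB (y j) (y0 j) / y j) ≤ (m + 1) * sizeA (nuK ν) := by
    refine le_trans ?_ hBB
    -- enlarge the index set to all j with x ∈ G
    have e1 : ∑ j ∈ s, P j * (BB (y j) (y0 j) / y j) ≤
        ∑ j : (Finset X × Z) × Finset X × X,
          (if j.2.2 ∈ j.1.1 then P j else 0) * (BB (y j) (y0 j) / y j) := by
      calc ∑ j ∈ s, P j * (BB (y j) (y0 j) / y j)
          = ∑ j ∈ s, (if j.2.2 ∈ j.1.1 then P j else 0) * (BB (y j) (y0 j) / y j) := by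
            apply Finset.sum_congr rfl
            intro j hj
            rw [if_pos (hfacts j hj).2.2.2.1]
        _ ≤ _ := by
            apply Finset.sum_le_sum_of_subset_of_nonneg (Finset.subset_univ _)
            intro j _ _
            apply mul_nonneg
            · split_ifs
              · exact hPn j
              · exact le_rfl
            · exact div_nonneg (BB_nonneg _ _) (hyn j)
    refine e1.trans ?_
    have e2 : ∑ j : (Finset X × Z) × Finset X × X,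
          (if j.2.2 ∈ j.1.1 then P j else 0) * (BB (y j) (y0 j) / y j) =
        ∑ z : Z, ∑ S : Finset X, ∑ x : X, mem1 (nuT 𝔊 ν t) x (z, S) *
          (BB (kap (nuT 𝔊 ν t) x (z, S)) (kap ν x z) / kap (nuT 𝔊 ν t) x (z, S)) := by
      simp only [Fintype.sum_prod_type]
      rw [Finset.sum_comm]
      apply Finset.sum_congr rfl
      intro z _
      rw [Finset.sum_comm]
      apply Finset.sum_congr rfl
      intro S _
      rw [Finset.sum_comm]
      apply Finset.sum_congr rfl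
      intro x _
      simp only [P, y, y0, r]
      rw [← Finset.sum_mul]
      congr 1
      unfold mem1
      apply Finset.sum_congr rfl
      intro G _
      rw [nuT_eq_thinP]
    rw [e2, Fintype.sum_prod_type]
    apply Finset.sum_le_sum
    intro z _
    apply Finset.sum_le_sum
    intro S _
    rw [Finset.mul_sum]
    apply Finset.sum_le_sum
    intro x _
    rw [← marg_mul_kap hT.nonneg x (z, S)]
    by_cases hy : kap (nuT 𝔊 ν t) x (z, S) = 0
    · rw [hy]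
      simp only [mul_zero, zero_mul]
      exact mul_nonneg (marg_nonneg hT.nonneg _) (BB_nonneg _ _)
    · apply le_of_eq
      field_simp
  have h6 : ∑ j ∈ s, P j * p j ≤ sizeA (nuK ν) := by
    have e1 : ∑ j ∈ s, P j * p j ≤ ∑ j, P j * p j :=
      Finset.sum_le_sum_of_subset_of_nonneg (Finset.subset_univ _)
        (fun j _ _ => mul_nonneg (hPn j) (hpn j))
    refine e1.trans (le_of_eq ?_)
    rw [← hA, hsum_s q (fun j hj => hj)]
    rw [Fintype.sum_prod_type]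
    apply Finset.sum_congr rfl
    intro i _
    rw [Fintype.sum_prod_type]
    rw [Finset.sum_comm]
    conv_rhs => rw [Finset.sum_comm]
    apply Finset.sum_congr rfl
    intro x _
    simp only [P, p, q]
    rw [← Finset.sum_mul, sum_thinP]
    have e3 : ∑ k, r i k = ν i := sum_rhoU hν i.1 i.2
    rw [e3]
    exact (sum_thinQ_rhoU ν i t x).symm
  have h7 : ∑ j ∈ s, q j / p j * √(y0 j) ≤ (W + 1) * sizeA (nuK ν) := by
    refine le_trans ?_ hpsi
    rw [hsum_s (fun j => q j / p j * √(y0 j)) (fun j hj => by simp [hj])]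
    have e1 : ∀ i : Finset X × Z, ∑ S, ∑ x, q (i, S, x) / p (i, S, x) * √(y0 (i, S, x)) ≤
        ∑ x, (if x ∈ i.1 then ν i else 0) * √(kap ν x i.2) := by
      intro i
      rw [Finset.sum_comm]
      apply Finset.sum_le_sum
      intro x _
      have e2 : ∑ S, q (i, S, x) / p (i, S, x) * √(y0 (i, S, x)) =
          (ν i * px 𝔊 ν i x) / px 𝔊 ν i x * √(kap ν x i.2) := by
        simp only [p, y0, q]
        rw [← Finset.sum_mul, ← Finset.sum_div, sum_thinQ_rhoU]
      rw [e2]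
      apply mul_le_mul_of_nonneg_right _ (Real.sqrt_nonneg _)
      by_cases hp0 : px 𝔊 ν i x = 0
      · rw [hp0]
        simp only [mul_zero, zero_div]
        split_ifs
        · exact hν i
        · exact le_rfl
      · have hx : x ∈ i.1 := by
          unfold px at hp0
          obtain ⟨k, _, hk⟩ := Finset.exists_ne_zero_of_sum_ne_zero hp0
          by_cases hx : x ∈ k
          · rw [if_pos hx] at hk
            exact ww_subset hν i k hk hx
          · rw [if_neg hx] at hk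
            exact absurd rfl hk
        rw [if_pos hx, mul_div_cancel_right₀ _ hp0]
    refine (Finset.sum_le_sum fun i _ => e1 i).trans ?_
    have e3 : ∑ i : Finset X × Z, ∑ x, (if x ∈ i.1 then ν i else 0) * √(kap ν x i.2) =
        ∑ z, marg ν z * ∑ x, kap ν x z * √(kap ν x z) := by
      rw [Fintype.sum_prod_type, Finset.sum_comm]
      apply Finset.sum_congr rfl
      intro z _
      rw [Finset.sum_comm, Finset.mul_sum]
      apply Finset.sum_congr rfl
      intro x _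
      dsimp only
      rw [← Finset.sum_mul, ← mul_assoc, marg_mul_kap hν]
      rfl
    rw [e3, sizeA_nuK hν, Finset.mul_sum, ← Finset.sum_add_distrib]
    apply Finset.sum_le_sum
    intro z _
    have e4 : ∑ x, kap ν x z * √(kap ν x z) ≤
        ∑ x, psi2 (kap ν x z) + 3 * ∑ x, kap ν x z ^ 2 := by
      rw [Finset.mul_sum, ← Finset.sum_add_distrib]
      exact Finset.sum_le_sum fun x _ => psi2_ge (kap_nonneg hν x z) (kap_le_one hν x z)
    nlinarith [marg_nonneg hν z, mul_le_mul_of_nonneg_left e4 (marg_nonneg hν z)]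
  have hcore := core_sum s q P p y y0 (sizeA (nuK ν)) m W (fun j hj => (hfacts j hj).1)
    (fun j hj => (hfacts j hj).2.1) (fun j hj => (hfacts j hj).2.2.1)
    (fun j hj => (hfacts j hj).2.2.2.2.1) (fun j hj => (hfacts j hj).2.2.2.2.2) hm hW hA h5 h6 h7
  rw [hsum_s _ (fun j hj => by rw [hj]; simp)] at hcore
  exact hcore

/-- Jensen / log-sum for the passage from `(G,K^t,Z)` to `(K^t,Z)`. -/
theorem jensen_app (h : IsState H ν) {t : ℝ} (h0 : 0 < t) (h1 : t < 1) :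
    ∑ i : Finset X × Z, ∑ S, ∑ x, thinQ (fun k => rhoU 𝔊 ν (i.1, k, i.2)) t S x *
        (Real.log (thinP (fun k => rhoU 𝔊 ν (i.1, k, i.2)) t S) -
          Real.log (thinQ (fun k => rhoU 𝔊 ν (i.1, k, i.2)) t S x)) ≤
      (∑ z, ∑ S, ∑ x, thinQ (fun k => nuKu 𝔊 ν (k, z)) t S x *
          (Real.log (thinP (fun k => nuKu 𝔊 ν (k, z)) t S) -
            Real.log (thinQ (fun k => nuKu 𝔊 ν (k, z)) t S x))) +
      ∑ i : Finset X × Z, ∑ S, ∑ x, thinQ (fun k => rhoU 𝔊 ν (i.1, k, i.2)) t S x *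
        Real.log (kap (nuT 𝔊 ν t) x (i.2, S)) := by
  have hν := h.nonneg
  have hr := rhoU_nonneg (𝔊 := 𝔊) hν
  have hP : ∀ z S, thinP (fun k => nuKu 𝔊 ν (k, z)) t S =
      ∑ G, thinP (fun k => rhoU 𝔊 ν (G, k, z)) t S := by
    intro z S
    unfold thinP
    rw [Finset.sum_comm]
    apply Finset.sum_congr rfl
    intro k _
    dsimp only
    rw [nuKu_eq, Finset.sum_mul]
  have hQ : ∀ z S x, thinQ (fun k => nuKu 𝔊 ν (k, z)) t S x =
      ∑ G, thinQ (fun k => rhoU 𝔊 ν (G, k, z)) t S x := by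
    intro z S x
    unfold thinQ
    rw [Finset.sum_comm]
    apply Finset.sum_congr rfl
    intro k _
    split_ifs
    · dsimp only
      rw [nuKu_eq, Finset.sum_mul]
    · simp
  have hswap : ∀ F : Finset X → Z → Finset X → X → ℝ,
      ∑ i : Finset X × Z, ∑ S, ∑ x, F i.1 i.2 S x = ∑ z, ∑ S, ∑ x, ∑ G, F G z S x := by
    intro F
    rw [Fintype.sum_prod_type, Finset.sum_comm]
    apply Finset.sum_congr rfl
    intro z _
    rw [Finset.sum_comm]
    apply Finset.sum_congr rfl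
    intro S _
    rw [Finset.sum_comm]
  rw [hswap (fun G z S x => thinQ (fun k => rhoU 𝔊 ν (G, k, z)) t S x *
        (Real.log (thinP (fun k => rhoU 𝔊 ν (G, k, z)) t S) -
          Real.log (thinQ (fun k => rhoU 𝔊 ν (G, k, z)) t S x))),
    hswap (fun G z S x => thinQ (fun k => rhoU 𝔊 ν (G, k, z)) t S x *
        Real.log (kap (nuT 𝔊 ν t) x (z, S)))]
  rw [← Finset.sum_add_distrib]
  apply Finset.sum_le_sum
  intro z _
  rw [← Finset.sum_add_distrib]
  apply Finset.sum_le_sum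
  intro S _
  rw [← Finset.sum_add_distrib]
  apply Finset.sum_le_sum
  intro x _
  have hls := logsum (fun G => thinQ (fun k => rhoU 𝔊 ν (G, k, z)) t S x)
    (fun G => thinP (fun k => rhoU 𝔊 ν (G, k, z)) t S) (fun G => x ∈ G)
    (fun G => thinQ_nonneg (fun k => hr _) h0.le h1.le _ _)
    (fun G => thinP_nonneg (fun k => hr _) h0.le h1.le _)
    (by
      intro G hG
      obtain ⟨k, hxk, hk⟩ := thinQ_ne_zero hG
      obtain ⟨hk1, hk2, hk3⟩ := rhoU_support hν hk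
      refine ⟨hk3 hxk, ?_⟩
      have h2 := thinQ_le (r := fun k => rhoU 𝔊 ν (G, k, z)) (fun k => hr _) h0.le h1.le S x
      have h3 : 0 < thinQ (fun k => rhoU 𝔊 ν (G, k, z)) t S x :=
        lt_of_le_of_ne (thinQ_nonneg (fun k => hr _) h0.le h1.le _ _) (Ne.symm hG)
      have h4 : 0 < (1 - t) * thinQ (fun k => rhoU 𝔊 ν (G, k, z)) t S x :=
        mul_pos (by linarith) h3
      exact (h4.trans_le h2).ne')
  refine hls.trans (le_of_eq ?_)
  rw [← hP, ← hQ]
  congr 1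
  rw [← Finset.sum_mul, ← hQ]
  congr 2
  unfold kap mem1
  rw [marg_nuT]
  congr 1
  apply Finset.sum_congr rfl
  intro G _
  split_ifs
  · rw [nuT_eq_thinP]
  · rfl

end core

section final
variable {𝔊 : Type} [Group 𝔊] [Fintype 𝔊]
variable {X : Type} [Fintype X] [DecidableEq X]
variable [MulAction 𝔊 X]

theorem c_le (H : Finset X) (hH : H.Nonempty) (a α : ℝ) (hα0 : 0 ≤ α)
    (ha : ∀ u, IsLaw H u → a * sizeL u - Real.log 2 ≤ Ent (Av 𝔊 u))
    (hα : ∀ u, IsLaw H u → α * sizeL u - Real.log 2 ≤ II 𝔊 u)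
    (hα' : ∀ ε > 0, ∃ u, IsLaw H u ∧ 0 < sizeL u ∧
      II 𝔊 u - α * sizeL u + Real.log 2 ≤ ε * sizeL u) :
    a - α ≤ 40 := by
  obtain ⟨Ψ, hΨ0, hΨ, hΨ'⟩ := exists_Psi 𝔊 H α hα hα'
  have hlog2 : 0 < Real.log 2 := Real.log_pos (by norm_num)
  have hlog2' : Real.log 2 ≤ 0.7 := by linarith [Real.log_two_lt_d9]
  have hcard : (0 : ℝ) < H.card := by exact_mod_cast hH.card_pos
  have hcard1 : (1 : ℝ) ≤ H.card := by exact_mod_cast hH.card_pos
  set ε : ℝ := Real.log 2 / (200 * H.card * (α + 3)) with hε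
  have hεpos : 0 < ε := by positivity
  have hεle : ε ≤ 1 := by
    rw [hε, div_le_one (by positivity)]
    nlinarith
  have hεeq : 200 * H.card * (α + 3) * ε = Real.log 2 := by
    rw [hε]; field_simp
  obtain ⟨Z, i1, i2, i3, ν, hst, hpos, hn⟩ := hΨ' ε hεpos
  have hν := hst.nonneg
  set A := sizeA ν with hA
  set AK := sizeA (nuK ν) with hAK
  -- lower bound of A
  have hAlow : Real.log 2 ≤ (α + 3) * A := by
    have h1 := pot_ge' (𝔊 := 𝔊) (α := α) hst
    rw [← hA] at h1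
    have h2 : Ψ * A ≤ 0 := mul_nonpos_of_nonpos_of_nonneg hΨ0 hpos.le
    have h3 : ε * A ≤ 1 * A := mul_le_mul_of_nonneg_right hεle hpos.le
    nlinarith
  have hCS := sizeA_sq_le hst
  rw [← hA, ← hAK] at hCS
  have hAKpos : 0 < AK := by
    have h1 : 0 < A ^ 2 := by positivity
    have h2 : 0 < (H.card : ℝ) * AK := h1.trans_le hCS
    exact pos_of_mul_pos_right h2 hcard.le
  have hεA : 2 * ε * A ≤ 1 / 100 * AK := by
    -- multiply by log 2 ≤ (α+3) A
    have h1 : 2 * ε * A * Real.log 2 ≤ 2 * ε * A * ((α + 3) * A) :=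
      mul_le_mul_of_nonneg_left hAlow (by positivity)
    have h2 : 2 * ε * A * ((α + 3) * A) = 2 * ε * (α + 3) * A ^ 2 := by ring
    have h3 : 2 * ε * (α + 3) * A ^ 2 ≤ 2 * ε * (α + 3) * (H.card * AK) :=
      mul_le_mul_of_nonneg_left hCS (by positivity)
    have h4 : 2 * ε * (α + 3) * (H.card * AK) = (200 * H.card * (α + 3) * ε) * (1 / 100 * AK) := by
      ring
    rw [hεeq] at h4
    have h5 : Real.log 2 * (2 * ε * A) ≤ Real.log 2 * (1 / 100 * AK) := by linarith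
    exact le_of_mul_le_mul_left h5 hlog2
  have hAKle : AK ≤ A := by
    rw [hAK, hA, sizeA_nuK hν, sizeA_eq hν]
    apply Finset.sum_le_sum
    intro z _
    apply mul_le_mul_of_nonneg_left _ (marg_nonneg hν z)
    apply Finset.sum_le_sum
    intro x _
    have h1 := kap_nonneg hν x z
    have h2 := kap_le_one hν x z
    nlinarith
  have hstU := isState_nuU hst
  have hAU := sizeA_nuU hν
  have hUpos : 0 < sizeA (nuU ν) := by rw [hAU]; linarith
  have hU := nearU (𝔊 := 𝔊) hst hΨ0 (hΨ Z (nuU ν) hstU hUpos) hn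
  rw [← hA, ← hAK] at hU
  set Ψ2 := ∑ z, marg ν z * ∑ x, psi2 (kap ν x z) with hΨ2
  have hΨ2ge : 0 ≤ Ψ2 + 2 * AK := by
    rw [hΨ2, hAK, sizeA_nuK hν, Finset.mul_sum, ← Finset.sum_add_distrib]
    apply Finset.sum_nonneg
    intro z _
    have e4 : 0 ≤ ∑ x, psi2 (kap ν x z) + 2 * ∑ x, kap ν x z ^ 2 := by
      rw [Finset.mul_sum, ← Finset.sum_add_distrib]
      exact Finset.sum_nonneg fun x _ => psi2_ge' (kap_nonneg hν x z) (kap_le_one hν x z)
    have := mul_nonneg (marg_nonneg hν z) e4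
    nlinarith
  -- (a1)
  have h1 : (a - α) * AK + Ψ2 - 2 * ε * A ≤ 2 * LL 𝔊 ν := by
    have := state_EntAv (𝔊 := 𝔊) ha (isState_nuK hst)
    rw [← hAK] at this
    linarith
  -- (a2)
  have h2 : MM 𝔊 ν + Ψ2 - 2 * ε * A ≤ 2 * LL 𝔊 ν := by
    have h3 := state_II (𝔊 := 𝔊) hα (isState_nuKu (𝔊 := 𝔊) hst)
    rw [sizeA_nuKu hν, ← hAK] at h3
    unfold II at h3
    rw [Av_nuKu hν] at h3
    have h4 := Ent_marg_nonneg hst
    unfold MM
    linarith
  have hMM := MM_nonneg (𝔊 := 𝔊) hν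
  set l := LL 𝔊 ν / AK with hl
  set m := MM 𝔊 ν / AK with hm
  set W := (Ψ2 + 2 * AK) / AK with hW
  have hlAK : LL 𝔊 ν = l * AK := by rw [hl]; field_simp
  have hmAK : MM 𝔊 ν = m * AK := by rw [hm]; field_simp
  have hWAK : Ψ2 = (W - 2) * AK := by rw [hW]; field_simp; ring
  have hm0 : 0 ≤ m := div_nonneg hMM hAKpos.le
  have hW0 : 0 ≤ W := div_nonneg hΨ2ge hAKpos.le
  have hB1 : (a - α) - 2 + W - 1 / 100 ≤ 2 * l := by
    have : ((a - α) - 2 + W - 1 / 100) * AK ≤ (2 * l) * AK := by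
      rw [hlAK, hWAK] at h1
      linarith
    exact le_of_mul_le_mul_right this hAKpos
  have hB2 : m ≤ 2 * l + 2 - W + 1 / 100 := by
    have : m * AK ≤ (2 * l + 2 - W + 1 / 100) * AK := by
      rw [hlAK, hWAK, hmAK] at h2
      linarith
    exact le_of_mul_le_mul_right this hAKpos
  obtain ⟨t, ht0, ht1, hmvt⟩ := mvt_app (𝔊 := 𝔊) hν
  have hstT := isState_nuT (𝔊 := 𝔊) hst ht0.le ht1.le
  have hAT := sizeA_nuT (𝔊 := 𝔊) hν t
  have hTpos : 0 < sizeA (nuT 𝔊 ν t) := by rw [hAT]; exact hpos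
  have hT := nearT (𝔊 := 𝔊) hst ht0.le ht1.le (hΨ (Z × Finset X) (nuT 𝔊 ν t) hstT hTpos) hn
  rw [← hA, ← hAK] at hT
  have hBB : ∑ y, marg (nuT 𝔊 ν t) y * ∑ x, BB (kap (nuT 𝔊 ν t) x y) (kap ν x y.1) ≤
      (m + 1) * AK := by
    refine hT.trans ?_
    rw [hmAK]
    have h7 : AK * Real.log 2 ≤ AK * 0.7 := mul_le_mul_of_nonneg_left hlog2' hAKpos.le
    linarith
  have hpsi : Ψ2 + 3 * AK ≤ (W + 1) * AK := by
    rw [hWAK]; linarith
  have hcore := core_app (𝔊 := 𝔊) hst ht0 ht1 m W hm0 hW0 hBB hpsi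
  have hjen := jensen_app (𝔊 := 𝔊) hst ht0 ht1
  rw [← hAK] at hcore hmvt
  set J1 := ∑ i : Finset X × Z, ∑ S, ∑ x, thinQ (fun k => rhoU 𝔊 ν (i.1, k, i.2)) t S x *
        (Real.log (thinP (fun k => rhoU 𝔊 ν (i.1, k, i.2)) t S) -
          Real.log (thinQ (fun k => rhoU 𝔊 ν (i.1, k, i.2)) t S x)) with hJ1
  set J2 := ∑ z, ∑ S, ∑ x, thinQ (fun k => nuKu 𝔊 ν (k, z)) t S x *
          (Real.log (thinP (fun k => nuKu 𝔊 ν (k, z)) t S) -
            Real.log (thinQ (fun k => nuKu 𝔊 ν (k, z)) t S x)) with hJ2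
  set J3 := ∑ i : Finset X × Z, ∑ S, ∑ x, thinQ (fun k => rhoU 𝔊 ν (i.1, k, i.2)) t S x *
        Real.log (kap (nuT 𝔊 ν t) x (i.2, S)) with hJ3
  have hcore' : ∑ i : Finset X × Z, ∑ S, ∑ x, thinQ (fun k => rhoU 𝔊 ν (i.1, k, i.2)) t S x *
        (Real.log (thinP (fun k => rhoU 𝔊 ν (i.1, k, i.2)) t S) -
          Real.log (thinQ (fun k => rhoU 𝔊 ν (i.1, k, i.2)) t S x) +
          1 / 2 * Real.log (kap (nuT 𝔊 ν t) x (i.2, S))) = J1 + 1 / 2 * J3 := by
    rw [hJ1, hJ3, Finset.mul_sum, ← Finset.sum_add_distrib]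
    apply Finset.sum_congr rfl
    intro i _
    rw [Finset.mul_sum, ← Finset.sum_add_distrib]
    apply Finset.sum_congr rfl
    intro S _
    rw [Finset.mul_sum, ← Finset.sum_add_distrib]
    apply Finset.sum_congr rfl
    intro x _
    ring
  rw [hcore'] at hcore
  set C0 := max (Real.log (m + 1) - 1 + Real.log (9 / 8)) (Real.log (W + 1) - 2 + Real.log 3)
    with hC0
  have hB3 : 3 / 2 * l - 1 / 2 * m - 1 ≤ 3 + C0 := by
    have : (3 / 2 * l - 1 / 2 * m - 1) * AK ≤ (3 + C0) * AK := by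
      rw [hlAK, hmAK] at hmvt
      linarith
    exact le_of_mul_le_mul_right this hAKpos
  exact numeric hm0 hW0 (by norm_num) le_rfl hB1 hB2 hB3

/-- Part I: the counting lemma with absolute constant. -/
theorem partI (H : Finset X) (hH : H.Nonempty) (p : ℝ) (hp : 0 < p)
    (hyp : ∀ S ⊆ H, (1 : ℝ) / 2 ≤ ((univ.image (fun g : 𝔊 => g • S)).card : ℝ) * p ^ S.card)
    (S : Finset X) :
    ((univ.filter (fun g : 𝔊 => S ⊆ g • H)).card : ℝ) ≤
      2 * (Real.exp 40 * p) ^ S.card * Fintype.card 𝔊 := by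
  obtain ⟨α, hα0, hα, hα'⟩ := exists_alpha 𝔊 H hH
  have hc := c_le (𝔊 := 𝔊) H hH (-Real.log p) α hα0
    (fun u hu => by
      have := hyp_ent (𝔊 := 𝔊) H p hp hyp u hu
      linarith) hα hα'
  apply count_of_alpha H α hα (Real.exp 40 * p) (by positivity)
  rw [Real.log_mul (Real.exp_pos _).ne' hp.ne', Real.log_exp]
  linarith

end final

end Crest.Agent.R55
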