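import Crest.Agent.R55.Defs

/-! Row 55, piece ThinA: calculus of the thinning operation.
All statements are elementary; `thin`, `thinP`, `thinQ`, `Ent` are in Defs.lean. -/

set_option autoImplicit false
open Finset
open scoped Pointwise

namespace Crest.Agent.R55

variable {X : Type} [Fintype X] [DecidableEq X]

theorem thin_nonneg {t : ℝ} (h0 : 0 ≤ t) (h1 : t ≤ 1) (k S : Finset X) : 0 ≤ thin t k S := by
  unfold thin
  have : 0 ≤ 1 - t := by linarith
  split_ifs
  · positivity
  · exact le_rfl

theorem thinA_filter_subset (k : Finset X) :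
    (univ.filter (fun S : Finset X => S ⊆ k)) = k.powerset := by
  ext S; simp

theorem sum_thin (t : ℝ) (k : Finset X) : ∑ S, thin t k S = 1 := by
  unfold thin
  rw [← Finset.sum_filter, thinA_filter_subset, Finset.sum_pow_mul_eq_add_pow]
  simp

theorem thin_smul {𝔊 : Type} [Group 𝔊] [MulAction 𝔊 X] (g : 𝔊) (t : ℝ) (k S : Finset X) :
    thin t (g • k) (g • S) = thin t k S := by
  unfold thin
  simp only [Finset.smul_finset_subset_smul_finset_iff, Finset.card_smul_finset]

theorem thinP_nonneg {r : Finset X → ℝ} (hr : ∀ k, 0 ≤ r k) {t : ℝ} (h0 : 0 ≤ t) (h1 : t ≤ 1)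
    (S : Finset X) : 0 ≤ thinP r t S :=
  Finset.sum_nonneg fun k _ => mul_nonneg (hr k) (thin_nonneg h0 h1 k S)

theorem thinQ_nonneg {r : Finset X → ℝ} (hr : ∀ k, 0 ≤ r k) {t : ℝ} (h0 : 0 ≤ t) (h1 : t ≤ 1)
    (S : Finset X) (x : X) : 0 ≤ thinQ r t S x := by
  refine Finset.sum_nonneg fun k _ => ?_
  split_ifs
  · exact mul_nonneg (hr k) (thin_nonneg h0 h1 _ S)
  · exact le_rfl

theorem sum_thinP (r : Finset X → ℝ) (t : ℝ) : ∑ S, thinP r t S = ∑ k, r k := by
  unfold thinP
  rw [Finset.sum_comm]
  refine Finset.sum_congr rfl fun k _ => ?_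
  rw [← Finset.mul_sum, sum_thin, mul_one]

theorem sum_thinQ (r : Finset X → ℝ) (t : ℝ) (x : X) :
    ∑ S, thinQ r t S x = ∑ k, if x ∈ k then r k else 0 := by
  unfold thinQ
  rw [Finset.sum_comm]
  refine Finset.sum_congr rfl fun k _ => ?_
  split_ifs
  · rw [← Finset.mul_sum, sum_thin, mul_one]
  · simp

theorem sum_sum_thinQ (r : Finset X → ℝ) (t : ℝ) :
    ∑ S, ∑ x, thinQ r t S x = ∑ k, r k * (k.card : ℝ) := by
  rw [Finset.sum_comm]
  simp_rw [sum_thinQ]
  rw [Finset.sum_comm]
  refine Finset.sum_congr rfl fun k _ => ?_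
  rw [← Finset.sum_filter]
  simp [mul_comm]

theorem thinQ_of_mem (r : Finset X → ℝ) (t : ℝ) {S : Finset X} {x : X} (h : x ∈ S) :
    thinQ r t S x = 0 := by
  unfold thinQ
  refine Finset.sum_eq_zero fun k _ => ?_
  split_ifs
  · unfold thin
    rw [if_neg, mul_zero]
    intro hs
    exact Finset.notMem_erase x k (hs h)
  · rfl

theorem thinP_insert (r : Finset X → ℝ) (t : ℝ) {S : Finset X} {x : X} (h : x ∉ S) :
    thinP r t (insert x S) = t * thinQ r t S x := by
  unfold thinP thinQ
  rw [Finset.mul_sum]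
  refine Finset.sum_congr rfl fun k _ => ?_
  unfold thin
  by_cases hx : x ∈ k
  · simp only [hx, if_true, Finset.insert_subset_iff, true_and, Finset.subset_erase, h,
      not_false_eq_true, and_true, Finset.card_insert_of_notMem h, Finset.card_erase_of_mem hx]
    split_ifs
    · have : k.card - (S.card + 1) = k.card - 1 - S.card := by omega
      rw [this]; ring
    · ring
  · simp [hx, Finset.insert_subset_iff]

theorem thinQ_le {r : Finset X → ℝ} (hr : ∀ k, 0 ≤ r k) {t : ℝ} (h0 : 0 ≤ t) (h1 : t ≤ 1)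
    (S : Finset X) (x : X) : (1 - t) * thinQ r t S x ≤ thinP r t S := by
  by_cases hS : x ∈ S
  · rw [thinQ_of_mem r t hS, mul_zero]
    exact thinP_nonneg hr h0 h1 S
  unfold thinP thinQ
  rw [Finset.mul_sum]
  refine Finset.sum_le_sum fun k _ => ?_
  by_cases hx : x ∈ k
  · simp only [hx, if_true]
    have hkey : (1 - t) * thin t (k.erase x) S ≤ thin t k S := by
      unfold thin
      simp only [Finset.subset_erase, hS, not_false_eq_true, and_true,
        Finset.card_erase_of_mem hx]
      split_ifs with hk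
      · have h2 : S.card + 1 ≤ k.card := by
          rw [← Finset.card_insert_of_notMem hS]
          exact Finset.card_le_card (Finset.insert_subset hx hk)
        have h3 : k.card - S.card = (k.card - 1 - S.card) + 1 := by omega
        rw [h3, pow_succ]
        apply le_of_eq
        ring
      · simp
    calc (1 - t) * (r k * thin t (k.erase x) S) = r k * ((1 - t) * thin t (k.erase x) S) := by ring
      _ ≤ r k * thin t k S := mul_le_mul_of_nonneg_left hkey (hr k)
  · simp only [hx, if_false, mul_zero]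
    exact mul_nonneg (hr k) (thin_nonneg h0 h1 k S)

theorem thinA_thinP_zero (r : Finset X → ℝ) (S : Finset X) :
    thinP r 0 S = if S = ∅ then ∑ k, r k else 0 := by
  unfold thinP thin
  split_ifs with h
  · subst h
    simp
  · refine Finset.sum_eq_zero fun k _ => ?_
    have : S.card ≠ 0 := by simpa using h
    simp [this]

theorem thinA_thinP_one (r : Finset X → ℝ) (S : Finset X) : thinP r 1 S = r S := by
  unfold thinP thin
  rw [Finset.sum_eq_single S]
  · simp
  · intro k _ hk
    split_ifs with hS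
    · have : k.card - S.card ≠ 0 := by
        have := Finset.card_lt_card (Finset.ssubset_iff_subset_ne.2 ⟨hS, fun h => hk h.symm⟩)
        omega
      simp [this]
    · simp
  · simp

theorem Ent_thinP_zero (r : Finset X → ℝ) : Ent (thinP r 0) = Real.negMulLog (∑ k, r k) := by
  unfold Ent
  simp_rw [thinA_thinP_zero]
  rw [Finset.sum_eq_single ∅]
  · simp
  · intro S _ hS
    simp [hS]
  · simp

theorem Ent_thinP_one (r : Finset X → ℝ) : Ent (thinP r 1) = Ent r := by
  unfold Ent
  simp_rw [thinA_thinP_one]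

theorem Ent_thinP_continuous (r : Finset X → ℝ) : Continuous (fun t => Ent (thinP r t)) := by
  unfold Ent thinP thin
  refine continuous_finsetSum _ fun S _ => Real.continuous_negMulLog.comp ?_
  refine continuous_finsetSum _ fun k _ => ?_
  split_ifs
  · fun_prop
  · fun_prop

theorem thinA_negMulLog_add_le {a b : ℝ} (ha : 0 ≤ a) (hb : 0 ≤ b) :
    Real.negMulLog (a + b) ≤ Real.negMulLog a + Real.negMulLog b := by
  unfold Real.negMulLog
  have h1 : a * Real.log a ≤ a * Real.log (a + b) := by
    rcases ha.eq_or_lt with h | h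
    · simp [← h]
    · exact mul_le_mul_of_nonneg_left (Real.log_le_log h (by linarith)) ha
  have h2 : b * Real.log b ≤ b * Real.log (a + b) := by
    rcases hb.eq_or_lt with h | h
    · simp [← h]
    · exact mul_le_mul_of_nonneg_left (Real.log_le_log h (by linarith)) hb
  nlinarith

theorem thinA_negMulLog_sum_le {ι : Type} (s : Finset ι) (f : ι → ℝ) (hf : ∀ i ∈ s, 0 ≤ f i) :
    Real.negMulLog (∑ i ∈ s, f i) ≤ ∑ i ∈ s, Real.negMulLog (f i) := by
  classical
  induction s using Finset.induction_on with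
  | empty => simp
  | insert a s ha ih =>
    rw [Finset.sum_insert ha, Finset.sum_insert ha]
    have h1 := thinA_negMulLog_add_le (hf a (Finset.mem_insert_self a s))
      (Finset.sum_nonneg fun i hi => hf i (Finset.mem_insert_of_mem hi))
    have h2 := ih fun i hi => hf i (Finset.mem_insert_of_mem hi)
    linarith

/-- `-x log x ≤ x log N + 1/N - x` -/
theorem thinA_negMulLog_le_aux {x N : ℝ} (hx : 0 ≤ x) (hN : 0 < N) :
    Real.negMulLog x ≤ x * Real.log N + 1 / N - x := by
  rcases hx.eq_or_lt with h | h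
  · rw [← h]; simp; positivity
  · have h1 := Real.log_le_sub_one_of_pos (x := 1 / (N * x)) (by positivity)
    rw [Real.log_div one_ne_zero (by positivity), Real.log_mul hN.ne' h.ne', Real.log_one] at h1
    unfold Real.negMulLog
    have h2 := mul_le_mul_of_nonneg_left h1 hx
    have h3 : x * (1 / (N * x) - 1) = 1 / N - x := by field_simp
    rw [h3] at h2
    nlinarith

theorem thinA_sum_negMulLog_thin_le {t : ℝ} (h0 : 0 ≤ t) (h1 : t ≤ 1) (k : Finset X) :
    ∑ S, Real.negMulLog (thin t k S) ≤ (k.card : ℝ) * Real.log 2 := by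
  have e1 : ∑ S, Real.negMulLog (thin t k S) = ∑ S ∈ k.powerset, Real.negMulLog (thin t k S) := by
    symm
    apply Finset.sum_subset (Finset.subset_univ _)
    intro S _ hS
    rw [Finset.mem_powerset] at hS
    simp [thin, hS]
  have e2 : ∑ S ∈ k.powerset, thin t k S = 1 := by
    rw [← sum_thin t k]
    apply Finset.sum_subset (Finset.subset_univ _)
    intro S _ hS
    rw [Finset.mem_powerset] at hS
    simp [thin, hS]
  rw [e1]
  have hN : (0 : ℝ) < 2 ^ k.card := by positivity
  calc ∑ S ∈ k.powerset, Real.negMulLog (thin t k S)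
      ≤ ∑ S ∈ k.powerset, (thin t k S * Real.log (2 ^ k.card) + 1 / 2 ^ k.card - thin t k S) :=
        Finset.sum_le_sum fun S _ => thinA_negMulLog_le_aux (thin_nonneg h0 h1 k S) hN
    _ = (k.card : ℝ) * Real.log 2 := by
        rw [Finset.sum_sub_distrib, Finset.sum_add_distrib, ← Finset.sum_mul, e2,
          Finset.sum_const, Finset.card_powerset, Real.log_pow, nsmul_eq_mul]
        push_cast
        field_simp
        ring

/-- `H(K^t) ≤ H(K) + E|K| log 2`.  (`H(K^t) ≤ H(K,K^t) = H(K) + ∑ r(k) H(thin t k ·)` and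
`H(thin t k ·) ≤ log 2^{|k|}`.) -/
theorem Ent_thinP_le {r : Finset X → ℝ} (hr : ∀ k, 0 ≤ r k) {t : ℝ} (h0 : 0 ≤ t) (h1 : t ≤ 1) :
    Ent (thinP r t) ≤ Ent r + (∑ k, r k * (k.card : ℝ)) * Real.log 2 := by
  unfold Ent thinP
  calc ∑ S, Real.negMulLog (∑ k, r k * thin t k S)
      ≤ ∑ S, ∑ k, Real.negMulLog (r k * thin t k S) :=
        Finset.sum_le_sum fun S _ => thinA_negMulLog_sum_le _ _
          fun k _ => mul_nonneg (hr k) (thin_nonneg h0 h1 k S)
    _ = ∑ k, ∑ S, (thin t k S * Real.negMulLog (r k) + r k * Real.negMulLog (thin t k S)) := by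
        rw [Finset.sum_comm]
        simp_rw [Real.negMulLog_mul]
    _ = ∑ k, (Real.negMulLog (r k) + r k * ∑ S, Real.negMulLog (thin t k S)) := by
        refine Finset.sum_congr rfl fun k _ => ?_
        rw [Finset.sum_add_distrib, ← Finset.sum_mul, sum_thin, one_mul, ← Finset.mul_sum]
    _ ≤ ∑ k, (Real.negMulLog (r k) + r k * ((k.card : ℝ) * Real.log 2)) := by
        refine Finset.sum_le_sum fun k _ => ?_
        have := mul_le_mul_of_nonneg_left (thinA_sum_negMulLog_thin_le h0 h1 k) (hr k)
        linarith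
    _ = ∑ x, Real.negMulLog (r x) + (∑ k, r k * (k.card : ℝ)) * Real.log 2 := by
        rw [Finset.sum_add_distrib, Finset.sum_mul]
        congr 1
        exact Finset.sum_congr rfl fun k _ => by ring

end Crest.Agent.R55
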