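import Crest.Agent.R55.DoubleB
import Crest.Agent.R55.ThinA
import Crest.Agent.R55.Analytic

/-! Row 55, piece Seed: adjoining the thinned set as additional information. -/

set_option autoImplicit false
open Finset
open scoped Pointwise

namespace Crest.Agent.R55

variable {𝔊 : Type} [Group 𝔊] [Fintype 𝔊]
variable {X : Type} [Fintype X] [DecidableEq X] {Z : Type} [Fintype Z] [DecidableEq Z]
variable [MulAction 𝔊 X] [MulAction 𝔊 Z]
variable {H : Finset X} {ν : Finset X × Z → ℝ}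

theorem nuT_eq_thinP (ν : Finset X × Z → ℝ) (t : ℝ) (G : Finset X) (z : Z) (S : Finset X) :
    nuT 𝔊 ν t (G, z, S) = thinP (fun k => rhoU 𝔊 ν (G, k, z)) t S := by
  change ν (G, z) * ∑ k, ww 𝔊 ν (G, z) k * thin t k S =
    ∑ k, ν (G, z) * ww 𝔊 ν (G, z) k * thin t k S
  rw [Finset.mul_sum]
  exact Finset.sum_congr rfl fun k _ => (mul_assoc _ _ _).symm

theorem sdAux_sum_nuT (h : ∀ y, 0 ≤ ν y) (t : ℝ) (G : Finset X) (z : Z) :
    ∑ S, nuT 𝔊 ν t (G, z, S) = ν (G, z) := by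
  rw [Finset.sum_congr rfl fun S _ => nuT_eq_thinP ν t G z S, sum_thinP, sum_rhoU h]

theorem sdAux_nuT_nonneg (h : ∀ y, 0 ≤ ν y) {t : ℝ} (h0 : 0 ≤ t) (h1 : t ≤ 1)
    (y : Finset X × Z × Finset X) : 0 ≤ nuT 𝔊 ν t y := by
  obtain ⟨G, z, S⟩ := y
  rw [nuT_eq_thinP]
  exact thinP_nonneg (fun k => rhoU_nonneg h _) h0 h1 S

theorem isState_nuT (h : IsState H ν) {t : ℝ} (h0 : 0 ≤ t) (h1 : t ≤ 1) :
    IsState H (nuT 𝔊 ν t) where
  nonneg := sdAux_nuT_nonneg h.nonneg h0 h1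
  sum_one := by
    rw [← h.sum_one, Fintype.sum_prod_type, Fintype.sum_prod_type]
    refine Finset.sum_congr rfl fun G _ => ?_
    rw [Fintype.sum_prod_type]
    exact Finset.sum_congr rfl fun z _ => sdAux_sum_nuT h.nonneg t G z
  supp := by
    rintro ⟨G, z, S⟩ hy
    exact h.supp (G, z) (left_ne_zero_of_mul hy)

theorem sizeA_nuT (h : ∀ y, 0 ≤ ν y) (t : ℝ) : sizeA (nuT 𝔊 ν t) = sizeA ν := by
  unfold sizeA
  rw [Fintype.sum_prod_type, Fintype.sum_prod_type]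
  refine Finset.sum_congr rfl fun G _ => ?_
  rw [Fintype.sum_prod_type]
  refine Finset.sum_congr rfl fun z _ => ?_
  change ∑ S, nuT 𝔊 ν t (G, z, S) * (G.card : ℝ) = ν (G, z) * (G.card : ℝ)
  rw [← Finset.sum_mul, sdAux_sum_nuT h]

set_option linter.unusedVariables false in
/-- by `II_push_le` and `II_kernel`. -/
theorem II_nuT_le (h : ∀ y, 0 ≤ ν y) {t : ℝ} (h0 : 0 ≤ t) (h1 : t ≤ 1) :
    II 𝔊 (nuT 𝔊 ν t) ≤ II 𝔊 ν := by
  have h2 := II_kernel (𝔊 := 𝔊) h (fun a S => ∑ k, ww 𝔊 ν a k * thin t k S)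
    (fun g a S => by
      change ∑ k, ww 𝔊 ν (g • a) k * thin t k (g • S) = ∑ k, ww 𝔊 ν a k * thin t k S
      rw [← Fintype.sum_equiv (MulAction.toPerm g)
        (fun k : Finset X => ww 𝔊 ν a k * thin t k S)
        (fun k : Finset X => ww 𝔊 ν (g • a) k * thin t k (g • S)) ?_]
      intro k
      change ww 𝔊 ν a k * thin t k S = ww 𝔊 ν (g • a) (g • k) * thin t (g • k) (g • S)
      rw [ww_smul, thin_smul])
    (fun a ha => by
      rw [Finset.sum_comm]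
      rw [← sum_ww h a ha]
      refine Finset.sum_congr rfl fun k _ => ?_
      rw [← Finset.mul_sum, sum_thin, mul_one])
  let e : (Finset X × Z) × Finset X ≃ Finset X × Z × Finset X := Equiv.prodAssoc _ _ _
  have h3 : Ent (fun y : (Finset X × Z) × Finset X =>
      ν y.1 * ∑ k, ww 𝔊 ν y.1 k * thin t k y.2) = Ent (nuT 𝔊 ν t) :=
    dbAux_Ent_equiv e (nuT 𝔊 ν t)
  have h4 : Ent (Av 𝔊 (fun y : (Finset X × Z) × Finset X =>
      ν y.1 * ∑ k, ww 𝔊 ν y.1 k * thin t k y.2)) = Ent (Av 𝔊 (nuT 𝔊 ν t)) :=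
    dbAux_Ent_equiv e (Av 𝔊 (nuT 𝔊 ν t))
  unfold II at h2 ⊢
  rw [h3, h4] at h2
  exact le_of_eq h2

theorem marg_nuT (ν : Finset X × Z → ℝ) (t : ℝ) (z : Z) (S : Finset X) :
    marg (nuT 𝔊 ν t) (z, S) = thinP (fun k => nuKu 𝔊 ν (k, z)) t S := by
  unfold marg
  rw [Finset.sum_congr rfl fun G _ => nuT_eq_thinP ν t G z S]
  unfold thinP
  rw [Finset.sum_comm]
  refine Finset.sum_congr rfl fun k _ => ?_
  rw [← Finset.sum_mul]
  congr 1
  exact (dbAux_push_snd (rhoU 𝔊 ν) (k, z)).symm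

/-- `Ent (marg nuT) ≤ Ent nuKu + sizeA nuKu * log 2`  (`Ent_thinP_le` for each `z`). -/
theorem Ent_marg_nuT_le (h : ∀ y, 0 ≤ ν y) {t : ℝ} (h0 : 0 ≤ t) (h1 : t ≤ 1) :
    Ent (marg (nuT 𝔊 ν t)) ≤ Ent (nuKu 𝔊 ν) + sizeA (nuKu 𝔊 ν) * Real.log 2 := by
  have hnn : ∀ y, 0 ≤ nuKu 𝔊 ν y := push_nonneg (rhoU_nonneg h) _
  have e1 : Ent (marg (nuT 𝔊 ν t)) = ∑ z, Ent (thinP (fun k => nuKu 𝔊 ν (k, z)) t) := by
    unfold Ent
    rw [Fintype.sum_prod_type]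
    refine Finset.sum_congr rfl fun z _ => ?_
    refine Finset.sum_congr rfl fun S _ => ?_
    rw [marg_nuT]
  have e2 : Ent (nuKu 𝔊 ν) = ∑ z, Ent (fun k => nuKu 𝔊 ν (k, z)) := by
    unfold Ent
    rw [Fintype.sum_prod_type, Finset.sum_comm]
  have e3 : sizeA (nuKu 𝔊 ν) = ∑ z, ∑ k : Finset X, nuKu 𝔊 ν (k, z) * (k.card : ℝ) := by
    unfold sizeA
    rw [Fintype.sum_prod_type, Finset.sum_comm]
  rw [e1, e2, e3, Finset.sum_mul, ← Finset.sum_add_distrib]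
  exact Finset.sum_le_sum fun z _ => Ent_thinP_le (fun k => hnn (k, z)) h0 h1

/-- the gain of potential as a Bregman divergence (`BB_eq`; the linear terms cancel since
`∑_S mem1 (nuT) x (z,S) = mem1 ν x z`). -/
theorem sum_F3_nuT (h : ∀ y, 0 ≤ ν y) {t : ℝ} (h0 : 0 ≤ t) (h1 : t ≤ 1) :
    ∑ y, marg (nuT 𝔊 ν t) y * ∑ x, F3 (kap (nuT 𝔊 ν t) x y) -
      ∑ z, marg ν z * ∑ x, F3 (kap ν x z) =
    ∑ y, marg (nuT 𝔊 ν t) y * ∑ x, BB (kap (nuT 𝔊 ν t) x y) (kap ν x y.1) := by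
  have hnn := sdAux_nuT_nonneg (𝔊 := 𝔊) h h0 h1
  -- margins
  have m1 : ∀ z, ∑ S, marg (nuT 𝔊 ν t) (z, S) = marg ν z := by
    intro z
    unfold marg
    rw [Finset.sum_comm]
    exact Finset.sum_congr rfl fun G _ => sdAux_sum_nuT h t G z
  have m2 : ∀ x z, ∑ S, marg (nuT 𝔊 ν t) (z, S) * kap (nuT 𝔊 ν t) x (z, S) =
      marg ν z * kap ν x z := by
    intro x z
    rw [marg_mul_kap h, Finset.sum_congr rfl fun S _ => marg_mul_kap hnn x (z, S)]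
    unfold mem1
    rw [Finset.sum_comm]
    refine Finset.sum_congr rfl fun G _ => ?_
    split_ifs
    · exact sdAux_sum_nuT h t G z
    · simp
  have hB : ∀ x y, BB (kap (nuT 𝔊 ν t) x y) (kap ν x y.1) = F3 (kap (nuT 𝔊 ν t) x y) -
      F3 (kap ν x y.1) - 3 * √(kap ν x y.1) * (kap (nuT 𝔊 ν t) x y - kap ν x y.1) :=
    fun x y => BB_eq (kap_nonneg hnn x y) (kap_nonneg h x y.1)
  have e1 : ∑ y, marg (nuT 𝔊 ν t) y * ∑ x, BB (kap (nuT 𝔊 ν t) x y) (kap ν x y.1) =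
      ∑ y, marg (nuT 𝔊 ν t) y * ∑ x, F3 (kap (nuT 𝔊 ν t) x y) -
      ∑ y : Z × Finset X, marg (nuT 𝔊 ν t) y * ∑ x, F3 (kap ν x y.1) -
      ∑ y : Z × Finset X, marg (nuT 𝔊 ν t) y *
        ∑ x, 3 * √(kap ν x y.1) * (kap (nuT 𝔊 ν t) x y - kap ν x y.1) := by
    rw [← Finset.sum_sub_distrib, ← Finset.sum_sub_distrib]
    refine Finset.sum_congr rfl fun y _ => ?_
    rw [← mul_sub, ← mul_sub, ← Finset.sum_sub_distrib, ← Finset.sum_sub_distrib]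
    rw [Finset.sum_congr rfl fun x _ => hB x y]
  have e2 : ∑ y : Z × Finset X, marg (nuT 𝔊 ν t) y * ∑ x, F3 (kap ν x y.1) =
      ∑ z, marg ν z * ∑ x, F3 (kap ν x z) := by
    rw [Fintype.sum_prod_type]
    refine Finset.sum_congr rfl fun z _ => ?_
    change ∑ S, marg (nuT 𝔊 ν t) (z, S) * ∑ x, F3 (kap ν x z) = _
    rw [← Finset.sum_mul, m1]
  have e3 : ∑ y : Z × Finset X, marg (nuT 𝔊 ν t) y *
        ∑ x, 3 * √(kap ν x y.1) * (kap (nuT 𝔊 ν t) x y - kap ν x y.1) = 0 := by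
    rw [Fintype.sum_prod_type]
    refine Finset.sum_eq_zero fun z _ => ?_
    change ∑ S, marg (nuT 𝔊 ν t) (z, S) *
        ∑ x, 3 * √(kap ν x z) * (kap (nuT 𝔊 ν t) x (z, S) - kap ν x z) = 0
    simp_rw [Finset.mul_sum]
    rw [Finset.sum_comm]
    refine Finset.sum_eq_zero fun x _ => ?_
    have e4 : ∀ S, marg (nuT 𝔊 ν t) (z, S) *
        (3 * √(kap ν x z) * (kap (nuT 𝔊 ν t) x (z, S) - kap ν x z)) =
        3 * √(kap ν x z) * (marg (nuT 𝔊 ν t) (z, S) * kap (nuT 𝔊 ν t) x (z, S) -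
          marg (nuT 𝔊 ν t) (z, S) * kap ν x z) := fun S => by ring
    rw [Finset.sum_congr rfl fun S _ => e4 S, ← Finset.mul_sum, Finset.sum_sub_distrib, m2,
      ← Finset.sum_mul, m1, sub_self, mul_zero]
  rw [e1, e2, e3, sub_zero]

end Crest.Agent.R55
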