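import Crest.Agent.R55.Defs

/-! Row 55, piece SpreadA: Bernoulli random subsets. `bern q W = q^|W| (1-q)^(|X|-|W|)`. -/

set_option autoImplicit false
open Finset

namespace Crest.Agent.R55

variable {X : Type} [Fintype X] [DecidableEq X]

theorem bern_nonneg {q : ℝ} (h0 : 0 ≤ q) (h1 : q ≤ 1) (W : Finset X) : 0 ≤ bern q W := by
  unfold bern
  have : 0 ≤ 1 - q := by linarith
  positivity

theorem sum_bern (q : ℝ) : ∑ W : Finset X, bern q W = 1 := by
  unfold bern
  rw [Fintype.sum_pow_mul_eq_add_pow]
  simp

omit [Fintype X] in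
theorem spreadA_union_aux (q q' : ℝ) (s : Finset X) : ∀ (f : Finset X → ℝ),
    ∑ W ∈ s.powerset, ∑ W' ∈ s.powerset,
      (q ^ W.card * (1 - q) ^ (s.card - W.card)) *
      (q' ^ W'.card * (1 - q') ^ (s.card - W'.card)) * f (W ∪ W') =
    ∑ W ∈ s.powerset, ((q + q' - q * q') ^ W.card * (1 - (q + q' - q * q')) ^ (s.card - W.card)) *
      f W := by
  induction s using Finset.induction_on with
  | empty => intro f; simp
  | insert a s ha ih =>
    intro f
    have c1 : ∀ (q : ℝ) (W : Finset X), W ∈ s.powerset →
        q ^ W.card * (1 - q) ^ ((insert a s).card - W.card) =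
          (1 - q) * (q ^ W.card * (1 - q) ^ (s.card - W.card)) := by
      intro q W hW
      rw [mem_powerset] at hW
      have h1 := card_le_card hW
      rw [card_insert_of_notMem ha]
      have : s.card + 1 - W.card = (s.card - W.card) + 1 := by omega
      rw [this, pow_succ]; ring
    have c2 : ∀ (q : ℝ) (W : Finset X), W ∈ s.powerset →
        q ^ (insert a W).card * (1 - q) ^ ((insert a s).card - (insert a W).card) =
          q * (q ^ W.card * (1 - q) ^ (s.card - W.card)) := by
      intro q W hW
      rw [mem_powerset] at hW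
      have h1 := card_le_card hW
      have h2 : a ∉ W := fun h => ha (hW h)
      rw [card_insert_of_notMem ha, card_insert_of_notMem h2]
      have : s.card + 1 - (W.card + 1) = (s.card - W.card) := by omega
      rw [this, pow_succ]; ring
    have ihf := ih f
    have ihg := ih (fun W => f (insert a W))
    rw [sum_powerset_insert ha, sum_powerset_insert ha]
    have L1 : ∑ W ∈ s.powerset, ∑ W' ∈ (insert a s).powerset,
      (q ^ W.card * (1 - q) ^ ((insert a s).card - W.card)) *
      (q' ^ W'.card * (1 - q') ^ ((insert a s).card - W'.card)) * f (W ∪ W') =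
      (1 - q) * (1 - q') * ∑ W ∈ s.powerset, ∑ W' ∈ s.powerset,
      (q ^ W.card * (1 - q) ^ (s.card - W.card)) *
      (q' ^ W'.card * (1 - q') ^ (s.card - W'.card)) * f (W ∪ W') +
      (1 - q) * q' * ∑ W ∈ s.powerset, ∑ W' ∈ s.powerset,
      (q ^ W.card * (1 - q) ^ (s.card - W.card)) *
      (q' ^ W'.card * (1 - q') ^ (s.card - W'.card)) * f (insert a (W ∪ W')) := by
      rw [mul_sum, mul_sum, ← sum_add_distrib]
      refine sum_congr rfl fun W hW => ?_
      rw [sum_powerset_insert ha, mul_sum, mul_sum]
      congr 1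
      · refine sum_congr rfl fun W' hW' => ?_
        rw [c1 q W hW, c1 q' W' hW']; ring
      · refine sum_congr rfl fun W' hW' => ?_
        rw [c1 q W hW, c2 q' W' hW', union_insert]; ring
    have L2 : ∑ W ∈ s.powerset, ∑ W' ∈ (insert a s).powerset,
      (q ^ (insert a W).card * (1 - q) ^ ((insert a s).card - (insert a W).card)) *
      (q' ^ W'.card * (1 - q') ^ ((insert a s).card - W'.card)) * f (insert a W ∪ W') =
      q * (1 - q') * ∑ W ∈ s.powerset, ∑ W' ∈ s.powerset,
      (q ^ W.card * (1 - q) ^ (s.card - W.card)) *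
      (q' ^ W'.card * (1 - q') ^ (s.card - W'.card)) * f (insert a (W ∪ W')) +
      q * q' * ∑ W ∈ s.powerset, ∑ W' ∈ s.powerset,
      (q ^ W.card * (1 - q) ^ (s.card - W.card)) *
      (q' ^ W'.card * (1 - q') ^ (s.card - W'.card)) * f (insert a (W ∪ W')) := by
      rw [mul_sum, mul_sum, ← sum_add_distrib]
      refine sum_congr rfl fun W hW => ?_
      rw [sum_powerset_insert ha, mul_sum, mul_sum]
      congr 1
      · refine sum_congr rfl fun W' hW' => ?_
        rw [c2 q W hW, c1 q' W' hW', insert_union]; ring
      · refine sum_congr rfl fun W' hW' => ?_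
        rw [c2 q W hW, c2 q' W' hW', union_insert, insert_union, insert_idem]; ring
    rw [L1, L2, ihf, ihg]
    have R1 : ∑ W ∈ s.powerset, ((q + q' - q * q') ^ W.card *
        (1 - (q + q' - q * q')) ^ ((insert a s).card - W.card)) * f W =
        (1 - (q + q' - q * q')) * ∑ W ∈ s.powerset, ((q + q' - q * q') ^ W.card *
        (1 - (q + q' - q * q')) ^ (s.card - W.card)) * f W := by
      rw [mul_sum]
      refine sum_congr rfl fun W hW => ?_
      rw [c1 _ W hW]; ring
    have R2 : ∑ W ∈ s.powerset, ((q + q' - q * q') ^ (insert a W).card *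
        (1 - (q + q' - q * q')) ^ ((insert a s).card - (insert a W).card)) * f (insert a W) =
        (q + q' - q * q') * ∑ W ∈ s.powerset, ((q + q' - q * q') ^ W.card *
        (1 - (q + q' - q * q')) ^ (s.card - W.card)) * f (insert a W) := by
      rw [mul_sum]
      refine sum_congr rfl fun W hW => ?_
      rw [c2 _ W hW]; ring
    rw [R1, R2]
    ring

/-- the union of independent random sets of densities `q`, `q'` has density `q + q' - q q'`. -/
theorem bern_union (q q' : ℝ) (f : Finset X → ℝ) :
    ∑ W : Finset X, ∑ W' : Finset X, bern q W * bern q' W' * f (W ∪ W') =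
      ∑ W : Finset X, bern (q + q' - q * q') W * f W := by
  have h := spreadA_union_aux q q' (univ : Finset X) f
  rw [powerset_univ] at h
  simp only [bern, ← card_univ]
  exact h

/-- monotonicity of the expectation of an increasing function. -/
theorem bern_mono {q q' : ℝ} (h0 : 0 ≤ q) (h : q ≤ q') (h1 : q' ≤ 1) (f : Finset X → ℝ)
    (hf : ∀ A B : Finset X, A ⊆ B → f A ≤ f B) :
    ∑ W : Finset X, bern q W * f W ≤ ∑ W : Finset X, bern q' W * f W := by
  rcases eq_or_lt_of_le (h.trans h1) with hq | hq
  · have : q = q' := le_antisymm h (by rw [hq]; exact h1)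
    rw [this]
  · have h2 : 0 < 1 - q := by linarith
    set r : ℝ := (q' - q) / (1 - q) with hr
    have hr0 : 0 ≤ r := div_nonneg (by linarith) h2.le
    have hr1 : r ≤ 1 := by rw [hr, div_le_one h2]; linarith
    have hqr : q' = q + r - q * r := by
      have : r * (1 - q) = q' - q := by rw [hr]; field_simp
      linarith
    rw [hqr, ← bern_union]
    refine sum_le_sum fun W _ => ?_
    calc bern q W * f W = ∑ W' : Finset X, bern q W * bern r W' * f W := by
          rw [← sum_mul, ← mul_sum, sum_bern, mul_one]
      _ ≤ ∑ W' : Finset X, bern q W * bern r W' * f (W ∪ W') := by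
          refine sum_le_sum fun W' _ => ?_
          refine mul_le_mul_of_nonneg_left (hf _ _ subset_union_left) ?_
          exact mul_nonneg (bern_nonneg h0 hq.le _) (bern_nonneg hr0 hr1 _)

end Crest.Agent.R55
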