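import Crest.Agent.R55.SpreadA

/-! Row 55, piece SpreadB: minimum fragments (Park-Pham), one round. -/

set_option autoImplicit false
open Finset

namespace Crest.Agent.R55

variable {X : Type} [Fintype X] [DecidableEq X]

/-- a minimum fragment: for `i ∈ I` there is `j ∈ I` with `E j ⊆ W ∪ E i` and `|E j \ W|` minimal;
`frag I E W i = E j \ W`. -/
theorem exists_frag {ι : Type} (I : Finset ι) (E : ι → Finset X) (W : Finset X) :
    ∃ T : ι → Finset X, ∀ i ∈ I,
      (∃ j ∈ I, T i = E j \ W) ∧ T i ⊆ E i ∧ Disjoint (T i) W ∧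
      (∀ j ∈ I, E j ⊆ W ∪ E i → (T i).card ≤ (E j \ W).card) ∧ (∃ j ∈ I, E j ⊆ W ∪ T i) := by
  classical
  have key : ∀ i ∈ I, ∃ j ∈ I, E j ⊆ W ∪ E i ∧
      ∀ k ∈ I, E k ⊆ W ∪ E i → (E j \ W).card ≤ (E k \ W).card := by
    intro i hi
    have hne : (I.filter (fun j => E j ⊆ W ∪ E i)).Nonempty :=
      ⟨i, by simp [hi, subset_union_right]⟩
    obtain ⟨j, hj, hmin⟩ := exists_min_image _ (fun j => (E j \ W).card) hne
    rw [mem_filter] at hj
    refine ⟨j, hj.1, hj.2, ?_⟩
    intro k hk hkk
    exact hmin k (by simp [hk, hkk])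
  choose! J hJI hJsub hJmin using key
  refine ⟨fun i => E (J i) \ W, ?_⟩
  intro i hi
  refine ⟨⟨J i, hJI i hi, rfl⟩, ?_, ?_, ?_, ⟨J i, hJI i hi, ?_⟩⟩
  · intro x hx
    rw [mem_sdiff] at hx
    have := hJsub i hi hx.1
    rw [mem_union] at this
    rcases this with h | h
    · exact absurd h hx.2
    · exact h
  · exact sdiff_disjoint
  · intro k hk hkk
    exact hJmin i hi k hk hkk
  · intro x hx
    by_cases hxW : x ∈ W
    · exact mem_union_left _ hxW
    · exact mem_union_right _ (mem_sdiff.2 ⟨hx, hxW⟩)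

theorem spreadB_bern_le {q : ℝ} (h0 : 0 < q) (h1 : q < 1) (W S : Finset X) (h : Disjoint S W) :
    bern q W ≤ bern q (W ∪ S) / q ^ S.card := by
  have hcard : (W ∪ S).card = W.card + S.card := card_union_of_disjoint h.symm
  have hle : (W ∪ S).card ≤ Fintype.card X := card_le_univ _
  unfold bern
  rw [le_div_iff₀ (pow_pos h0 _), hcard]
  have h2 : Fintype.card X - W.card = (Fintype.card X - (W.card + S.card)) + S.card := by omega
  rw [h2, pow_add, pow_add]
  have h3 : (1 - q) ^ S.card ≤ 1 := pow_le_one₀ (by linarith) (by linarith)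
  have h4 : 0 ≤ q ^ W.card * q ^ S.card * (1 - q) ^ (Fintype.card X - (W.card + S.card)) := by
    have : 0 ≤ 1 - q := by linarith
    positivity
  nlinarith

/-- one round.  Change of variables `U = W ∪ T W i`, `bern q₀ W ≤ bern q₀ U q₀^{-t}`, and
`T W i ⊆ E (j U)` where `j U ∈ I` is any index with `E (j U) ⊆ U`: `E j \ W ⊆ T`, so equality by
minimality.  For each `U` at most `C(ℓ,t)` choices of `T`, and for each `T` at most `2 q^t N`
choices of `i`. -/
theorem round {ι : Type} (I : Finset ι) (E : ι → Finset X) (ℓ : ℕ)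
    (hE : ∀ i ∈ I, (E i).card ≤ ℓ) (q K N : ℝ) (hq : 0 < q) (hK : 0 < K) (hq1 : K * q < 1)
    (hN : 0 ≤ N)
    (hspread : ∀ S : Finset X, ((I.filter (fun i => S ⊆ E i)).card : ℝ) ≤ 2 * q ^ S.card * N)
    (T : Finset X → ι → Finset X)
    (hT : ∀ W, ∀ i ∈ I,
      (∃ j ∈ I, T W i = E j \ W) ∧ T W i ⊆ E i ∧ Disjoint (T W i) W ∧
      (∀ j ∈ I, E j ⊆ W ∪ E i → (T W i).card ≤ (E j \ W).card) ∧ (∃ j ∈ I, E j ⊆ W ∪ T W i))
    (t : ℕ) :
    ∑ W : Finset X, bern (K * q) W * ((I.filter (fun i => (T W i).card = t)).card : ℝ) ≤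
      2 * (ℓ.choose t) * N / K ^ t := by
  classical
  have hq0 : 0 < K * q := mul_pos hK hq
  -- candidates for the fragment
  let A : Finset X → Finset (Finset X) := fun U =>
    if h : ∃ j ∈ I, E j ⊆ U then powersetCard t (E h.choose) else ∅
  have hA : ∀ U, ((A U).card : ℝ) ≤ (ℓ.choose t : ℝ) := by
    intro U
    by_cases h : ∃ j ∈ I, E j ⊆ U
    · have : A U = powersetCard t (E h.choose) := dif_pos h
      rw [this, card_powersetCard]
      exact_mod_cast Nat.choose_le_choose t (hE _ h.choose_spec.1)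
    · have : A U = ∅ := dif_neg h
      rw [this]; simp
  have hAt : ∀ U, ∀ S ∈ A U, S.card = t := by
    intro U S hS
    by_cases h : ∃ j ∈ I, E j ⊆ U
    · have : A U = powersetCard t (E h.choose) := dif_pos h
      rw [this, mem_powersetCard] at hS
      exact hS.2
    · have : A U = ∅ := dif_neg h
      rw [this] at hS; simp at hS
  have hmemA : ∀ W, ∀ i ∈ I, (T W i).card = t → T W i ∈ A (W ∪ T W i) := by
    intro W i hi hc
    obtain ⟨_, hsub, hdis, hmin, hex⟩ := hT W i hi
    have h : ∃ j ∈ I, E j ⊆ W ∪ T W i := hex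
    have hAU : A (W ∪ T W i) = powersetCard t (E h.choose) := dif_pos h
    rw [hAU, mem_powersetCard]
    refine ⟨?_, hc⟩
    have h1 : E h.choose ⊆ W ∪ T W i := h.choose_spec.2
    have h2 : E h.choose ⊆ W ∪ E i := h1.trans (union_subset_union_right hsub)
    have h3 := hmin _ h.choose_spec.1 h2
    have h4 : E h.choose \ W ⊆ T W i := by
      intro x hx
      rw [mem_sdiff] at hx
      have := h1 hx.1
      rw [mem_union] at this
      rcases this with h' | h'
      · exact absurd h' hx.2
      · exact h'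
    have h5 : E h.choose \ W = T W i := eq_of_subset_of_card_le h4 h3
    intro x hx
    have hx' : x ∈ E h.choose \ W := by
      have h6 := Finset.ext_iff.1 h5 x
      exact h6.2 hx
    exact (mem_sdiff.1 hx').1
  -- step 1 : exchange the sums
  have e1 : ∑ W : Finset X, bern (K * q) W * ((I.filter (fun i => (T W i).card = t)).card : ℝ)
      = ∑ i ∈ I, ∑ W : Finset X, if (T W i).card = t then bern (K * q) W else 0 := by
    rw [sum_comm]
    refine sum_congr rfl fun W _ => ?_
    rw [card_filter]
    push_cast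
    rw [mul_sum]
    refine sum_congr rfl fun i _ => ?_
    split_ifs <;> simp
  rw [e1]
  -- step 2 : each inner sum
  have e2 : ∀ i ∈ I, (∑ W : Finset X, if (T W i).card = t then bern (K * q) W else 0) ≤
      ∑ U : Finset X, ∑ S ∈ A U, if S ⊆ E i then bern (K * q) U / (K * q) ^ t else 0 := by
    intro i hi
    rw [← sum_filter]
    have hr : ∀ U : Finset X, (∑ S ∈ A U, if S ⊆ E i then bern (K * q) U / (K * q) ^ t else 0) =
        ∑ S ∈ (A U).filter (fun S => S ⊆ E i), bern (K * q) U / (K * q) ^ t := by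
      intro U; rw [sum_filter]
    simp_rw [hr]
    rw [← sum_sigma (univ : Finset (Finset X)) (fun U => (A U).filter (fun S => S ⊆ E i))
      (fun x : (_ : Finset X) × Finset X => bern (K * q) x.1 / (K * q) ^ t)]
    let φ : Finset X → (_ : Finset X) × Finset X := fun W => ⟨W ∪ T W i, T W i⟩
    have hinj : Set.InjOn φ ((univ : Finset (Finset X)).filter (fun W => (T W i).card = t) :
        Set (Finset X)) := by
      intro W _ W' _ hWW
      have h1 : W ∪ T W i = W' ∪ T W' i := congrArg (fun x => x.1) hWW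
      have h2 : T W i = T W' i := by
        have := hWW
        simp only [φ, Sigma.mk.injEq, heq_eq_eq] at this
        exact this.2
      have d1 : Disjoint W (T W i) := (hT W i hi).2.2.1.symm
      have d2 : Disjoint W' (T W' i) := (hT W' i hi).2.2.1.symm
      calc W = (W ∪ T W i) \ T W i := by
            rw [union_sdiff_right]; exact (sdiff_eq_self_of_disjoint d1).symm
        _ = (W' ∪ T W' i) \ T W' i := by rw [h1, h2]
        _ = W' := by rw [union_sdiff_right]; exact sdiff_eq_self_of_disjoint d2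
    calc ∑ W ∈ univ.filter (fun W => (T W i).card = t), bern (K * q) W
        ≤ ∑ W ∈ univ.filter (fun W => (T W i).card = t),
            bern (K * q) (φ W).1 / (K * q) ^ t := by
          refine sum_le_sum fun W hW => ?_
          rw [mem_filter] at hW
          have := spreadB_bern_le hq0 hq1 W (T W i) (hT W i hi).2.2.1
          rw [hW.2] at this
          exact this
      _ = ∑ x ∈ (univ.filter (fun W => (T W i).card = t)).image φ,
            bern (K * q) x.1 / (K * q) ^ t := by
          rw [sum_image hinj]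
      _ ≤ _ := by
          refine sum_le_sum_of_subset_of_nonneg ?_ ?_
          · intro x hx
            rw [mem_image] at hx
            obtain ⟨W, hW, rfl⟩ := hx
            rw [mem_filter] at hW
            rw [mem_sigma]
            refine ⟨mem_univ _, ?_⟩
            rw [mem_filter]
            exact ⟨hmemA W i hi hW.2, (hT W i hi).2.1⟩
          · intro x _ _
            exact div_nonneg (bern_nonneg hq0.le hq1.le _) (pow_nonneg hq0.le _)
  refine (sum_le_sum e2).trans ?_
  rw [sum_comm]
  have e3 : ∀ U : Finset X, (∑ i ∈ I, ∑ S ∈ A U,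
      if S ⊆ E i then bern (K * q) U / (K * q) ^ t else 0) ≤
      bern (K * q) U * (2 * (ℓ.choose t) * N / K ^ t) := by
    intro U
    rw [sum_comm]
    have hb : 0 ≤ bern (K * q) U / (K * q) ^ t :=
      div_nonneg (bern_nonneg hq0.le hq1.le _) (pow_nonneg hq0.le _)
    calc ∑ S ∈ A U, ∑ i ∈ I, (if S ⊆ E i then bern (K * q) U / (K * q) ^ t else 0)
        = ∑ S ∈ A U, ((I.filter (fun i => S ⊆ E i)).card : ℝ) *
            (bern (K * q) U / (K * q) ^ t) := by
          refine sum_congr rfl fun S _ => ?_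
          rw [← sum_filter, sum_const, nsmul_eq_mul]
      _ ≤ ∑ S ∈ A U, (2 * q ^ t * N) * (bern (K * q) U / (K * q) ^ t) := by
          refine sum_le_sum fun S hS => ?_
          have := hspread S
          rw [hAt U S hS] at this
          exact mul_le_mul_of_nonneg_right this hb
      _ = ((A U).card : ℝ) * ((2 * q ^ t * N) * (bern (K * q) U / (K * q) ^ t)) := by
          rw [sum_const, nsmul_eq_mul]
      _ ≤ (ℓ.choose t : ℝ) * ((2 * q ^ t * N) * (bern (K * q) U / (K * q) ^ t)) := by
          refine mul_le_mul_of_nonneg_right (hA U) ?_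
          positivity
      _ = bern (K * q) U * (2 * (ℓ.choose t) * N / K ^ t) := by
          rw [mul_pow]
          field_simp
  refine (sum_le_sum fun U _ => e3 U).trans ?_
  rw [← sum_mul, sum_bern, one_mul]

end Crest.Agent.R55
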